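import Vale.Agent.P181.S.NDefs

/-! Symmetry and homogeneity of plethysm, antisymmetry of `cP`, initial values.

PLAN.  `pl_symm`: rename σ ∘ aeval smon = aeval (smon ∘ Sym.equivCongr σ) = aeval smon ∘ rename,
and `hsymm_isSymmetric` / `rename_hsymm`.  `pl_homog`: pl is a sum of products of a monomials of
degree e.  Antisymmetry: `R.SymC.Anti.coeff_comp` with `Equiv.swap`, for
`(R.SymC.anti_alt _).mul (pl_symm ..)`.  `cP_zero`: pl n 0 e = 1, so this is the coefficient of
x^ν in alt rho, ν = (15 - sum, p, q, a, c, d); by `R.alt_eq_sum` it is ∑_σ sign σ [ν = rho ∘ σ].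
If ν = rho ∘ σ it is sign σ, and vd6 ν = sign σ * 34560 (vd6 is a Vandermonde determinant up to a
fixed sign, `Matrix.det_vandermonde`, `Matrix.det_permute`; or `decide +kernel` over the 720 σ).
Otherwise it is 0, and either some entry exceeds 5 among p..d (A0 = 0 by definition), or ν is not
injective (six distinct naturals with sum 15 are a permutation of 0..5; a finite check over
p q a c d ≤ 5 by `decide +kernel` of a Boolean statement is fine), so vd6 = 0. -/

namespace Vale.Agent.P181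

open MvPolynomial Finset

theorem pl_symm (n j e : ℕ) : (pl n j e).IsSymmetric := by
  intro σ
  have h1 : ∀ s : Sym (Fin n) e, rename σ (smon n e s) = smon n e (Sym.equivCongr σ s) := by
    intro s
    unfold smon
    rw [map_multiset_prod, Multiset.map_map]
    change _ = ((s.1.map σ).map X).prod
    rw [Multiset.map_map]
    simp only [Function.comp_def, rename_X]
  unfold pl
  rw [← AlgHom.comp_apply, comp_aeval]
  simp only [h1]
  have h2 := aeval_rename (Sym.equivCongr (n := e) σ) (smon n e) (hsymm (Sym (Fin n) e) ℤ j)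
  rw [hsymm_isSymmetric _ _ j (Sym.equivCongr σ)] at h2
  exact h2.symm

theorem anti_prod {ι σ : Type} (s : Multiset ι) {f : ι → MvPolynomial σ ℤ} {e : ℕ}
    (h : ∀ i, (f i).IsHomogeneous e) : (s.map f).prod.IsHomogeneous (s.card * e) := by
  induction s using Multiset.induction_on with
  | empty => simpa using isHomogeneous_one σ ℤ
  | cons i s ih =>
    rw [Multiset.map_cons, Multiset.prod_cons, Multiset.card_cons, add_mul, one_mul, add_comm]
    exact (h i).mul ih

theorem pl_homog (n j e : ℕ) : (pl n j e).IsHomogeneous (j * e) := by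
  have h1 : ∀ s : Sym (Fin n) e, (smon n e s).IsHomogeneous e := fun s => by
    have h2 := anti_prod s.1 fun i : Fin n => isHomogeneous_X ℤ i
    rwa [s.2, mul_one] at h2
  unfold pl hsymm
  rw [map_sum]
  refine IsHomogeneous.sum _ _ _ fun s _ => ?_
  rw [map_multiset_prod, Multiset.map_map]
  simp only [Function.comp_def, aeval_X]
  have h2 := anti_prod s.1 h1
  rwa [s.2] at h2

theorem anti_swap (j e : ℕ) (x y : Fin 6) (h : x ≠ y) {ν μ : Fin 6 → ℕ}
    (hν : μ = ν ∘ Equiv.swap x y) :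
    coeff (fs μ) (alt 6 (rho 6) * pl 6 j e) = -coeff (fs ν) (alt 6 (rho 6) * pl 6 j e) := by
  rw [hν, ((R.SymC.anti_alt _).mul (pl_symm 6 j e)).coeff_comp, Equiv.Perm.sign_swap h]
  simp

theorem cP_swap1 (j e p q a c d : ℕ) : cP j e p a q c d = -cP j e p q a c d := by
  unfold cP co
  rw [show p + a + q + c + d = p + q + a + c + d by ring]
  split_ifs
  · refine anti_swap j e 2 3 (by decide) (funext fun i => ?_)
    fin_cases i <;> rfl
  · rfl

theorem cP_swap2 (j e p q a c d : ℕ) : cP j e p q c a d = -cP j e p q a c d := by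
  unfold cP co
  rw [show p + q + c + a + d = p + q + a + c + d by ring]
  split_ifs
  · refine anti_swap j e 3 4 (by decide) (funext fun i => ?_)
    fin_cases i <;> rfl
  · rfl

theorem cP_swap3 (j e p q a c d : ℕ) : cP j e p q a d c = -cP j e p q a c d := by
  unfold cP co
  rw [show p + q + a + d + c = p + q + a + c + d by ring]
  split_ifs
  · refine anti_swap j e 4 5 (by decide) (funext fun i => ?_)
    fin_cases i <;> rfl
  · rfl

theorem anti_vd (v : Fin 6 → ℤ) :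
    vd6 (v 0) (v 1) (v 2) (v 3) (v 4) (v 5) = -(Matrix.vandermonde v).det := by
  rw [Matrix.det_vandermonde]
  simp only [Fin.prod_univ_succ, Fin.prod_Ioi_zero, Fin.prod_Ioi_succ, Fin.prod_univ_zero, vd6]
  change _ = -((v 1 - v 0) * ((v 2 - v 0) * ((v 3 - v 0) * ((v 4 - v 0) * ((v 5 - v 0) * 1)))) *
    ((v 2 - v 1) * ((v 3 - v 1) * ((v 4 - v 1) * ((v 5 - v 1) * 1))) *
    ((v 3 - v 2) * ((v 4 - v 2) * ((v 5 - v 2) * 1)) * ((v 4 - v 3) * ((v 5 - v 3) * 1) *
    ((v 5 - v 4) * 1 * (1 * 1))))))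
  generalize v 0 = x0, v 1 = x1, v 2 = x2, v 3 = x3, v 4 = x4, v 5 = x5
  rw [← neg_sub x0 x1, ← neg_sub x0 x2, ← neg_sub x0 x3, ← neg_sub x0 x4, ← neg_sub x0 x5,
    ← neg_sub x1 x2, ← neg_sub x1 x3, ← neg_sub x1 x4, ← neg_sub x1 x5, ← neg_sub x2 x3,
    ← neg_sub x2 x4, ← neg_sub x2 x5, ← neg_sub x3 x4, ← neg_sub x3 x5, ← neg_sub x4 x5]
  generalize x0 - x1 = y1, x0 - x2 = y2, x0 - x3 = y3, x0 - x4 = y4, x0 - x5 = y5, x1 - x2 = y6,
    x1 - x3 = y7, x1 - x4 = y8, x1 - x5 = y9, x2 - x3 = y10, x2 - x4 = y11, x2 - x5 = y12,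
    x3 - x4 = y13, x3 - x5 = y14, x4 - x5 = y15
  ring

theorem anti_vd_perm (v : Fin 6 → ℤ) (σ : Equiv.Perm (Fin 6)) :
    (Matrix.vandermonde (v ∘ σ)).det =
      ((Equiv.Perm.sign σ : ℤˣ) : ℤ) * (Matrix.vandermonde v).det := by
  have h := Matrix.det_permute σ (Matrix.vandermonde v)
  rw [Int.cast_id] at h
  exact h

theorem anti_sum0 : ∀ p q a c d : Fin 6, [p, q, a, c, d].Nodup →
    10 ≤ p.1 + q.1 + a.1 + c.1 + d.1 := by
  decide +kernel

theorem anti_sum (p q a c d : Fin 6) (h1 : p ≠ q) (h2 : p ≠ a) (h3 : p ≠ c) (h4 : p ≠ d)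
    (h5 : q ≠ a) (h6 : q ≠ c) (h7 : q ≠ d) (h8 : a ≠ c) (h9 : a ≠ d) (h10 : c ≠ d) :
    10 ≤ p.1 + q.1 + a.1 + c.1 + d.1 :=
  anti_sum0 p q a c d (by simp [*])

theorem anti_zero (ν : Fin 6 → ℕ) (hs : ν 0 + (ν 1 + ν 2 + ν 3 + ν 4 + ν 5) = 15) :
    coeff (fs ν) (alt 6 (rho 6)) =
      if ν 1 ≤ 5 ∧ ν 2 ≤ 5 ∧ ν 3 ≤ 5 ∧ ν 4 ≤ 5 ∧ ν 5 ≤ 5 then
        vd6 (ν 0) (ν 1) (ν 2) (ν 3) (ν 4) (ν 5) / 34560 else 0 := by
  rw [anti_vd fun i => (ν i : ℤ)]
  by_cases h : ∃ σ : Equiv.Perm (Fin 6), ν = rho 6 ∘ σ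
  · obtain ⟨σ, rfl⟩ := h
    have h1 : ∀ i, (rho 6 ∘ σ) i ≤ 5 := fun i => Nat.sub_le _ _
    have h2 : (Matrix.vandermonde fun i => (rho 6 i : ℤ)).det = -34560 := by
      have h3 := anti_vd fun i => (rho 6 i : ℤ)
      have h4 : vd6 (rho 6 0) (rho 6 1) (rho 6 2) (rho 6 3) (rho 6 4) (rho 6 5) = 34560 := by
        decide +kernel
      linarith
    have h3 := anti_vd_perm (fun i => (rho 6 i : ℤ)) σ
    rw [h2] at h3
    rw [if_pos ⟨h1 1, h1 2, h1 3, h1 4, h1 5⟩, (R.SymC.anti_alt _).coeff_comp,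
      R.coeff_alt R.SymB.rho_anti R.SymB.rho_anti, if_pos rfl, mul_one]
    change _ = -(Matrix.vandermonde ((fun i => (rho 6 i : ℤ)) ∘ σ)).det / 34560
    rw [h3]
    omega
  · rw [R.alt_eq_sum, coeff_sum, sum_eq_zero fun σ _ => by
      rw [coeff_monomial, if_neg fun h1 => h ⟨σ, (R.fs_injective h1).symm⟩]]
    split_ifs with h1
    · obtain ⟨a1, a2, a3, a4, a5⟩ := h1
      have h2 : (Matrix.vandermonde fun i => (ν i : ℤ)).det = 0 := by
        by_contra h2
        have h3 : Function.Injective ν := fun i k e =>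
          Matrix.det_vandermonde_ne_zero_iff.1 h2 (congrArg Nat.cast e)
        have h4 : ∀ {i k : Fin 6} {hi hk}, i ≠ k → (⟨ν i, hi⟩ : Fin 6) ≠ ⟨ν k, hk⟩ :=
          fun h5 h6 => h5 (h3 (congrArg Fin.val h6))
        have h5 := anti_sum ⟨ν 1, by omega⟩ ⟨ν 2, by omega⟩ ⟨ν 3, by omega⟩ ⟨ν 4, by omega⟩
          ⟨ν 5, by omega⟩ (h4 (by decide)) (h4 (by decide)) (h4 (by decide)) (h4 (by decide))
          (h4 (by decide)) (h4 (by decide)) (h4 (by decide)) (h4 (by decide)) (h4 (by decide))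
          (h4 (by decide))
        simp only at h5
        have h6 : ∀ i, ν i ≤ 5 := fun i => by
          fin_cases i
          · change ν 0 ≤ 5
            omega
          exacts [a1, a2, a3, a4, a5]
        have h7 : Function.Injective fun i => (⟨5 - ν i, by omega⟩ : Fin 6) := fun i k e => by
          have h8 : 5 - ν i = 5 - ν k := congrArg Fin.val e
          have := h6 i
          have := h6 k
          exact h3 (by omega)
        refine h ⟨Equiv.ofBijective _ h7.bijective_of_finite, funext fun i => ?_⟩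
        change ν i = 6 - 1 - (5 - ν i)
        have := h6 i
        omega
      rw [h2]
      rfl
    · rfl

theorem cP_zero (e p q a c d : ℕ) : cP 0 e p q a c d = A0 p q a c d := by
  unfold cP co A0 pl
  rw [hsymm_zero, map_one, mul_one, zero_mul, zero_add]
  by_cases h : p + q + a + c + d ≤ 15
  · rw [if_pos h, anti_zero _ (Nat.sub_add_cancel h)]
    simp only [h, and_true]
    rfl
  · rw [if_neg h, if_neg fun h1 => h h1.2.2.2.2.2]

theorem cP_big {j e p q a c d : ℕ} (h : j * e + 15 < p + q + a + c + d) :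
    cP j e p q a c d = 0 := if_neg h.not_ge

theorem mult_eq_cP (j e : ℕ) (l : Fin 6 → ℕ) (h : ∑ i, l i = j * e) :
    mult 6 (pl 6 j e) l = cP j e (l 1 + 4) (l 2 + 3) (l 3 + 2) (l 4 + 1) (l 5) := by
  rw [Fin.sum_univ_six] at h
  unfold cP co mult
  rw [if_pos (by omega)]
  congr 2
  funext i
  fin_cases i
  · change l 0 + 5 = j * e + 15 - (l 1 + 4 + (l 2 + 3) + (l 3 + 2) + (l 4 + 1) + l 5)
    omega
  all_goals rfl

theorem mult_pl_eq_zero (j e : ℕ) (l : Fin 6 → ℕ) (h : ∑ i, l i ≠ j * e) :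
    mult 6 (pl 6 j e) l = 0 := R.mult_eq_zero_of_homog (pl_homog 6 j e) h

end Vale.Agent.P181
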