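import Vale.Agent.P181.S.NDefs

/-! Cauchy type formula for the multiplicities in `p_ρ[h_b]`.

PLAN.  First `coeff_PR`: for α : Fin 6 → ℕ, coeff (fs α) (∏_r expand (ρ r) (hsymm b)) and
coeff (fs fun _ => b) (∏_i CC ρ (α i)) both count the matrices γ : Fin m → Fin 6 → ℕ with
∑_i γ r i = b for all r and ∑_r ρ r * γ r i = α i for all i.  (Expand both products of sums with
`Finset.prod_univ_sum` / `Finset.prod_sum`, `R.SymA.hsymm_eq`, `expand_monomial`, `coeff_monomial`,
then `Finset.card_bij` or `sum_nbij'` with the transpose.  A slicker way: work in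
MvPowerSeries or do an induction on m.)  For an integer vector with a negative entry both
`R.coeffZ` and the product of CC vanish (CC ρ k = 0 for k < 0).  Then `R.mult_eq_sum` on the left and
`Matrix.det_apply'` (transposed, as in `R.schur_eq_sum`) on the right. -/

namespace Vale.Agent.P181

open MvPolynomial Finset

theorem CC_neg {m : ℕ} (ρ : Fin m → ℕ) {k : ℤ} (hk : k < 0) : CC ρ k = 0 := by
  refine Finset.sum_eq_zero fun γ hγ => ?_
  have h := (Finset.mem_filter.1 hγ).2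
  omega

theorem cau_prod {m n : ℕ} (S : Fin m → Finset (Fin n → ℕ)) (g : Fin m → (Fin n → ℕ) → Fin n → ℕ)
    (α : Fin n → ℕ) :
    coeff (fs α) (∏ r, ∑ l ∈ S r, (monomial (fs (g r l)) 1 : MvPolynomial (Fin n) ℤ)) =
      ((Fintype.piFinset S).filter fun γ => ∀ i, ∑ r, g r (γ r) i = α i).card := by
  rw [Finset.prod_univ_sum, coeff_sum, Finset.card_filter, Nat.cast_sum]
  refine Finset.sum_congr rfl fun γ _ => ?_
  rw [← monomial_sum_one, coeff_monomial]
  have h : ∑ r, fs (g r (γ r)) = fs α ↔ ∀ i, ∑ r, g r (γ r) i = α i := by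
    rw [Finsupp.ext_iff]
    simp only [Finsupp.finsetSum_apply, R.fs_apply]
  simp only [h, Nat.cast_ite, Nat.cast_one, Nat.cast_zero]

theorem cau_expand (k b : ℕ) : expand k (hsymm (Fin 6) ℤ b) =
    ∑ l ∈ piAntidiag (univ : Finset (Fin 6)) b, monomial (fs fun i => k * l i) 1 := by
  rw [R.SymA.hsymm_eq, map_sum]
  refine Finset.sum_nbij' (fun l => ⇑l) fs ?_ ?_ ?_ ?_ ?_
  · intro l hl
    rw [mem_finsuppAntidiag] at hl
    simpa using hl.1
  · intro l hl
    rw [mem_finsuppAntidiag]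
    exact ⟨(mem_piAntidiag.1 hl).1, subset_univ _⟩
  · intro l _
    exact R.fs_coe l
  · intro l _
    rfl
  · intro l _
    rw [← R.SymA.prod_X_pow, map_prod]
    simp only [map_pow, expand_X, pow_mul]

theorem cau_coeff {m : ℕ} (ρ : Fin m → ℕ) (hρ : ∀ r, 0 < ρ r) (b : ℕ) (α : Fin 6 → ℕ) :
    coeff (fs α) (PR b (List.ofFn ρ)) =
      coeff (fs fun _ : Fin m => b) (∏ i, CC ρ (α i)) := by
  rw [PR, List.map_ofFn, List.prod_ofFn]
  simp only [Function.comp_apply, cau_expand, CC]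
  rw [cau_prod (fun _ => piAntidiag univ b) (fun r l i => ρ r * l i),
    cau_prod _ (fun _ l => l), Nat.cast_inj]
  refine Finset.card_nbij' (fun γ i r => γ r i) (fun δ r i => δ i r) ?_ ?_ (fun _ _ => rfl)
    fun _ _ => rfl
  · intro γ hγ
    simp only [coe_filter, Fintype.mem_piFinset, mem_piAntidiag, mem_univ, implies_true,
      and_true, Set.mem_ofPred_eq, mem_filter, mem_range, Int.toNat_natCast, Nat.cast_inj] at hγ ⊢
    refine ⟨fun i => ⟨fun r => ?_, hγ.2 i⟩, hγ.1⟩
    have h1 : ρ r * γ r i ≤ ∑ r, ρ r * γ r i :=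
      Finset.single_le_sum (f := fun r => ρ r * γ r i) (fun _ _ => Nat.zero_le _) (mem_univ r)
    have h2 : γ r i ≤ ρ r * γ r i := Nat.le_mul_of_pos_left _ (hρ r)
    have h3 := hγ.2 i
    omega
  · intro δ hδ
    simp only [coe_filter, Fintype.mem_piFinset, mem_piAntidiag, mem_univ, implies_true,
      and_true, Set.mem_ofPred_eq, mem_filter, mem_range, Int.toNat_natCast, Nat.cast_inj] at hδ ⊢
    exact ⟨hδ.2, fun i => (hδ.1 i).2⟩

theorem mult_PR {m : ℕ} (ρ : Fin m → ℕ) (hρ : ∀ r, 0 < ρ r) (b : ℕ) (l : Fin 6 → ℕ) :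
    mult 6 (PR b (List.ofFn ρ)) l = coeff (fs fun _ : Fin m => b) (SS ρ l) := by
  rw [R.mult_eq_sum, SS, ← Matrix.det_transpose, Matrix.det_apply', coeff_sum]
  refine Finset.sum_congr rfl fun σ _ => ?_
  rw [← eq_intCast (C : ℤ →+* MvPolynomial (Fin m) ℤ), coeff_C_mul]
  refine congrArg₂ _ rfl ?_
  change _ = coeff _ (∏ i, CC ρ (R.sh l σ i))
  rw [R.coeffZ]
  split_ifs with h
  · rw [cau_coeff ρ hρ]
    exact congrArg _ (Finset.prod_congr rfl fun i _ => by rw [Int.toNat_of_nonneg (h i)])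
  · push Not at h
    obtain ⟨i, hi⟩ := h
    rw [Finset.prod_eq_zero (Finset.mem_univ i) (CC_neg ρ hi), coeff_zero]

end Vale.Agent.P181
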