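import Vale.Agent.P181.S.NDefs

/-! Multiplication by `h_e (x_1^k, …, x_6^k)` on dehomogenized coefficients.

PLAN.  `R.SymA.hsymm_eq` + `R.SymA.prod_X_pow` write hsymm e as a sum of monomials over
`finsuppAntidiag univ e`; `expand_monomial` turns them into monomial (k • β) 1, and
`coeff_monomial_mul'` gives the coefficient as a sum over β with k • β ≤ ν of coeff (ν - k • β) g.
Reindex β = (e - l - i - s, i, l, s - y - z, y, z) (`Finset.sum_nbij'` to a sigma/product of ranges,
or prove first a lemma: a sum over finsuppAntidiag (univ : Fin 6) e equals the five nested range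
sums).  Termwise: with x = T + k e - (p+q+a+c+d) the first exponent, the condition k β_0 ≤ x is
equivalent to the condition in `co T` for the shifted arguments (omega after generalizing the
products k*i, k*l, ...; use k*e = k*β_0 + k*i + ...).  If p+q+a+c+d > T + k e every term is 0. -/

namespace Vale.Agent.P181

open MvPolynomial Finset

private theorem coh_apply {n : ℕ} (ν : Fin n → ℕ) (i : Fin n) : fs ν i = ν i := rfl

private theorem coh_sum6 (e : ℕ) (f : (Fin 6 →₀ ℕ) → ℤ) :
    ∑ β ∈ finsuppAntidiag (univ : Finset (Fin 6)) e, f β =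
      ∑ l ∈ range (e + 1), ∑ i ∈ range (e + 1 - l), ∑ s ∈ range (e + 1 - l - i),
        ∑ y ∈ range (s + 1), ∑ z ∈ range (s + 1 - y),
          f (fs ![e - l - i - s, i, l, s - y - z, y, z]) := by
  simp only [Finset.sum_sigma']
  symm
  refine Finset.sum_nbij'
    (fun x => fs ![e - x.1 - x.2.1 - x.2.2.1, x.2.1, x.1, x.2.2.1 - x.2.2.2.1 - x.2.2.2.2,
      x.2.2.2.1, x.2.2.2.2])
    (fun β => ⟨β 2, β 1, β 3 + β 4 + β 5, β 4, β 5⟩) ?_ ?_ ?_ ?_ ?_
  · rintro ⟨l, i, s, y, z⟩ h
    simp only [mem_sigma, mem_range] at h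
    simp only [mem_finsuppAntidiag, subset_univ, and_true, Fin.sum_univ_six, coh_apply]
    simp
    omega
  · intro β h
    simp only [mem_finsuppAntidiag, subset_univ, and_true, Fin.sum_univ_six] at h
    simp only [mem_sigma, mem_range]
    omega
  · rintro ⟨l, i, s, y, z⟩ h
    simp only [mem_sigma, mem_range] at h
    simp [coh_apply]
    omega
  · intro β h
    simp only [mem_finsuppAntidiag, subset_univ, and_true, Fin.sum_univ_six] at h
    ext j
    rw [coh_apply]
    fin_cases j <;> simp <;> omega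
  · intro x _
    rfl

private theorem coh_term (T k b0 i l w y z : ℕ) (g : MvPolynomial (Fin 6) ℤ) (p q a c d : ℕ) :
    co (T + k * (b0 + i + l + w + y + z)) (monomial (k • fs ![b0, i, l, w, y, z]) 1 * g) p q a c d =
      if k * i ≤ p ∧ k * l ≤ q then
        (if k * w ≤ a ∧ k * y ≤ c ∧ k * z ≤ d then
          co T g (p - k * i) (q - k * l) (a - k * w) (c - k * y) (d - k * z) else 0) else 0 := by
  classical
  have h1 : k • fs ![b0, i, l, w, y, z] = fs ![k * b0, k * i, k * l, k * w, k * y, k * z] := by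
    ext j
    rw [Finsupp.smul_apply, coh_apply, coh_apply]
    fin_cases j <;> simp
  simp only [h1, mul_add]
  generalize k * b0 = B0
  generalize k * i = I
  generalize k * l = L
  generalize k * w = W
  generalize k * y = Y
  generalize k * z = Z
  unfold co
  rw [coeff_monomial_mul', one_mul]
  have h2 : ∀ x : ℕ, fs ![B0, I, L, W, Y, Z] ≤ fs ![x, p, q, a, c, d] ↔
      B0 ≤ x ∧ I ≤ p ∧ L ≤ q ∧ W ≤ a ∧ Y ≤ c ∧ Z ≤ d := by
    intro x
    rw [Finsupp.le_def]
    simp [coh_apply, Fin.forall_fin_succ]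
  have h3 : ∀ x : ℕ, fs ![x, p, q, a, c, d] - fs ![B0, I, L, W, Y, Z] =
      fs ![x - B0, p - I, q - L, a - W, c - Y, d - Z] := by
    intro x
    ext j
    rw [Finsupp.tsub_apply, coh_apply, coh_apply, coh_apply]
    fin_cases j <;> simp
  simp only [h2, h3]
  split_ifs <;> first | rfl | omega | skip
  congr 3
  omega

theorem co_expand (T e k : ℕ) (g : MvPolynomial (Fin 6) ℤ) (p q a c d : ℕ) :
    co (T + k * e) (expand k (hsymm (Fin 6) ℤ e) * g) p q a c d =
      HH e k (co T g) p q a c d := by
  have hlin : ∀ (N : ℕ) (s : Finset (Fin 6 →₀ ℕ)) (F : (Fin 6 →₀ ℕ) → MvPolynomial (Fin 6) ℤ),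
      co N (∑ β ∈ s, F β) p q a c d = ∑ β ∈ s, co N (F β) p q a c d := by
    intro N s F
    unfold co
    split_ifs
    · rw [coeff_sum]
    · simp
  have hm : ∀ β : Fin 6 →₀ ℕ, expand k (∏ i, (X i : MvPolynomial (Fin 6) ℤ) ^ β i) =
      monomial (k • β) 1 := by
    intro β
    rw [R.SymA.prod_X_pow, expand_monomial]
    congr 2
    ext j
    simp [coh_apply]
  rw [R.SymA.hsymm_eq, map_sum, Finset.sum_mul, hlin]
  simp only [hm]
  rw [coh_sum6 e fun β => co (T + k * e) (monomial (k • β) 1 * g) p q a c d]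
  unfold HH PP
  refine sum_congr rfl fun l hl => sum_congr rfl fun i hi => sum_congr rfl fun s hs => ?_
  rw [mem_range] at hl hi hs
  have key : ∀ y ∈ range (s + 1), ∀ z ∈ range (s + 1 - y),
      co (T + k * e) (monomial (k • fs ![e - l - i - s, i, l, s - y - z, y, z]) 1 * g) p q a c d =
      if k * i ≤ p ∧ k * l ≤ q then
        (if k * (s - y - z) ≤ a ∧ k * y ≤ c ∧ k * z ≤ d then
          co T g (p - k * i) (q - k * l) (a - k * (s - y - z)) (c - k * y) (d - k * z) else 0)
        else 0 := by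
    intro y hy z hz
    rw [mem_range] at hy hz
    rw [← coh_term]
    congr 3
    omega
  rw [sum_congr rfl fun y hy => sum_congr rfl fun z hz => key y hy z hz]
  split_ifs
  · rfl
  · simp


end Vale.Agent.P181
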