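import Vale.Agent.P181.S.CoH

/-! Newton identity for complete homogeneous polynomials and for plethysm.

PLAN.  `newton_hsymm`: generating function H = ∏_i geo (X i) (see `R.SymA.mk_hsymm`, `geo_mul`,
stated there for Fin n; redo for a Fintype σ or transport by `rename` along `Fintype.equivFin`),
logarithmic derivative: d/dt H = (∑_k psum (k+1) t^k) * H (induction on the finset of factors,
`PowerSeries.derivative`), compare coefficients.  Any other proof (double counting) is fine.
`newton_pl`: apply `aeval (smon n e)`; aeval of psum (k+1) is ∑_s smon s ^ (k+1) =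
expand (k+1) (hsymm e) (`hsymm` is by definition ∑ s, (s.1.map X).prod; expand is an AlgHom with
expand X = X ^ (k+1)).  `cP_rec`: multiply by alt rho, use `co_expand` with
T = (j-1-k) e + 15 and linearity of `co` in g.  `class_formula`: use `newton_pl` for j = 1..6
(pl n 0 e = 1, expand 1 = id), `linear_combination`; PR and cls unfold by simp. -/

namespace Vale.Agent.P181

open MvPolynomial Finset

theorem newt_geo {K : Type*} [CommRing K] (a : K) :
    PowerSeries.derivative K (R.SymA.geo a) =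
      PowerSeries.C a * R.SymA.geo a * R.SymA.geo a := by
  have h := R.SymA.geo_mul a
  have h2 := congrArg (PowerSeries.derivative K) h
  rw [Derivation.leibniz, map_sub, Derivation.leibniz] at h2
  simp only [Derivation.map_one_eq_zero, PowerSeries.derivative_X, PowerSeries.derivative_C,
    smul_eq_mul] at h2
  linear_combination (R.SymA.geo a) * h2 - (PowerSeries.derivative K (R.SymA.geo a)) * h

theorem newt_prod {K : Type*} [CommRing K] {ι : Type*} [DecidableEq ι] (s : Finset ι) (a : ι → K) :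
    PowerSeries.derivative K (∏ i ∈ s, R.SymA.geo (a i)) =
      (∑ i ∈ s, PowerSeries.C (a i) * R.SymA.geo (a i)) * ∏ i ∈ s, R.SymA.geo (a i) := by
  induction s using Finset.induction_on with
  | empty => simp
  | insert i s hi ih =>
    rw [Finset.prod_insert hi, Finset.sum_insert hi, Derivation.leibniz, ih, newt_geo]
    simp only [smul_eq_mul]
    ring

theorem newt_fin (n j : ℕ) :
    (j : MvPolynomial (Fin n) ℤ) * hsymm (Fin n) ℤ j =
      ∑ k ∈ range j, psum (Fin n) ℤ (k + 1) * hsymm (Fin n) ℤ (j - 1 - k) := by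
  rcases j with _ | m
  · simp
  have h := newt_prod (Finset.univ : Finset (Fin n)) fun i => (X i : MvPolynomial (Fin n) ℤ)
  rw [← R.SymA.mk_hsymm] at h
  have h2 := congrArg (PowerSeries.coeff m) h
  rw [PowerSeries.coeff_derivative, PowerSeries.coeff_mul, PowerSeries.coeff_mk,
    Finset.Nat.sum_antidiagonal_eq_sum_range_succ (fun i j =>
      PowerSeries.coeff i (∑ i : Fin n, PowerSeries.C (X i : MvPolynomial (Fin n) ℤ) *
        R.SymA.geo (X i)) * PowerSeries.coeff j (PowerSeries.mk (hsymm (Fin n) ℤ)))] at h2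
  rw [mul_comm, Nat.cast_succ, h2]
  refine Finset.sum_congr rfl fun k _ => ?_
  rw [PowerSeries.coeff_mk, map_sum, Nat.add_sub_cancel]
  congr 1
  unfold psum
  refine Finset.sum_congr rfl fun i _ => ?_
  rw [PowerSeries.coeff_C_mul, R.SymA.geo, PowerSeries.coeff_mk, pow_succ']

theorem newt_aeval (n e k : ℕ) :
    aeval (smon n e) (psum (Sym (Fin n) e) ℤ k) = expand k (hsymm (Fin n) ℤ e) := by
  unfold psum hsymm
  rw [map_sum, map_sum]
  refine Finset.sum_congr rfl fun s _ => ?_
  rw [map_pow, aeval_X, smon, map_multiset_prod, Multiset.map_map, ← Multiset.prod_map_pow]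
  congr 1
  refine Multiset.map_congr rfl fun i _ => ?_
  simp

theorem newt_co_sum {ι : Type*} (s : Finset ι) (T : ℕ) (g : ι → MvPolynomial (Fin 6) ℤ)
    (p q a c d : ℕ) : co T (∑ i ∈ s, g i) p q a c d = ∑ i ∈ s, co T (g i) p q a c d := by
  unfold co
  split_ifs
  · exact coeff_sum _ _ _
  · simp

theorem newt_co_mul (j T : ℕ) (g : MvPolynomial (Fin 6) ℤ)
    (p q a c d : ℕ) : co T ((j : MvPolynomial (Fin 6) ℤ) * g) p q a c d =
      (j : ℤ) * co T g p q a c d := by
  unfold co
  split_ifs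
  · rw [← nsmul_eq_mul, coeff_smul, nsmul_eq_mul]
  · simp

theorem newton_hsymm (σ : Type) [Fintype σ] [DecidableEq σ] (j : ℕ) :
    (j : MvPolynomial σ ℤ) * hsymm σ ℤ j =
      ∑ k ∈ range j, psum σ ℤ (k + 1) * hsymm σ ℤ (j - 1 - k) := by
  have h := congrArg (rename (Fintype.equivFin σ).symm) (newt_fin (Fintype.card σ) j)
  simpa only [map_mul, map_natCast, map_sum, rename_hsymm, rename_psum] using h

theorem pl_zero (n e : ℕ) : pl n 0 e = 1 := by
  simp [pl]

theorem newton_pl (n j e : ℕ) :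
    (j : MvPolynomial (Fin n) ℤ) * pl n j e =
      ∑ k ∈ range j, expand (k + 1) (hsymm (Fin n) ℤ e) * pl n (j - 1 - k) e := by
  have h := congrArg (aeval (smon n e)) (newton_hsymm (Sym (Fin n) e) j)
  simpa only [map_mul, map_natCast, map_sum, newt_aeval, pl] using h

theorem cP_rec (j e p q a c d : ℕ) :
    (j : ℤ) * cP j e p q a c d = ∑ k ∈ range j, HH e (k + 1) (cP (j - 1 - k) e) p q a c d := by
  unfold cP
  rw [← newt_co_mul, mul_left_comm, newton_pl, Finset.mul_sum, newt_co_sum]
  refine Finset.sum_congr rfl fun k hk => ?_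
  rw [Finset.mem_range] at hk
  obtain ⟨m, rfl⟩ : ∃ m, j = m + k + 1 := ⟨j - 1 - k, by omega⟩
  have h1 : m + k + 1 - 1 - k = m := by omega
  rw [h1, ← co_expand, mul_left_comm]
  congr 1
  ring

theorem class_formula (b : ℕ) :
    (720 : MvPolynomial (Fin 6) ℤ) * pl 6 6 b = (cls.map fun x => C x.2 * PR b x.1).sum := by
  have h1 := newton_pl 6 1 b
  have h2 := newton_pl 6 2 b
  have h3 := newton_pl 6 3 b
  have h4 := newton_pl 6 4 b
  have h5 := newton_pl 6 5 b
  have h6 := newton_pl 6 6 b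
  simp only [Finset.sum_range_succ, Finset.sum_range_zero, Nat.reduceSub, Nat.reduceAdd, pl_zero,
    Nat.cast_ofNat, Nat.cast_one, zero_add, mul_one, one_mul, Nat.sub_zero] at h1 h2 h3 h4 h5 h6
  simp only [cls, PR, List.map_cons, List.map_nil, List.sum_cons, List.sum_nil, List.prod_cons,
    List.prod_nil, map_one, map_ofNat, mul_one, add_zero, one_mul]
  generalize expand 1 (hsymm (Fin 6) ℤ b) = p1 at *
  generalize expand 2 (hsymm (Fin 6) ℤ b) = p2 at *
  generalize expand 3 (hsymm (Fin 6) ℤ b) = p3 at *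
  generalize expand 4 (hsymm (Fin 6) ℤ b) = p4 at *
  generalize expand 5 (hsymm (Fin 6) ℤ b) = p5 at *
  generalize expand 6 (hsymm (Fin 6) ℤ b) = p6 at *
  generalize pl 6 1 b = x1 at *
  generalize pl 6 2 b = x2 at *
  generalize pl 6 3 b = x3 at *
  generalize pl 6 4 b = x4 at *
  generalize pl 6 5 b = x5 at *
  generalize pl 6 6 b = x6 at *
  have g2 : 2 * x2 = p1 ^ 2 + p2 := by linear_combination h2 + p1 * h1
  have g3 : 6 * x3 = p1 ^ 3 + 3 * p1 * p2 + 2 * p3 := by
    linear_combination 2 * h3 + p1 * g2 + 2 * p2 * h1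
  have g4 : 24 * x4 = p1 ^ 4 + 6 * p1 ^ 2 * p2 + 3 * p2 ^ 2 + 8 * p1 * p3 + 6 * p4 := by
    linear_combination 6 * h4 + p1 * g3 + 3 * p2 * g2 + 6 * p3 * h1
  have g5 : 120 * x5 = p1 ^ 5 + 10 * p1 ^ 3 * p2 + 15 * p1 * p2 ^ 2 + 20 * p1 ^ 2 * p3 +
      20 * p2 * p3 + 30 * p1 * p4 + 24 * p5 := by
    linear_combination 24 * h5 + p1 * g4 + 4 * p2 * g3 + 12 * p3 * g2 + 24 * p4 * h1
  linear_combination 120 * h6 + p1 * g5 + 5 * p2 * g4 + 20 * p3 * g3 + 60 * p4 * g2 +
    120 * p5 * h1

end Vale.Agent.P181
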