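import Vale.Agent.P181.S.DualB
import Vale.Agent.P181.S.Newt
import Vale.Agent.P181.S.Anti

/-! Upper bounds for the multiplicity in `h_6[h_b]`.

PLAN.  `mM_class`: 720 * mM b l = ∑ over cls of x.2 * mult 6 (PR b x.1) l (`class_formula`,
linearity `R.multL`).  Each list ρ of cls is `List.ofFn ρ.get` (`List.ofFn_get`), with positive
entries and sum 6 (check on the eleven lists; prove a lemma for x ∈ cls).  `mM_dual`: termwise by
`mult_PR`, `coeff_SS_dual`.  `mM_stable`: termwise by `mult_PR`, `coeff_SS_stable`.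
`up_stable`: iterate `h.monoM` t times (l + Pi.single 0 (6 t) is antitone, rows 1..5 unchanged) with
t = l 1 + … + l 5.  `up_dual`: b ≤ l 0 ≤ c because ∑ l = 6 b and l is antitone; the dual partition is
antitone with sum 6 (c - b); apply `up_stable` to it. -/

namespace Vale.Agent.P181

open MvPolynomial Finset

namespace Up

theorem mM_class (b : ℕ) (l : Fin 6 → ℕ) :
    720 * mM b l = (cls.map fun x => x.2 * mult 6 (PR b x.1) l).sum := by
  have h := congrArg (R.multL 6 l) (class_formula b)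
  have h1 : (720 : MvPolynomial (Fin 6) ℤ) * pl 6 6 b = (720 : ℤ) • pl 6 6 b := by
    rw [zsmul_eq_mul]
    rfl
  rw [h1, map_smul, map_list_sum, List.map_map] at h
  refine h.trans (congrArg List.sum (List.map_congr_left fun x _ => ?_))
  change R.multL 6 l (C x.2 * PR b x.1) = _
  rw [← smul_eq_C_mul, map_smul]
  rfl

theorem cls_spec : ∀ x ∈ cls, (∀ r : Fin x.1.length, 0 < x.1.get r) ∧
    ∑ r : Fin x.1.length, x.1.get r = 6 := by
  decide

theorem mult_cls {x : List ℕ × ℤ} (hx : x ∈ cls) (b : ℕ) (l : Fin 6 → ℕ) :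
    mult 6 (PR b x.1) l = coeff (fs fun _ : Fin x.1.length => b) (SS x.1.get l) := by
  rw [← mult_PR x.1.get (cls_spec x hx).1 b l, List.ofFn_get]

theorem mM_stable (b : ℕ) (l : Fin 6 → ℕ) (hl : ∑ i, l i = 6 * b)
    (hb : l 1 + l 2 + l 3 + l 4 + l 5 ≤ b) :
    720 * mM b l = UU (l 1 + 4) (l 2 + 3) (l 3 + 2) (l 4 + 1) (l 5) := by
  rw [mM_class, UU]
  refine congrArg List.sum (List.map_congr_left fun x hx => ?_)
  rw [mult_cls hx, coeff_SS_stable _ (cls_spec x hx).1 (cls_spec x hx).2 b l hl hb, List.ofFn_get]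

theorem anti_add {l : Fin 6 → ℕ} (hl : Antitone l) (k : ℕ) :
    Antitone (l + Pi.single 0 k : Fin 6 → ℕ) := by
  refine hl.add fun i j hij => ?_
  rcases eq_or_ne j 0 with rfl | hj
  · rw [Fin.le_zero_iff.mp hij]
  · rw [Pi.single_eq_of_ne hj]
    exact Nat.zero_le _

theorem mono_iter (h : RepFacts) (b : ℕ) {l : Fin 6 → ℕ} (hl : Antitone l) (t : ℕ) :
    mM b l ≤ mM (b + t) (l + Pi.single 0 (6 * t)) := by
  induction t with
  | zero => simp
  | succ t ih =>
    refine ih.trans ((h.monoM (b + t) _ (anti_add hl _)).trans (le_of_eq ?_))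
    rw [add_assoc l, ← Pi.single_add, add_assoc b, Nat.mul_succ]

end Up

theorem mM_dual (b c : ℕ) (l : Fin 6 → ℕ) (hc : ∀ i, l i ≤ c) (he : Even c) (hb : b ≤ c) :
    mM b l = mM (c - b) fun i => c - l (Fin.rev i) := by
  refine mul_left_cancel₀ (by norm_num : (720 : ℤ) ≠ 0) ?_
  rw [Up.mM_class, Up.mM_class]
  refine congrArg List.sum (List.map_congr_left fun x hx => ?_)
  rw [Up.mult_cls hx, Up.mult_cls hx,
    coeff_SS_dual _ (Up.cls_spec x hx).1 (Up.cls_spec x hx).2 b c l hc he hb]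

theorem up_stable (h : RepFacts) (b : ℕ) (l : Fin 6 → ℕ) (hl : Antitone l)
    (hs : ∑ i, l i = 6 * b) :
    720 * mM b l ≤ UU (l 1 + 4) (l 2 + 3) (l 3 + 2) (l 4 + 1) (l 5) := by
  obtain ⟨t, ht⟩ : ∃ t, t = l 1 + l 2 + l 3 + l 4 + l 5 := ⟨_, rfl⟩
  have h1 := Up.mono_iter h b hl t
  have h2 := Up.mM_stable (b + t) (l + Pi.single 0 (6 * t))
    (by
      simp only [Pi.add_apply, Finset.sum_add_distrib, hs, Finset.sum_pi_single', mem_univ, if_true]
      ring)
    (by simp; omega)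
  have h3 : ∀ i : Fin 6, i ≠ 0 → (l + Pi.single 0 (6 * t) : Fin 6 → ℕ) i = l i := fun i hi => by
    rw [Pi.add_apply, Pi.single_eq_of_ne hi, add_zero]
  rw [h3 1 (by decide), h3 2 (by decide), h3 3 (by decide), h3 4 (by decide),
    h3 5 (by decide)] at h2
  rw [← h2]
  exact mul_le_mul_of_nonneg_left h1 (by norm_num)

theorem up_dual (h : RepFacts) (b c : ℕ) (l : Fin 6 → ℕ) (hl : Antitone l)
    (hs : ∑ i, l i = 6 * b) (he : Even c) (hc : l 0 ≤ c) :
    720 * mM b l ≤
      UU (c - l 4 + 4) (c - l 3 + 3) (c - l 2 + 2) (c - l 1 + 1) (c - l 0) := by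
  have hc' : ∀ i, l i ≤ c := fun i => (hl (Fin.zero_le i)).trans hc
  have c0 := hc' 0
  have c1 := hc' 1
  have c2 := hc' 2
  have c3 := hc' 3
  have c4 := hc' 4
  have c5 := hc' 5
  rw [Fin.sum_univ_six] at hs
  have hb : b ≤ c := by omega
  rw [mM_dual b c l hc' he hb]
  refine up_stable h (c - b) (fun i => c - l (Fin.rev i))
    (fun i j hij => Nat.sub_le_sub_left (hl (Fin.rev_le_rev.mpr hij)) c) ?_
  rw [Fin.sum_univ_six]
  change c - l 5 + (c - l 4) + (c - l 3) + (c - l 2) + (c - l 1) + (c - l 0) = 6 * (c - b)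
  omega

end Vale.Agent.P181
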