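import Vale.Agent.P181.S.UsA

/-! The arrays of the stable bound.

PLAN.  `rowA_spec`: i1 (10 t + u) = 5 t + j1L u, i2 (10 t + u) = 5 t + j2L u (interval_cases u or decide).
With Di = DD t j1, Dj = DD t j2 and bounds bi, bj ≤ 2^21: lanes of dpM i are Di + bi, lanes of dnM i are
bi - Di (`dg_sub`, `dg_rwM`, `dpL_le`), `ab v b` is |v - b|.  `dg_mul`, `dg_add`: the lane p of rowI is
Dj q * Di p - Di q * Dj p + 2 bi bj, between 0 and 4 bi bj < 2^45; lanes p ≥ 78 vanish.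
`dg_ctP`: `dg_hor_rows`.  `usum_arr`: by `usum_spec`; with O the total bias ≤ 2^53, an induction over the
double sum (reindex as a sum over a Finset, `Finset.induction_on`, `dg_add`, `dg_mul`) shows that lane
(r, p) of A is ∑ |s| * (lane of ctP or ctN) ≤ 2 O, equal to O + UU by `UU_eq`, and 0 outside the
m rows; then `dg_sub`.  `usum_sc` is the scalar version. -/

namespace Vale.Agent.P181

open K Finset

theorem usb_i1 (t : ℕ) {u : ℕ} (hu : u < 10) : i1 (10 * t + u) = 5 * t + j1L.getD u 0 := by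
  have h1 : (10 * t + u) / 10 = t := by omega
  have h2 : (10 * t + u) % 10 = u := by omega
  change 5 * ((10 * t + u) / 10) + nth 0 j1L ((10 * t + u) % 10) = _
  rw [h1, h2, nth_eq]

theorem usb_i2 (t : ℕ) {u : ℕ} (hu : u < 10) : i2 (10 * t + u) = 5 * t + j2L.getD u 0 := by
  have h1 : (10 * t + u) / 10 = t := by omega
  have h2 : (10 * t + u) % 10 = u := by omega
  change 5 * ((10 * t + u) / 10) + nth 0 j2L ((10 * t + u) % 10) = _
  rw [h1, h2, nth_eq]

theorem usb_j : ∀ u < 10, j1L.getD u 0 < 5 ∧ j2L.getD u 0 < 5 := by decide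

theorem usb_bd : ∀ i < 55, bdL.getD i 0 ≤ 2 ^ 21 := by decide

theorem usb_bdM (i : ℕ) : bdM i = bdL.getD i 0 := by rw [bdM, frc_eq, nth_eq]

theorem usb_dpM (i : ℕ) : dpM i = dpL.getD i 0 := by rw [dpM, frc_eq, nth_eq]

/-- A row of 78 biased lanes. -/
def UsbRow (P b : ℕ) (D : ℕ → ℤ) : Prop :=
  (∀ k, dg 56 P k ≤ if k < 78 then 2 * b else 0) ∧ ∀ k < 78, ((dg 56 P k : ℕ) : ℤ) = b + D k

theorem usb_dp {t j : ℕ} (ht : t < 11) (hj : j < 5) :
    UsbRow (dpM (5 * t + j)) (bdM (5 * t + j)) (DD t j) := by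
  rw [usb_dpM, usb_bdM]
  exact ⟨dpL_le ht hj, fun k hk => by rw [add_comm (_ : ℤ), DD_eq ht hj hk, dg]⟩

theorem UsbRow.neg {P b : ℕ} {D : ℕ → ℤ} (h : UsbRow P b D) (hb : b ≤ 2 ^ 21) :
    UsbRow (2 * b * rwM 1 - P) b fun k => -D k := by
  have h1 : ∀ k, dg 56 (2 * b * rwM 1) k = if k < 78 then 2 * b else 0 :=
    dg_rwM (by omega) 1
  have h2 := dg_sub (w := 56) (by omega) fun k => (h.1 k).trans_eq (h1 k).symm
  refine ⟨fun k => by rw [h2, h1]; exact Nat.sub_le _ _, fun k hk => ?_⟩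
  have h3 := h.1 k
  have h4 := h.2 k hk
  rw [if_pos hk] at h3
  rw [h2, h1, if_pos hk]
  beta_reduce
  omega

theorem usb_comb {X Y x y bi bj : ℕ} {D E : ℕ → ℤ} (hX : UsbRow X bi D) (hY : UsbRow Y bj E)
    (hi : bi ≤ 2 ^ 21) (hj : bj ≤ 2 ^ 21) (hx : x ≤ bj) (hy : y ≤ bi) :
    UsbRow (x * X + y * Y + (2 * bi * bj - (x * bi + y * bj)) * rwM 1) (2 * bi * bj)
      fun k => x * D k + y * E k := by
  have e0 : bi * bj ≤ 2 ^ 21 * 2 ^ 21 := Nat.mul_le_mul hi hj
  have e1 : x * bi ≤ bi * bj := by rw [mul_comm bi]; exact Nat.mul_le_mul_right _ hx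
  have e2 : y * bj ≤ bi * bj := Nat.mul_le_mul_right _ hy
  have b1 : ∀ k, x * dg 56 X k ≤ if k < 78 then 2 * (x * bi) else 0 := fun k => by
    have h := Nat.mul_le_mul_left x (hX.1 k)
    split_ifs at h ⊢
    · rwa [mul_left_comm] at h
    · exact h
  have b2 : ∀ k, y * dg 56 Y k ≤ if k < 78 then 2 * (y * bj) else 0 := fun k => by
    have h := Nat.mul_le_mul_left y (hY.1 k)
    split_ifs at h ⊢
    · rwa [mul_left_comm] at h
    · exact h
  rw [mul_assoc 2 bi bj]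
  have h1 := dg_mul (w := 56) (x := X) x fun k => by have := b1 k; split_ifs at this <;> omega
  have h2 := dg_mul (w := 56) (x := Y) y fun k => by have := b2 k; split_ifs at this <;> omega
  have h3 : ∀ k, dg 56 ((2 * (bi * bj) - (x * bi + y * bj)) * rwM 1) k =
      if k < 78 then 2 * (bi * bj) - (x * bi + y * bj) else 0 := dg_rwM (by omega) 1
  have h4 := dg_add (w := 56) (x := x * X) (y := y * Y) fun k => by
    have k1 := b1 k
    have k2 := b2 k
    rw [h1, h2]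
    split_ifs at k1 k2 <;> omega
  have h5 := dg_add (w := 56) (x := x * X + y * Y)
    (y := (2 * (bi * bj) - (x * bi + y * bj)) * rwM 1) fun k => by
      have k1 := b1 k
      have k2 := b2 k
      rw [h4, h1, h2, h3]
      split_ifs at k1 k2 ⊢ <;> omega
  refine ⟨fun k => ?_, fun k hk => ?_⟩
  · have k1 := b1 k
    have k2 := b2 k
    rw [h5, h4, h1, h2, h3]
    split_ifs at k1 k2 ⊢ <;> omega
  · rw [h5, h4, h1, h2, h3, if_pos hk, Nat.cast_add, Nat.cast_add, Nat.cast_sub (by omega)]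
    push_cast
    rw [hX.2 k hk, hY.2 k hk]
    ring

theorem usb_sel {P b v b' : ℕ} {D : ℕ → ℤ} (h : UsbRow P b D) (hb : b ≤ 2 ^ 21) :
    ∃ D', UsbRow (cnd (Nat.ble b' v) P (2 * b * rwM 1 - P)) b D' ∧
      ∀ k, (ab v b' : ℤ) * D' k = (v - b') * D k := by
  simp only [ab, cnd_eq, Nat.ble_eq]
  by_cases hv : b' ≤ v
  · rw [if_pos hv, if_pos hv]
    exact ⟨D, h, fun k => by rw [Nat.sub_eq, Nat.cast_sub hv]⟩
  · rw [if_neg hv, if_neg hv]
    exact ⟨_, h.neg hb, fun k => by rw [Nat.sub_eq, Nat.cast_sub (by omega)]; ring⟩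

theorem usb_sel' {P b v b' : ℕ} {D : ℕ → ℤ} (h : UsbRow P b D) (hb : b ≤ 2 ^ 21) :
    ∃ D', UsbRow (cnd (Nat.ble b' v) (2 * b * rwM 1 - P) P) b D' ∧
      ∀ k, (ab v b' : ℤ) * D' k = -((v - b') * D k) := by
  simp only [ab, cnd_eq, Nat.ble_eq]
  by_cases hv : b' ≤ v
  · rw [if_pos hv, if_pos hv]
    exact ⟨_, h.neg hb, fun k => by rw [Nat.sub_eq, Nat.cast_sub hv]; ring⟩
  · rw [if_neg hv, if_neg hv]
    exact ⟨D, h, fun k => by rw [Nat.sub_eq, Nat.cast_sub (by omega)]; ring⟩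

theorem usb_ab {v b : ℕ} (h : v ≤ 2 * b) : ab v b ≤ b := by
  rw [ab, cnd_eq, Nat.sub_eq, Nat.sub_eq]
  split_ifs <;> omega

theorem usb_rowI {i j q : ℕ} {D E : ℕ → ℤ} (hi : UsbRow (dpM i) (bdM i) D)
    (hj : UsbRow (dpM j) (bdM j) E) (bi : bdM i ≤ 2 ^ 21) (bj : bdM j ≤ 2 ^ 21) (hq : q < 78) :
    UsbRow (rowI i j q) (2 * bdM i * bdM j) fun p => D p * E q - E p * D q := by
  have e : rowI i j q = ab (dg 56 (dpM j) q) (bdM j) *
      cnd (Nat.ble (bdM j) (dg 56 (dpM j) q)) (dpM i) (2 * bdM i * rwM 1 - dpM i) +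
      ab (dg 56 (dpM i) q) (bdM i) *
        cnd (Nat.ble (bdM i) (dg 56 (dpM i) q)) (2 * bdM j * rwM 1 - dpM j) (dpM j) +
      (2 * bdM i * bdM j - (ab (dg 56 (dpM j) q) (bdM j) * bdM i +
        ab (dg 56 (dpM i) q) (bdM i) * bdM j)) * rwM 1 := by
    unfold rowI
    simp only [frc_eq, lane_eq]
    rfl
  obtain ⟨D', h1, h2⟩ := usb_sel (v := dg 56 (dpM j) q) (b' := bdM j) hi bi
  obtain ⟨E', h3, h4⟩ := usb_sel' (v := dg 56 (dpM i) q) (b' := bdM i) hj bj
  have k1 := hi.1 q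
  have k2 := hj.1 q
  rw [if_pos hq] at k1 k2
  have h5 := usb_comb h1 h3 bi bj (usb_ab k2) (usb_ab k1)
  rw [e]
  refine ⟨h5.1, fun p hp => ?_⟩
  rw [h5.2 p hp]
  beta_reduce
  rw [h2, h4, hi.2 q hq, hj.2 q hq]
  ring

theorem usb_rowA {t u q : ℕ} (ht : t < 11) (hu : u < 10) (hq : q < 78) :
    be (10 * t + u) < 2 ^ 44 ∧
      UsbRow (rowA (128 * (10 * t + u) + q)) (be (10 * t + u)) fun p => arU DD t u p q := by
  obtain ⟨j1, j2⟩ := usb_j u hu
  have b1 : bdM (5 * t + j1L.getD u 0) ≤ 2 ^ 21 := by rw [usb_bdM]; exact usb_bd _ (by omega)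
  have b2 : bdM (5 * t + j2L.getD u 0) ≤ 2 ^ 21 := by rw [usb_bdM]; exact usb_bd _ (by omega)
  have e1 : be (10 * t + u) = 2 * bdM (5 * t + j1L.getD u 0) * bdM (5 * t + j2L.getD u 0) := by
    rw [← usb_i1 t hu, ← usb_i2 t hu]
    rfl
  have e2 : rowA (128 * (10 * t + u) + q) =
      rowI (5 * t + j1L.getD u 0) (5 * t + j2L.getD u 0) q := by
    have k1 : Nat.shiftRight (128 * (10 * t + u) + q) 7 = 10 * t + u := by
      rw [Nat.shiftRight_eq, Nat.shiftRight_eq_div_pow]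
      omega
    have k2 : Nat.land (128 * (10 * t + u) + q) 127 = q := by
      rw [Nat.land_eq, Nat.and_two_pow_sub_one_eq_mod _ 7]
      omega
    rw [rowA, frc_eq, frc_eq, k1, k2, usb_i1 t hu, usb_i2 t hu]
  rw [e1, e2]
  refine ⟨?_, usb_rowI (usb_dp ht j1) (usb_dp ht j2) b1 b2 hq⟩
  have := Nat.mul_le_mul b1 b2
  rw [mul_assoc]
  omega

theorem rowA_spec {t u q : ℕ} (ht : t < 11) (hu : u < 10) (hq : q < 78) :
    be (10 * t + u) < 2 ^ 44 ∧ rowA (128 * (10 * t + u) + q) < 2 ^ (56 * 78) ∧ ∀ p < 78,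
      ((dg 56 (rowA (128 * (10 * t + u) + q)) p : ℕ) : ℤ) = be (10 * t + u) + arU DD t u p q ∧
        dg 56 (rowA (128 * (10 * t + u) + q)) p ≤ 2 * be (10 * t + u) := by
  obtain ⟨h1, h2, h3⟩ := usb_rowA ht hu hq
  refine ⟨h1, lt_of_dg (by omega) fun i hi => ?_, fun p hp => ⟨h3 p hp, ?_⟩⟩
  · have h := h2 i
    rw [if_neg (by omega)] at h
    omega
  · have h := h2 p
    rwa [if_pos hp] at h

/-- The lanes of `KU` are `2 ^ 55 - U`. -/
def KB (KU m : ℕ) (U : ℕ → ℕ → ℤ) : Prop :=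
  (∀ i, dg 56 KU i ≤ 2 ^ 55 + 2 ^ 53) ∧
    ∀ r < m, ∀ p < 78, ((dg 56 KU (78 * r + p) : ℕ) : ℤ) = 2 ^ 55 - U r p

/-- An array of `m` rows of biased lanes. -/
def UsbArr (X b m : ℕ) (U : ℕ → ℕ → ℤ) : Prop :=
  (∀ i, dg 56 X i ≤ if i < 78 * m then 2 * b else 0) ∧
    ∀ r < m, ∀ p < 78, ((dg 56 X (78 * r + p) : ℕ) : ℤ) = b + U r p

theorem UsbArr.neg {X b m : ℕ} {U : ℕ → ℕ → ℤ} (h : UsbArr X b m U) (hb : b < 2 ^ 44) :
    UsbArr (2 * b * rwM m - X) b m fun r p => -U r p := by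
  have h1 : ∀ k, dg 56 (2 * b * rwM m) k = if k < 78 * m then 2 * b else 0 :=
    dg_rwM (by omega) m
  have h2 := dg_sub (w := 56) (by omega) fun k => (h.1 k).trans_eq (h1 k).symm
  refine ⟨fun k => by rw [h2, h1]; exact Nat.sub_le _ _, fun r hr p hp => ?_⟩
  have h3 := h.1 (78 * r + p)
  have h4 := h.2 r hr p hp
  rw [if_pos (by omega)] at h3
  rw [h2, h1, if_pos (by omega)]
  beta_reduce
  omega

theorem usb_ctP {t u a m : ℕ} (ht : t < 11) (hu : u < 10) (ha : a + m < 78) :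
    UsbArr (ctP a m (10 * t + u)) (be (10 * t + u)) m fun r p => arU DD t u p (a + 1 + r) := by
  have e : ctP a m (10 * t + u) =
      hor (56 * 78) m fun j => rowA (128 * (10 * t + u) + a + m - j) := by
    unfold ctP
    simp only [frc_eq]
    rfl
  have h : ∀ r, ∀ p < 78, dg 56 (ctP a m (10 * t + u)) (78 * r + p) =
      if r < m then dg 56 (rowA (128 * (10 * t + u) + (a + 1 + r))) p else 0 := fun r p hp => by
    rw [e, dg_hor_rows hp fun j hj => by
      rw [show 128 * (10 * t + u) + a + m - j = 128 * (10 * t + u) + (a + m - j) by omega]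
      exact (rowA_spec ht hu (by omega)).2.1]
    split_ifs with hr
    · rw [show 128 * (10 * t + u) + a + m - (m - 1 - r) = 128 * (10 * t + u) + (a + 1 + r) by omega]
    · rfl
  refine ⟨fun i => ?_, fun r hr p hp => ?_⟩
  · have hp : i % 78 < 78 := Nat.mod_lt _ (by omega)
    have h1 := h (i / 78) _ hp
    rw [Nat.div_add_mod] at h1
    rw [h1]
    by_cases hr : i / 78 < m
    · rw [if_pos hr, if_pos (by omega)]
      exact ((rowA_spec ht hu (by omega)).2.2 _ hp).2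
    · rw [if_neg hr]
      exact Nat.zero_le _
  · rw [h r p hp, if_pos hr]
    exact ((rowA_spec ht hu (by omega)).2.2 _ hp).1

theorem usb_sum {ι : Type} (S : Finset ι) {n X b : ι → ℕ} {m : ℕ} {U : ι → ℕ → ℕ → ℤ}
    (h : ∀ x ∈ S, UsbArr (X x) (b x) m (U x)) (hO : ∑ x ∈ S, n x * b x ≤ 2 ^ 53) :
    UsbArr (∑ x ∈ S, n x * X x) (∑ x ∈ S, n x * b x) m fun r p => ∑ x ∈ S, n x * U x r p := by
  classical
  induction S using Finset.induction_on with
  | empty => exact ⟨fun i => by simp [dg_zero], fun r _ p _ => by simp [dg_zero]⟩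
  | insert x S hx ih =>
    simp only [Finset.sum_insert hx] at hO ⊢
    have h1 := ih (fun y hy => h y (Finset.mem_insert_of_mem hy)) (by omega)
    have h2 := h x (Finset.mem_insert_self _ _)
    have b1 : ∀ i, n x * dg 56 (X x) i ≤ if i < 78 * m then 2 * (n x * b x) else 0 := fun i => by
      have k := Nat.mul_le_mul_left (n x) (h2.1 i)
      split_ifs at k ⊢
      · rwa [mul_left_comm] at k
      · exact k
    have h3 := dg_mul (w := 56) (x := X x) (n x) fun i => by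
      have k := b1 i
      split_ifs at k <;> omega
    have h4 := dg_add (w := 56) (x := n x * X x) (y := ∑ y ∈ S, n y * X y) fun i => by
      have k1 := b1 i
      have k2 := h1.1 i
      rw [h3]
      split_ifs at k1 k2 <;> omega
    refine ⟨fun i => ?_, fun r hr p hp => ?_⟩
    · have k1 := b1 i
      have k2 := h1.1 i
      rw [h4, h3]
      split_ifs at k1 k2 ⊢ <;> omega
    · rw [h4, h3, Nat.cast_add, Nat.cast_mul, h1.2 r hr p hp, h2.2 r hr p hp]
      push_cast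
      ring

theorem usb_abs (s v : ℤ) : (s.natAbs : ℤ) * (if 0 ≤ s then v else -v) = s * v := by
  split_ifs with h
  · rw [Int.natAbs_of_nonneg h]
  · rw [Int.ofNat_natAbs_of_nonpos (by omega)]
    ring

theorem usum_arr {a m c d : ℕ} (ha : a + m < 78) (hc : c < 78) (hd : d < 78)
    {k : ℕ → ℕ → Bool} (h : usum (ctP a m) (ctN a m) a c d k = true) :
    ∃ A O, k A O = true ∧ (O ≤ 2 ^ 53 →
      KB ((O + 2 ^ 55) * rwM m - A) m fun r p => UU p (a + 1 + r) a c d) := by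
  rw [usum_spec _ _ (by omega) hc hd] at h
  refine ⟨_, _, h, fun hO => ?_⟩
  rw [← Finset.sum_product'] at hO
  rw [← Finset.sum_product', ← Finset.sum_product']
  have h1 := usb_sum (range 11 ×ˢ range 10) (n := fun x => (scU DD x.1 x.2 a c d).natAbs)
    (X := fun x => if 0 ≤ scU DD x.1 x.2 a c d then ctP a m (10 * x.1 + x.2)
      else ctN a m (10 * x.1 + x.2)) (b := fun x => be (10 * x.1 + x.2)) (m := m)
    (U := fun x r p => if 0 ≤ scU DD x.1 x.2 a c d then arU DD x.1 x.2 p (a + 1 + r)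
      else -arU DD x.1 x.2 p (a + 1 + r)) (fun x hx => by
      obtain ⟨k1, k2⟩ := Finset.mem_product.1 hx
      rw [Finset.mem_range] at k1 k2
      have k3 := usb_ctP k1 k2 ha
      split_ifs
      · exact k3
      · have k4 := k3.neg (rowA_spec (q := 0) k1 k2 (by omega)).1
        unfold ctN
        simp only [frc_eq]
        exact k4) hO
  simp only [usb_abs] at h1
  generalize (∑ x ∈ range 11 ×ˢ range 10, (scU DD x.1 x.2 a c d).natAbs * be (10 * x.1 + x.2)) = O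
    at h1 hO ⊢
  generalize (∑ x ∈ range 11 ×ˢ range 10, (scU DD x.1 x.2 a c d).natAbs *
    (if 0 ≤ scU DD x.1 x.2 a c d then ctP a m (10 * x.1 + x.2)
      else ctN a m (10 * x.1 + x.2))) = A at h1 ⊢
  have h2 : ∀ i, dg 56 ((O + 2 ^ 55) * rwM m) i = if i < 78 * m then O + 2 ^ 55 else 0 :=
    dg_rwM (by omega) m
  have h3 := dg_sub (w := 56) (x := (O + 2 ^ 55) * rwM m) (y := A) (by omega) fun i => by
    have k := h1.1 i
    rw [h2]
    split_ifs at k ⊢ <;> omega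
  refine ⟨fun i => ?_, fun r hr p hp => ?_⟩
  · rw [h3, h2]
    split_ifs <;> omega
  · have k1 := h1.1 (78 * r + p)
    have k2 := h1.2 r hr p hp
    rw [if_pos (by omega)] at k1
    beta_reduce at k2 ⊢
    rw [Finset.sum_product' (f := fun t u => scU DD t u a c d * arU DD t u p (a + 1 + r)),
      ← UU_eq] at k2
    rw [h3, h2, if_pos (by omega)]
    omega

theorem usum_sc {p q a c d : ℕ} (hp : p < 78) (hq : q < 78) (ha : a < 78) (hc : c < 78)
    (hd : d < 78) {k : ℕ → ℕ → Bool} (h : usum (scP p q) (scN p q) a c d k = true) :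
    ∃ A O : ℕ, k A O = true ∧ (A : ℤ) = O + UU p q a c d := by
  rw [usum_spec _ _ ha hc hd] at h
  refine ⟨_, _, h, ?_⟩
  rw [UU_eq]
  push_cast
  rw [← Finset.sum_add_distrib]
  refine Finset.sum_congr rfl fun t ht => ?_
  rw [← Finset.sum_add_distrib]
  refine Finset.sum_congr rfl fun u hu => ?_
  rw [Finset.mem_range] at ht hu
  obtain ⟨h1, h2⟩ := (rowA_spec ht hu hq).2.2 p hp
  have e : scP p q (10 * t + u) = dg 56 (rowA (128 * (10 * t + u) + q)) p := by
    rw [scP, frc_eq, lane_eq]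
    rfl
  have e2 : scN p q (10 * t + u) = 2 * be (10 * t + u) - scP p q (10 * t + u) := rfl
  rw [← usb_abs (scU DD t u a c d), Int.natCast_natAbs, ← mul_add]
  congr 1
  split_ifs
  · rw [e, h1]
  · rw [e2, e]
    omega

end Vale.Agent.P181
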