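import Vale.Agent.P181.S.Tv
import Vale.Agent.P181.S.UsB
import Vale.Agent.P181.S.Up

/-! The covering check.

PLAN.  `dg_ndM`: `dg_hor_rows`, `dg_sgM`.  `sub55_spec`: `dg_land`, `Nat.testBit_and`.  `orL_spec`: list
induction, `dg_lor`.  `good_spec`: `dg_add` (2^54 + 2^55 + 2^53 < 2^56); a number below 2^56 with bit 55
set is at least 2^55 (`Nat.ge_two_pow_of_testBit`).  `du_spec`: the output is 0 or 2^55 on the single lane
78 r0 + p0 with p0 ≤ 77, so r = r0, p = p0; `usum_sc`, `tv_tb`, and `up_dual` for lam b p q a c d with the even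
number l0 + l0 % 2, where l0 = lam .. 0; the five arguments of UU agree by omega.
`covO_spec`: `usum_arr` gives KB KU m; every Valid tuple at a level b ≤ 24 has row r = q - a - 1 < m and
p < 78.  First part: `dg_add` with `dg_mkM`.  Second part: induction on n ≤ 18 with the invariant
(bit 55 of C at (r, p), r < m, p < 78, implies UU ≤ 720 * cP b' 6 for every b' ≥ 25 - n at which the lane is
Valid); then `up_stable` (through `lam`, `mM_lam`) or `du_spec`.  The needed lane is in the shifted mask: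
`dg_shl` with 4368 * s = 56 * (78 * s).  `covA_spec`: `Tc.get t n k = true → ∃ tr dl, k tr dl = true`
(induction on t); Valid at b ≤ 24 forces 4 a + c + d ≤ 153. -/

namespace Vale.Agent.P181

open K Finset

theorem dg_ndM {a t p : ℕ} (ha : 2 ≤ a) (ht : t ≤ 159) (hp : p < 78) (m r : ℕ) :
    dg 56 (ndM a t m) (78 * r + p) =
      if r < m ∧ a + 1 + r < p ∧ 2 * p + (a + 1 + r) < t then 2 ^ 55 else 0 := by
  have e : ndM a t m = hor (56 * 78) m fun j =>
      sgM (2 ^ 55) (a + m - j + 1) ((t + 1 - (a + m - j)) / 2) := by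
    unfold ndM nd
    simp only [frc_eq]
    rfl
  rw [e, dg_hor_rows hp fun j hj => lt_of_dg (by norm_num) fun i hi => by
    rw [dg_sgM (by norm_num), if_neg (by omega)]]
  by_cases hr : r < m
  · rw [if_pos hr, dg_sgM (by norm_num)]
    exact if_congr (by omega) rfl rfl
  · rw [if_neg hr, if_neg fun k => hr k.1]

theorem sub55_spec {N C i : ℕ} (h : sub55 N C = true) (hi : dg 56 N i = 2 ^ 55) :
    (dg 56 C i).testBit 55 = true := by
  have e : N &&& C = N := Nat.eq_of_beq_eq_true h
  have k := dg_land 56 N C i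
  rw [e, hi] at k
  have k2 := congrArg (fun x => Nat.testBit x 55) k
  simpa only [Nat.testBit_and, Nat.testBit_two_pow_self, Bool.true_and] using k2.symm

theorem orL_spec {f : ℕ → ℕ} {l : List ℕ} {C i : ℕ}
    (h : (dg 56 (orL f l C) i).testBit 55 = true) :
    (dg 56 C i).testBit 55 = true ∨ ∃ x, (dg 56 (f x) i).testBit 55 = true := by
  induction l with
  | nil => exact Or.inl h
  | cons x l ih =>
    have e : orL f (x :: l) C = orL f l C ||| f x := rfl
    rw [e, dg_lor, Nat.testBit_or, Bool.or_eq_true] at h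
    rcases h with h | h
    · exact ih h
    · exact Or.inr ⟨x, h⟩

theorem good_spec {X KU m r p : ℕ} {U : ℕ → ℕ → ℤ} (hX : ∀ i, dg 56 X i < 2 ^ 54)
    (hK : KB KU m U) (hr : r < m) (hp : p < 78)
    (h : (dg 56 (X + KU) (78 * r + p)).testBit 55 = true) :
    U r p ≤ ((dg 56 X (78 * r + p) : ℕ) : ℤ) := by
  rw [dg_add fun i => by have := hX i; have := hK.1 i; omega] at h
  have k := Nat.ge_two_pow_of_testBit h
  have k2 := hK.2 r hr p hp
  omega

theorem Tc.get_spec {t : Tc} {n : ℕ} {k : List (List ℕ) → List (List ℕ) → Bool}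
    (h : t.get n k = true) : ∃ tr dl, k tr dl = true := by
  induction t with
  | leaf tr dl => exact ⟨tr, dl, h⟩
  | node c l r ihl ihr =>
    have e : (Tc.node c l r).get n k = cnd (Nat.ble n c) (l.get n k) (r.get n k) := rfl
    rw [e, cnd_eq] at h
    split_ifs at h
    · exact ihl h
    · exact ihr h

theorem Cov_mod (x y : ℕ) : Nat.mod x y = x % y := rfl

theorem Cov_div (x y : ℕ) : Nat.div x y = x / y := rfl

theorem Cov_stable (h : RepFacts) {b p q a c d : ℕ} (hv : Valid b p q a c d) :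
    720 * cP 6 b p q a c d ≤ UU p q a c d := by
  have k := up_stable h b _ (lam_anti hv) (lam_sum hv)
  obtain ⟨h1, h2, h3, h4, -⟩ := id hv
  rw [mM_lam hv] at k
  have e1 : lam b p q a c d 1 + 4 = p := by change p - 4 + 4 = p; omega
  have e2 : lam b p q a c d 2 + 3 = q := by change q - 3 + 3 = q; omega
  have e3 : lam b p q a c d 3 + 2 = a := by change a - 2 + 2 = a; omega
  have e4 : lam b p q a c d 4 + 1 = c := by change c - 1 + 1 = c; omega
  have e5 : lam b p q a c d 5 = d := rfl
  rwa [e1, e2, e3, e4, e5] at k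

theorem Cov_dual (h : RepFacts) {b p q a c d l e : ℕ} (hv : Valid b p q a c d)
    (hl : l = 6 * b + 10 - (p + q + a + c + d)) (he : e = l + l % 2 + 5) :
    720 * cP 6 b p q a c d ≤ UU (e - c) (e - a) (e - q) (e - p) (l % 2) := by
  have e0 : lam b p q a c d 0 = l := hl.symm
  have k := up_dual h b (l + l % 2) _ (lam_anti hv) (lam_sum hv) (Nat.even_iff.2 (by omega))
    (by rw [e0]; omega)
  obtain ⟨h1, h2, h3, h4, h5⟩ := id hv
  rw [mM_lam hv] at k
  have e1 : l + l % 2 - lam b p q a c d 1 + 1 = e - p := by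
    change l + l % 2 - (p - 4) + 1 = e - p; omega
  have e2 : l + l % 2 - lam b p q a c d 2 + 2 = e - q := by
    change l + l % 2 - (q - 3) + 2 = e - q; omega
  have e3 : l + l % 2 - lam b p q a c d 3 + 3 = e - a := by
    change l + l % 2 - (a - 2) + 3 = e - a; omega
  have e4 : l + l % 2 - lam b p q a c d 4 + 4 = e - c := by
    change l + l % 2 - (c - 1) + 4 = e - c; omega
  have e5 : l + l % 2 - lam b p q a c d 0 = l % 2 := by rw [e0]; omega
  rwa [e1, e2, e3, e4, e5] at k

variable {V : ℕ → ℕ} {zT zN : List ℕ}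

theorem du_spec (h : RepFacts) (hV : VOK V) {b a c d y r p : ℕ} (hb : b ≤ 24) (hp : p < 78)
    (hv : Valid b p (a + 1 + r) a c d)
    (hy : (dg 56 (du V b a c d y) (78 * r + p)).testBit 55 = true) :
    cP 6 b p (a + 1 + r) a c d ≤ cP b 6 p (a + 1 + r) a c d := by
  unfold du at hy
  simp only [frc_eq, cnd_eq, bnd2_iff, Nat.ble_eq, Nat.sub_eq, Nat.add_eq, Nat.mul_eq,
    Cov_mod, Nat.succ_eq_add_one, Nat.shiftLeft_eq', lane_eq] at hy
  generalize Nat.land y 127 = p0 at hy
  generalize fd y 7 = r0 at hy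
  split_ifs at hy with hg
  · obtain ⟨g1, g2, g3⟩ := hg
    rw [dg_shl] at hy
    have e : 78 * r + p = 78 * r0 + p0 := by
      by_contra hne
      split_ifs at hy with h1
      · rw [dg_of_lt (by norm_num), if_neg (by omega)] at hy
        simp at hy
      · simp at hy
    obtain rfl : r0 = r := by omega
    obtain rfl : p0 = p := by omega
    obtain ⟨h1, h2, h3, h4, h5⟩ := id hv
    obtain ⟨A, O, k1, k2⟩ := usum_sc (by omega) (by omega) (by omega) (by omega) (by omega) g3
    rw [Nat.ble_eq] at k1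
    have k3 := (tv_tb h hV hb (c := c) (d := d) (by omega) (by omega) a (y >>> 13)).2 b
      le_rfl r0 p0 hp hv
    have k4 := Cov_dual h hv rfl rfl
    have k5 : dg 56 (tv V b a c d (y >>> 13)) (78 * r0 + p0) =
      dg 56 (tv V b a c d (Nat.shiftRight y 13)) (78 * r0 + p0) := rfl
    omega
  · simp [dg_zero] at hy

/-- What the covering check proves for one outer triple. -/
def CovOK (zT zN : List ℕ) (a c d : ℕ) : Prop :=
  (a ≤ 15 → ∀ p q, Valid 24 p q a c d → UU p q a c d < 2 ^ 47) ∧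
    ∀ b, 7 ≤ b → b ≤ 24 → ∀ p q, Valid b p q a c d → ez zT zN b a c d ≤ q →
      cP 6 b p q a c d ≤ cP b 6 p q a c d

theorem Cov_open {tr dl : List (List ℕ)} {m a c d : ℕ} (ha : a + m < 78) (hc : c < 78)
    (hd : d < 78) (hk : covO V zT zN tr dl m a c d = true) :
    ∃ KU, (KB KU m fun r p => UU p (a + 1 + r) a c d) ∧
      cnd (Nat.ble a 15) (sub55 (ndM a (159 - (a + c + d)) ((159 - (a + c + d)) / 3 - (a + 1)))
        (KU + mkM 78 m 0)) true = true ∧
      Nat.rec (motive := fun _ => ℕ → Bool) (fun _ => true)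
        (fun n ih => covS V zT zN tr dl a c d KU n ih) 18 0 = true := by
  unfold covO at hk
  obtain ⟨A, O, k1, k2⟩ := usum_arr ha hc hd hk
  rw [bnd2_iff, bnd2_iff, Nat.ble_eq] at k1
  exact ⟨_, k2 (k1.1.trans (by norm_num)), k1.2.1, k1.2.2⟩

/-- The invariant of the covering loop. -/
def CovInv (C b m a c d : ℕ) : Prop :=
  ∀ r < m, ∀ p < 78, (dg 56 C (78 * r + p)).testBit 55 = true → ∀ b', b ≤ b' →
    Valid b' p (a + 1 + r) a c d → UU p (a + 1 + r) a c d ≤ 720 * cP b' 6 p (a + 1 + r) a c d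

theorem Cov_step (h : RepFacts) (hV : VOK V) {tr dl : List (List ℕ)} {a c d KU n C : ℕ}
    {ih : ℕ → Bool} (hd : d < c) (hc : c < a) (ha : a ≤ 38)
    (hK : KB KU ((158 - a) / 3 - (a + 1)) fun r p => UU p (a + 1 + r) a c d)
    (hI : CovInv C (24 - n) ((158 - a) / 3 - (a + 1)) a c d)
    (hk : covS V zT zN tr dl a c d KU n ih C = true) :
    (∃ C', CovInv C' (24 - n) ((158 - a) / 3 - (a + 1)) a c d ∧ ih C' = true) ∧
      ∀ p q, Valid (24 - n) p q a c d → ez zT zN (24 - n) a c d ≤ q →
        cP 6 (24 - n) p q a c d ≤ cP (24 - n) 6 p q a c d := by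
  unfold covS at hk
  rw [frc_eq, bnd2_iff, mx_eq] at hk
  simp only [Nat.sub_eq, Nat.add_eq, Nat.mul_eq, Cov_div, Nat.succ_eq_add_one,
    Nat.shiftLeft_eq'] at hk
  obtain ⟨k1, k2⟩ := hk
  generalize hb : 24 - n = b at *
  have hb' : b ≤ 24 := by omega
  have hI' : CovInv (orL (fun x => tv V b a c d x + KU) (nth [] tr n) C) b
      ((158 - a) / 3 - (a + 1)) a c d := fun r hr p hp hbit b' hbb hv => by
    rcases orL_spec hbit with k | ⟨x, k⟩
    · exact hI r hr p hp k b' hbb hv
    · have T := tv_tb h hV hb' (c := c) (d := d) (by omega) (by omega) a x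
      exact (good_spec T.1 hK hr hp k).trans (T.2 b' hbb r p hp hv)
  refine ⟨⟨_, hI', k2⟩, fun p q hv hq => ?_⟩
  obtain ⟨-, -, h3, h4, h5⟩ := id hv
  obtain ⟨r, rfl⟩ : ∃ r, q = a + 1 + r := ⟨q - (a + 1), by omega⟩
  generalize ha' : max a (ez zT zN b a c d - 1) = a' at k1
  have a1 : a ≤ a' := ha' ▸ le_max_left _ _
  have a2 : a' ≤ a + r := ha' ▸ max_le (by omega) (by omega)
  have hp : p < 78 := by omega
  have e : 4368 * (a' - a) = 56 * (78 * (a' - a)) := by omega
  have k3 := sub55_spec (i := 78 * r + p) k1 (by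
    have e2 : 78 * r + p - 78 * (a' - a) = 78 * (a + r - a') + p := by omega
    rw [e, dg_shl, if_pos (by omega), e2, dg_ndM (by omega) (by omega) hp, if_pos]
    omega)
  rcases orL_spec k3 with k | ⟨x, k⟩
  · have k4 := (Cov_stable h hv).trans (hI' r (by omega) p hp k b le_rfl hv)
    omega
  · exact du_spec h hV hb' hp hv k

theorem covO_spec (h : RepFacts) (hV : VOK V) {tr dl : List (List ℕ)} {a c d : ℕ} (hd : d < c)
    (hc : c < a) (ha : a ≤ 38)
    (hk : covO V zT zN tr dl ((158 - a) / 3 - (a + 1)) a c d = true) : CovOK zT zN a c d := by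
  obtain ⟨KU, hK, k4, k5⟩ := Cov_open (by omega) (by omega) (by omega) hk
  constructor
  · intro h15 p q hv
    obtain ⟨-, -, h3, h4, h5⟩ := id hv
    obtain ⟨r, rfl⟩ : ∃ r, q = a + 1 + r := ⟨q - (a + 1), by omega⟩
    have hp : p < 78 := by omega
    have hr : r < (158 - a) / 3 - (a + 1) := by omega
    rw [cnd_eq, if_pos (Nat.ble_eq_true_of_le h15), add_comm KU] at k4
    have k6 := sub55_spec (i := 78 * r + p) k4 (by
      rw [dg_ndM (by omega) (by omega) hp, if_pos]
      omega)
    have k7 := good_spec (fun i => by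
      rw [← Nat.div_add_mod i 78, dg_mkM (Nat.mod_lt _ (by norm_num))]
      split_ifs <;> norm_num) hK hr hp k6
    rw [dg_mkM hp, if_pos ⟨hr, hp⟩] at k7
    exact k7.trans_lt (by norm_num)
  · have key : ∀ n ≤ 18, ∀ C, CovInv C (25 - n) ((158 - a) / 3 - (a + 1)) a c d →
        Nat.rec (motive := fun _ => ℕ → Bool) (fun _ => true)
          (fun n ih => covS V zT zN tr dl a c d KU n ih) n C = true →
        ∀ b, 25 - n ≤ b → b ≤ 24 → ∀ p q, Valid b p q a c d → ez zT zN b a c d ≤ q →
          cP 6 b p q a c d ≤ cP b 6 p q a c d := by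
      intro n
      induction n with
      | zero => intro _ _ _ _ b h1 h2; omega
      | succ n ih =>
        intro hn C hI hs b h1 h2
        have e : 25 - (n + 1) = 24 - n := by omega
        rw [e] at hI h1
        obtain ⟨⟨C', i1, i2⟩, s⟩ := Cov_step h hV hd hc ha hK hI hs
        rcases h1.eq_or_lt with rfl | h3
        · exact s
        · exact ih (by omega) C' (fun r hr p hp hb b' hb' => i1 r hr p hp hb b' (by omega)) i2 b
            (by omega) h2
    exact key 18 le_rfl 0 (fun r _ p _ hb => by simp [dg_zero] at hb) k5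

theorem covA_spec (h : RepFacts) (hV : VOK V) {ct : Tc} {a lo n c d : ℕ}
    (hk : covA V zT zN ct a lo n = true) (h1 : lo ≤ c) (h2 : c < lo + n) (hd : d < c)
    (hc : c < a) : CovOK zT zN a c d := by
  unfold covA at hk
  simp only [frc_eq, allB_iff, cnd_eq, Nat.ble_eq, Nat.add_eq, Nat.mul_eq] at hk
  have k := hk (c - lo) (by omega) d (by omega)
  rw [show lo + (c - lo) = c by omega] at k
  split_ifs at k with hg
  · obtain ⟨tr, dl, k2⟩ := Tc.get_spec k
    exact covO_spec h hV hd hc (by omega) k2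
  · refine ⟨fun _ p q hv => ?_, fun b _ hb p q hv _ => ?_⟩
    · obtain ⟨-, -, h3, h4, h5⟩ := hv
      omega
    · obtain ⟨-, -, h3, h4, h5⟩ := hv
      omega

end Vale.Agent.P181
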