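import Mathlib

/-! Plethysm `h_a[h_b]` in `n` variables, Schur polynomials, Schur positivity, and the
alternant formula for multiplicities. -/

namespace Vale.Agent.P181

open MvPolynomial

/-- The monomial `x_{i₁} ⋯ x_{i_b}` attached to the multiset `{i₁, …, i_b}`. -/
noncomputable def smon (n b : ℕ) (s : Sym (Fin n) b) : MvPolynomial (Fin n) ℤ :=
  (s.1.map X).prod

/-- The plethysm `h_a[h_b]` in the variables `x_1, …, x_n`: the complete homogeneous symmetric
polynomial `h_a` evaluated at the list of all monomials of degree `b`. -/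
noncomputable def pl (n a b : ℕ) : MvPolynomial (Fin n) ℤ :=
  aeval (smon n b) (hsymm (Sym (Fin n) b) ℤ a)

/-- `h_k (x_1, …, x_n)` for an integer `k`, zero when `k < 0`. -/
noncomputable def hz (n : ℕ) (k : ℤ) : MvPolynomial (Fin n) ℤ :=
  if 0 ≤ k then hsymm (Fin n) ℤ k.toNat else 0

/-- The Schur polynomial `s_λ (x_1, …, x_n) = det (h_{λ_i - i + j})` (Jacobi-Trudi). -/
noncomputable def schur (n : ℕ) (l : Fin n → ℕ) : MvPolynomial (Fin n) ℤ :=
  (Matrix.of fun i j : Fin n => hz n ((l i : ℤ) - (i : ℕ) + (j : ℕ))).det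

/-- `f` is a nonnegative integer combination of Schur polynomials `s_λ (x_1, …, x_n)`,
`λ = (λ_1 ≥ ⋯ ≥ λ_n ≥ 0)`. -/
def SchurPos (n : ℕ) (f : MvPolynomial (Fin n) ℤ) : Prop :=
  ∃ c : (Fin n → ℕ) →₀ ℕ, (∀ l ∈ c.support, Antitone l) ∧
    f = c.sum fun l m => m • schur n l

/-- `ρ = (n - 1, …, 1, 0)`. -/
def rho (n : ℕ) : Fin n → ℕ := fun i => n - 1 - i

/-- An exponent vector as a finitely supported function. -/
noncomputable def fs {n : ℕ} (ν : Fin n → ℕ) : Fin n →₀ ℕ := Finsupp.equivFunOnFinite.symm ν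

/-- The alternant `a_ν = det (x_i ^ ν_j)`. -/
noncomputable def alt (n : ℕ) (ν : Fin n → ℕ) : MvPolynomial (Fin n) ℤ :=
  (Matrix.of fun i j : Fin n => (X i : MvPolynomial (Fin n) ℤ) ^ ν j).det

/-- The multiplicity of `s_λ` in a symmetric polynomial `f`: the coefficient of `x^(λ+ρ)` in
`a_ρ f`. -/
noncomputable def mult (n : ℕ) (f : MvPolynomial (Fin n) ℤ) (l : Fin n → ℕ) : ℤ :=
  coeff (fs (l + rho n)) (alt n (rho n) * f)

/-- `N(b, λ)`: multiplicity of `s_λ` in `h_b[h_6]`, six variables. -/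
noncomputable abbrev mN (b : ℕ) (l : Fin 6 → ℕ) : ℤ := mult 6 (pl 6 b 6) l

/-- `M(b, λ)`: multiplicity of `s_λ` in `h_6[h_b]`, six variables. -/
noncomputable abbrev mM (b : ℕ) (l : Fin 6 → ℕ) : ℤ := mult 6 (pl 6 6 b) l

/-- The facts of representation theory used by the finite check. -/
structure RepFacts : Prop where
  nonnegN : ∀ b l, Antitone l → 0 ≤ mN b l
  semigroup : ∀ b c l μ, Antitone l → Antitone μ → mN c μ ≠ 0 → mN b l ≤ mN (b + c) (l + μ)
  nonnegM : ∀ b l, Antitone l → 0 ≤ mM b l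
  monoM : ∀ b l, Antitone l → mM b l ≤ mM (b + 1) (l + Pi.single 0 6)

/-- The conclusion of the finite check. -/
def FiniteCheck : Prop := ∀ b l, 7 ≤ b → b ≤ 24 → Antitone l → mM b l ≤ mN b l

end Vale.Agent.P181
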