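import Mathlib

/-! Digits in base `2 ^ w` (lanes of a packed natural number).

PLAN.  Bitwise facts through `Nat.eq_of_testBit_eq` and `dg_testBit` (`Nat.testBit_mod_two_pow`,
`Nat.testBit_shiftRight`, `Nat.testBit_shiftLeft`, `Nat.testBit_and`, `Nat.testBit_or`).
Addition: show by induction on n that x % 2^(w n) + y % 2^(w n) < 2^(w n) (no carry), using
x % 2^(w (n+1)) = x % 2^(w n) + 2^(w n) * dg w x n (`Nat.mod_pow_succ`-like).  `dg_mul`: induction on c.
`dg_sub`: y % 2^(w n) ≤ x % 2^(w n) for all n by induction, so y ≤ x, and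
(x - y) % 2^(w n) = x % 2^(w n) - y % 2^(w n).  `ones w n = ∑_{i<n} 2^(w i)` (`Nat.geomSum_eq`). -/

namespace Vale.Agent.P181

/-- Digit number `i` in base `2 ^ w`. -/
def dg (w x i : ℕ) : ℕ := x >>> (w * i) % 2 ^ w

/-- The number whose first `n` digits are `1`. -/
def ones (w n : ℕ) : ℕ := (2 ^ (w * n) - 1) / (2 ^ w - 1)

variable {w x y : ℕ}

theorem dg_lt (w x i : ℕ) : dg w x i < 2 ^ w := by
  exact Nat.mod_lt _ (Nat.two_pow_pos w)

theorem dg_testBit (w x i j : ℕ) :
    (dg w x i).testBit j = (decide (j < w) && x.testBit (w * i + j)) := by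
  rw [dg, Nat.testBit_mod_two_pow, Nat.testBit_shiftRight]

theorem dg_zero (w i : ℕ) : dg w 0 i = 0 := by
  simp [dg]

theorem dg_land (w x y i : ℕ) : dg w (x &&& y) i = dg w x i &&& dg w y i := by
  refine Nat.eq_of_testBit_eq fun j => ?_
  simp only [dg_testBit, Nat.testBit_and]
  cases decide (j < w) <;> simp

theorem dg_lor (w x y i : ℕ) : dg w (x ||| y) i = dg w x i ||| dg w y i := by
  refine Nat.eq_of_testBit_eq fun j => ?_
  simp only [dg_testBit, Nat.testBit_or]
  cases decide (j < w) <;> simp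

theorem dg_shl (w x s i : ℕ) :
    dg w (x <<< (w * s)) i = if s ≤ i then dg w x (i - s) else 0 := by
  refine Nat.eq_of_testBit_eq fun j => ?_
  rw [dg_testBit, Nat.testBit_shiftLeft]
  split_ifs with h
  · obtain ⟨k, rfl⟩ := Nat.exists_eq_add_of_le h
    rw [dg_testBit, Nat.add_sub_cancel_left, mul_add, add_assoc, Nat.add_sub_cancel_left]
    simp
  · by_cases hj : j < w
    · have h1 : w * (i + 1) ≤ w * s := Nat.mul_le_mul_left w (by omega)
      have h2 : ¬ (w * i + j ≥ w * s) := by rw [mul_add, mul_one] at h1; omega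
      simp [h2]
    · simp [hj]

theorem dg_shr (w x s i : ℕ) : dg w (x >>> (w * s)) i = dg w x (i + s) := by
  unfold dg
  rw [← Nat.shiftRight_add, mul_add, add_comm]

theorem dg_mod (w x n i : ℕ) :
    dg w (x % 2 ^ (w * n)) i = if i < n then dg w x i else 0 := by
  refine Nat.eq_of_testBit_eq fun j => ?_
  rw [dg_testBit, Nat.testBit_mod_two_pow]
  split_ifs with h
  · rw [dg_testBit]
    by_cases hj : j < w
    · have h1 : w * (i + 1) ≤ w * n := Nat.mul_le_mul_left w (by omega)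
      have h2 : w * i + j < w * n := by rw [mul_add, mul_one] at h1; omega
      simp [h2]
    · simp [hj]
  · have h1 : w * n ≤ w * i := Nat.mul_le_mul_left w (by omega)
    have h2 : ¬ (w * i + j < w * n) := by omega
    simp [h2]

theorem dg_dg (w R x q : ℕ) (p : ℕ) :
    dg w (dg (w * R) x q) p = if p < R then dg w x (R * q + p) else 0 := by
  conv_lhs => rw [dg.eq_1 (w * R) x q]
  rw [dg_mod, mul_assoc, dg_shr, add_comm]

theorem dg_of_lt (hx : x < 2 ^ w) (i : ℕ) : dg w x i = if i = 0 then x else 0 := by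
  have h := dg_mod w x 1 i
  rw [mul_one, Nat.mod_eq_of_lt hx] at h
  split_ifs with hi
  · subst hi
    simp [dg, Nat.mod_eq_of_lt hx]
  · rw [h, if_neg (by omega)]

theorem dg_eq_zero {n i : ℕ} (hx : x < 2 ^ (w * n)) (hi : n ≤ i) : dg w x i = 0 := by
  have h := dg_mod w x n i
  rw [Nat.mod_eq_of_lt hx, if_neg (by omega)] at h
  exact h

theorem lt_of_dg (hw : 0 < w) {n : ℕ} (h : ∀ i, n ≤ i → dg w x i = 0) : x < 2 ^ (w * n) := by
  refine Nat.lt_pow_two_of_testBit x fun j hj => ?_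
  have h1 : n ≤ j / w := (Nat.le_div_iff_mul_le hw).2 (by rwa [mul_comm])
  have h2 := dg_testBit w x (j / w) (j % w)
  rw [h _ h1, Nat.div_add_mod, Nat.zero_testBit] at h2
  simpa [Nat.mod_lt _ hw] using h2.symm

theorem dg_eq (w x i : ℕ) : dg w x i = x / 2 ^ (w * i) % 2 ^ w := by
  rw [dg, Nat.shiftRight_eq_div_pow]

theorem dg_mod_succ (w x n : ℕ) :
    x % 2 ^ (w * (n + 1)) = x % 2 ^ (w * n) + 2 ^ (w * n) * dg w x n := by
  rw [mul_add, mul_one, pow_add, Nat.mod_mul, dg_eq]

theorem dg_sub_aux {a b m : ℕ} (hm : 0 < m) (h1 : b ≤ a) (h2 : b % m ≤ a % m) :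
    (a - b) / m = a / m - b / m ∧ (a - b) % m = a % m - b % m := by
  have h3 : b / m ≤ a / m := Nat.div_le_div_right h1
  have h4 := Nat.mod_lt a hm
  refine (Nat.div_mod_unique hm).2 ⟨?_, by omega⟩
  have h5 := Nat.mod_add_div a m
  have h6 := Nat.mod_add_div b m
  have h7 := Nat.mul_le_mul_left m h3
  rw [Nat.mul_sub]
  omega

theorem dg_add (h : ∀ i, dg w x i + dg w y i < 2 ^ w) (i : ℕ) :
    dg w (x + y) i = dg w x i + dg w y i := by
  have hc : ∀ n, x % 2 ^ (w * n) + y % 2 ^ (w * n) < 2 ^ (w * n) := by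
    intro n
    induction n with
    | zero => simp [Nat.mod_one]
    | succ n ih =>
      rw [dg_mod_succ, dg_mod_succ, mul_add, mul_one, pow_add]
      have h1 : 2 ^ (w * n) * (dg w x n + dg w y n + 1) ≤ 2 ^ (w * n) * 2 ^ w :=
        Nat.mul_le_mul_left _ (h n)
      rw [mul_add, mul_add, mul_one] at h1
      omega
  have h1 := h i
  rw [dg_eq, dg_eq] at h1
  rw [dg_eq, dg_eq, dg_eq, Nat.add_div_eq_of_add_mod_lt (hc i), Nat.add_mod_of_add_mod_lt h1]

theorem dg_mul (c : ℕ) (h : ∀ i, c * dg w x i < 2 ^ w) (i : ℕ) :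
    dg w (c * x) i = c * dg w x i := by
  induction c generalizing i with
  | zero => simp [dg_zero]
  | succ c ih =>
    have ih' := ih fun j => lt_of_le_of_lt (Nat.mul_le_mul_right _ (Nat.le_succ c)) (h j)
    rw [Nat.succ_mul, dg_add (fun j => by rw [ih' j, ← Nat.succ_mul]; exact h j), ih',
      Nat.succ_mul]

theorem dg_sub (hw : 0 < w) (h : ∀ i, dg w y i ≤ dg w x i) (i : ℕ) :
    dg w (x - y) i = dg w x i - dg w y i := by
  have hc : ∀ n, y % 2 ^ (w * n) ≤ x % 2 ^ (w * n) := by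
    intro n
    induction n with
    | zero => simp [Nat.mod_one]
    | succ n ih =>
      rw [dg_mod_succ, dg_mod_succ]
      exact Nat.add_le_add ih (Nat.mul_le_mul_left _ (h n))
  have hle : y ≤ x := by
    have h1 := hc y
    have h2 : y < 2 ^ (w * y) :=
      lt_of_lt_of_le Nat.lt_two_pow_self (Nat.pow_le_pow_right two_pos (Nat.le_mul_of_pos_left y hw))
    rw [Nat.mod_eq_of_lt h2] at h1
    exact h1.trans (Nat.mod_le _ _)
  have h1 := h i
  rw [dg_eq, dg_eq] at h1
  rw [dg_eq, dg_eq, dg_eq, (dg_sub_aux (Nat.two_pow_pos _) hle (hc i)).1,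
    (dg_sub_aux (Nat.two_pow_pos _) (Nat.div_le_div_right hle) h1).2]

theorem dg_ones (hw : 0 < w) (n i : ℕ) : dg w (ones w n) i = if i < n then 1 else 0 := by
  have h2 : 1 < 2 ^ w := Nat.one_lt_two_pow hw.ne'
  have e : ∀ n, ones w n = ∑ k ∈ Finset.range n, (2 ^ w) ^ k := fun n => by
    rw [Nat.geomSum_eq h2, ones, pow_mul]
  have hp : ∀ n j, dg w ((2 ^ w) ^ n) j = if j = n then 1 else 0 := fun n j => by
    rw [← pow_mul, ← Nat.one_shiftLeft, dg_shl, dg_of_lt h2]
    split_ifs <;> omega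
  rw [e]
  induction n generalizing i with
  | zero => simp [dg_zero]
  | succ n ih =>
    rw [Finset.sum_range_succ, dg_add (fun j => by rw [ih, hp]; split_ifs <;> omega), ih, hp]
    split_ifs <;> omega

theorem dg_rep (hw : 0 < w) {v : ℕ} (hv : v < 2 ^ w) (n i : ℕ) :
    dg w (v * ones w n) i = if i < n then v else 0 := by
  rw [dg_mul v (fun j => by rw [dg_ones hw]; split_ifs <;> omega), dg_ones hw]
  split_ifs <;> simp

/-- A row repeated `n` times. -/
theorem dg_rows {R n q p : ℕ} (hw : 0 < w) (hp : p < R) (hx : x < 2 ^ (w * R)) :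
    dg w (x * ones (w * R) n) (R * q + p) = if q < n then dg w x p else 0 := by
  have h := dg_dg w R (x * ones (w * R) n) q p
  rw [if_pos hp, dg_rep (Nat.mul_pos hw (by omega)) hx] at h
  rw [← h]
  split_ifs
  · rfl
  · exact dg_zero w p

end Vale.Agent.P181
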