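import Vale.Agent.P181.S.NDefs

/-! Duality for Schur polynomials at nonzero complex points, and coefficient reversal.

PLAN.  `coeff_rev`: choose D with every exponent of F at most D (e.g. D = totalDegree F) and put
rev F = ∑_{γ ∈ support} monomial (D - γ) (coeff γ F); at points with nonzero coordinates
rev F (u) = (∏ u)^D F(u⁻¹).  So (∏ X)^D * G and (∏ X)^c * rev F agree on the points with nonzero
coordinates, hence are equal (map to ℂ, `MvPolynomial.funext_set` with the infinite set {0}ᶜ,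
`map_injective`).  State this as a lemma `poly_rev` and compare the coefficients at D + c - β
(if some β r > D then coeff β F = 0 and the other side vanishes as well).
`schur_dual`: for y with nonzero coordinates and ν j ≤ N,
alt (fun j => N - ν (rev j)) (y) = s * (∏ y)^N * alt ν (y⁻¹), s = sign of `Fin.revPerm`
(`Matrix.det_permute'`, `Matrix.det_mul_column`).  Apply with ν = l + rho, N = c + 5, and with
ν = rho, N = 5; `R.jacobi_trudi` gives alt rho (y) * (schur l^c (y) - (∏ y)^c schur l (y⁻¹)) = 0.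
Multiply by (∏ y)^D to get a polynomial identity alt rho * ((∏ X)^D schur l^c - (∏ X)^c rev (schur l)) = 0
(funext_set again), cancel `R.alt_rho_ne_zero`, evaluate at y. -/

namespace Vale.Agent.P181

open MvPolynomial Finset

namespace DualA

theorem poly_ext {m : ℕ} {P Q : MvPolynomial (Fin m) ℤ}
    (h : ∀ u : Fin m → ℂ, (∀ r, u r ≠ 0) → aeval u P = aeval u Q) : P = Q := by
  apply map_injective (algebraMap ℤ ℂ) (algebraMap ℤ ℂ).injective_int
  refine funext_set (fun _ => ({0} : Set ℂ)ᶜ) (fun _ => (Set.finite_singleton 0).infinite_compl)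
    fun u hu => ?_
  rw [eval_map, eval_map]
  exact h u fun r => hu r (Set.mem_univ r)

theorem fs_app {m : ℕ} (ν : Fin m → ℕ) (r : Fin m) : fs ν r = ν r := rfl

/-- The reversed polynomial. -/
noncomputable def revP {m : ℕ} (D : ℕ) (F : MvPolynomial (Fin m) ℤ) : MvPolynomial (Fin m) ℤ :=
  ∑ γ ∈ F.support, monomial (fs fun r => D - γ r) (coeff γ F)

theorem aeval_revP {m : ℕ} {D : ℕ} {F : MvPolynomial (Fin m) ℤ}
    (hD : ∀ γ ∈ F.support, ∀ r, γ r ≤ D) (u : Fin m → ℂ) (hu : ∀ r, u r ≠ 0) :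
    aeval u (revP D F) = (∏ r, u r) ^ D * aeval (fun r => (u r)⁻¹) F := by
  conv_rhs => rw [F.as_sum]
  rw [revP, map_sum, map_sum, Finset.mul_sum]
  refine Finset.sum_congr rfl fun γ hγ => ?_
  rw [aeval_monomial, aeval_monomial, Finsupp.prod_fintype _ _ (by simp),
    Finsupp.prod_fintype _ _ (by simp), mul_left_comm, ← Finset.prod_pow,
    ← Finset.prod_mul_distrib]
  congr 1
  refine Finset.prod_congr rfl fun r _ => ?_
  rw [fs_app, pow_sub₀ _ (hu r) (hD γ hγ r), inv_pow]

theorem coeff_revP {m : ℕ} {D : ℕ} {F : MvPolynomial (Fin m) ℤ}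
    (hD : ∀ γ ∈ F.support, ∀ r, γ r ≤ D) (β : Fin m → ℕ) (hβ : ∀ r, β r ≤ D) :
    coeff (fs fun r => D - β r) (revP D F) = coeff (fs β) F := by
  rw [revP, coeff_sum, Finset.sum_eq_single (fs β)]
  · rw [coeff_monomial, if_pos]
    rfl
  · intro γ hγ hne
    rw [coeff_monomial, if_neg]
    intro e
    apply hne
    ext r
    have h1 : D - γ r = D - β r := DFunLike.congr_fun e r
    have h2 := hD γ hγ r
    have h3 := hβ r
    rw [fs_app]
    omega
  · intro h
    rw [notMem_support_iff.1 h, monomial_zero, coeff_zero]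

theorem exp_le {m : ℕ} (F : MvPolynomial (Fin m) ℤ) (c : ℕ) :
    ∀ γ ∈ F.support, ∀ r, γ r ≤ c + F.totalDegree := by
  intro γ hγ r
  have h1 := monomial_le_degreeOf r hγ
  have h2 := degreeOf_le_totalDegree F r
  omega

theorem aeval_prodX {m : ℕ} (u : Fin m → ℂ) (D : ℕ) :
    aeval u ((∏ r, X r : MvPolynomial (Fin m) ℤ) ^ D) = (∏ r, u r) ^ D := by
  simp [map_prod]

theorem prodX_pow {m : ℕ} (D : ℕ) :
    (∏ r, X r : MvPolynomial (Fin m) ℤ) ^ D = monomial (fs fun _ => D) 1 := by
  rw [← Finset.prod_pow]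
  exact R.SymA.prod_X_pow fun _ => D

theorem aeval_alt {m : ℕ} (ν : Fin m → ℕ) (y : Fin m → ℂ) :
    aeval y (alt m ν) = (Matrix.of fun i j : Fin m => y i ^ ν j).det := by
  rw [alt, AlgHom.map_det]
  congr 1
  ext i j
  simp

theorem alt_rev {m N : ℕ} (ν : Fin m → ℕ) (hν : ∀ j, ν j ≤ N) (y : Fin m → ℂ)
    (hy : ∀ i, y i ≠ 0) :
    aeval y (alt m fun j => N - ν (Fin.rev j)) =
      ((Equiv.Perm.sign (Fin.revPerm (n := m)) : ℤˣ) : ℤ) *
        ((∏ i, y i) ^ N * aeval (fun i => (y i)⁻¹) (alt m ν)) := by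
  rw [aeval_alt, aeval_alt, ← Finset.prod_pow, ← Matrix.det_mul_column, ← Matrix.det_permute']
  congr 1
  ext i j
  simp only [Matrix.of_apply, Matrix.submatrix_apply, id, Fin.revPerm_apply]
  rw [pow_sub₀ _ (hy i) (hν _), inv_pow]

end DualA

theorem coeff_rev {m : ℕ} (F G : MvPolynomial (Fin m) ℤ) (c : ℕ)
    (h : ∀ u : Fin m → ℂ, (∀ r, u r ≠ 0) →
      aeval u G = (∏ r, u r) ^ c * aeval (fun r => (u r)⁻¹) F)
    (β : Fin m → ℕ) (hβ : ∀ r, β r ≤ c) :
    coeff (fs β) F = coeff (fs fun r => c - β r) G := by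
  have hD := DualA.exp_le F c
  set D := c + F.totalDegree with hDe
  have key : (∏ r, X r) ^ D * G = (∏ r, X r) ^ c * DualA.revP D F := by
    refine DualA.poly_ext fun u hu => ?_
    rw [map_mul, map_mul, DualA.aeval_prodX, DualA.aeval_prodX, DualA.aeval_revP hD u hu, h u hu]
    ring
  have e : (fs fun _ => D) + (fs fun r => c - β r) = (fs fun _ => c) + fs fun r => D - β r := by
    ext r
    have := hβ r
    simp only [Finsupp.add_apply, DualA.fs_app]
    omega
  have h1 := congrArg (coeff ((fs fun _ => D) + fs fun r => c - β r)) key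
  rw [DualA.prodX_pow, DualA.prodX_pow, coeff_monomial_mul, e, coeff_monomial_mul,
    DualA.coeff_revP hD β fun r => (hβ r).trans (Nat.le_add_right _ _), one_mul, one_mul] at h1
  exact h1.symm

theorem schur_dual (l : Fin 6 → ℕ) (c : ℕ) (hc : ∀ i, l i ≤ c) (y : Fin 6 → ℂ)
    (hy : ∀ i, y i ≠ 0) :
    aeval y (schur 6 fun i => c - l (Fin.rev i)) =
      (∏ i, y i) ^ c * aeval (fun i => (y i)⁻¹) (schur 6 l) := by
  have hD := DualA.exp_le (schur 6 l) 0
  set D := 0 + (schur 6 l).totalDegree with hDe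
  have e1 : (fun i => c - l (Fin.rev i)) + rho 6 =
      fun j => c + 5 - (l + rho 6) (Fin.rev j) := by
    ext j
    have h1 := hc (Fin.rev j)
    have h2 := j.2
    simp only [Pi.add_apply, rho, Fin.val_rev]
    omega
  have e2 : rho 6 = fun j => 5 - rho 6 (Fin.rev j) := by
    ext j
    have h2 := j.2
    simp only [rho, Fin.val_rev]
    omega
  have key : alt 6 (rho 6) * ((∏ r, X r) ^ D * schur 6 fun i => c - l (Fin.rev i)) =
      alt 6 (rho 6) * ((∏ r, X r) ^ c * DualA.revP D (schur 6 l)) := by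
    refine DualA.poly_ext fun u hu => ?_
    have h1 := DualA.alt_rev (N := c + 5) (l + rho 6) (fun j => by
      have := hc j
      simp only [Pi.add_apply, rho]
      omega) u hu
    have h2 := DualA.alt_rev (N := 5) (rho 6) (fun j => by
      simp only [rho]
      omega) u hu
    rw [← e1, ← R.jacobi_trudi, ← R.jacobi_trudi, map_mul, map_mul] at h1
    rw [← e2] at h2
    rw [map_mul, map_mul, map_mul, map_mul, DualA.aeval_prodX, DualA.aeval_prodX,
      DualA.aeval_revP hD u hu, mul_left_comm, h1, h2]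
    ring
  have h1 := congrArg (aeval y) (mul_left_cancel₀ R.alt_rho_ne_zero key)
  rw [map_mul, map_mul, DualA.aeval_prodX, DualA.aeval_prodX, DualA.aeval_revP hD y hy,
    mul_left_comm] at h1
  exact mul_left_cancel₀ (pow_ne_zero D (Finset.prod_ne_zero_iff.2 fun i _ => hy i)) h1

end Vale.Agent.P181
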