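import Vale.Agent.P181.S.Cau

/-! The stable value of the coefficient.

PLAN.  (1) coeff (fs γ) (CC ρ k) = if ∑ ρ r * γ r = k then 1 else 0 (γ r ≤ k since ρ r > 0).
(2) eval 1 (CC ρ k) = cz (List.ofFn ρ) k: induction on m (`Fin.cons`, `Fin.sum_univ_succ`), counting.
(3) CC ρ k is weighted homogeneous of degree k for the weights ρ (`IsWeightedHomogeneous`), hence
so is every product ∏_{i ≥ 1} CC ρ (k_i), of degree K = ∑_{i ≥ 1} k_i.
(4) If G is weighted homogeneous of degree K ≤ b and k_0 + K = 6 b = ∑ ρ r * b then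
coeff (fs b) (CC ρ k_0 * G) = eval 1 G: write G as the sum of its monomials γ, each γ r ≤ K ≤ b,
`coeff_mul_monomial'` and (1).
(5) Expand both determinants with `Matrix.det_apply'` (transpose first so that the product runs
over rows i with column σ i), split off row 0 by `Fin.prod_univ_succ`.  If some k_i < 0 (i ≥ 1) both
products vanish (`CC_neg`).  Here k_i = l i - i + σ i, ∑_i k_i = ∑ l = 6 b, and
K ≤ l 1 + … + l 5 since σ 0 ≥ 0 (∑ σ i = ∑ i). -/

namespace Vale.Agent.P181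

open MvPolynomial Finset

namespace StabC

theorem le_sum {m : ℕ} (ρ : Fin m → ℕ) (hρ : ∀ r, 0 < ρ r) (γ : Fin m → ℕ) (r : Fin m) :
    γ r ≤ ∑ r, ρ r * γ r :=
  (Nat.le_mul_of_pos_left _ (hρ r)).trans
    (Finset.single_le_sum (f := fun r => ρ r * γ r) (fun _ _ => Nat.zero_le _) (mem_univ r))

theorem sum_pi_succ {m : ℕ} (s : Finset ℕ) (f : (Fin (m + 1) → ℕ) → ℤ) :
    ∑ γ ∈ Fintype.piFinset fun _ : Fin (m + 1) => s, f γ =
      ∑ i ∈ s, ∑ γ ∈ Fintype.piFinset fun _ : Fin m => s, f (Fin.cons i γ) := by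
  rw [← Finset.sum_product']
  refine Finset.sum_nbij' (fun γ => (γ 0, Fin.tail γ)) (fun x => Fin.cons x.1 x.2) ?_ ?_ ?_ ?_ ?_
  · intro γ hγ
    rw [Fintype.mem_piFinset] at hγ
    exact mem_product.2 ⟨hγ 0, Fintype.mem_piFinset.2 fun r => hγ r.succ⟩
  · intro x hx
    obtain ⟨h1, h2⟩ := mem_product.1 hx
    rw [Fintype.mem_piFinset] at h2 ⊢
    exact fun r => Fin.cases h1 h2 r
  · intro γ _
    exact Fin.cons_self_tail γ
  · intro x _
    simp
  · intro γ _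
    rw [Fin.cons_self_tail]

theorem count {m : ℕ} (ρ : Fin m → ℕ) (hρ : ∀ r, 0 < ρ r) (B k : ℕ) (hk : k ≤ B) :
    ∑ γ ∈ Fintype.piFinset fun _ : Fin m => range (B + 1),
      (if ∑ r, ρ r * γ r = k then (1 : ℤ) else 0) = cs (List.ofFn ρ) k := by
  induction m generalizing k with
  | zero => simp [cs, eq_comm]
  | succ m ih =>
    rw [sum_pi_succ, List.ofFn_succ, cs]
    have hsub : range (k / ρ 0 + 1) ⊆ range (B + 1) :=
      range_subset_range.2 (Nat.succ_le_succ ((Nat.div_le_self _ _).trans hk))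
    rw [← Finset.sum_subset hsub]
    · refine Finset.sum_congr rfl fun i hi => ?_
      have h1 : ρ 0 * i ≤ k := by
        rw [mul_comm]
        exact (Nat.le_div_iff_mul_le (hρ 0)).1 (Nat.lt_succ_iff.1 (mem_range.1 hi))
      rw [← ih (fun r => ρ r.succ) (fun r => hρ _) (k - ρ 0 * i) (by omega)]
      refine Finset.sum_congr rfl fun γ _ => ?_
      simp only [Fin.sum_univ_succ, Fin.cons_zero, Fin.cons_succ]
      exact if_congr (by omega) rfl rfl
    · intro i _ hi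
      have h1 : k < ρ 0 * i := by
        rw [mul_comm]
        exact (Nat.div_lt_iff_lt_mul (hρ 0)).1 (by simpa using hi)
      refine Finset.sum_eq_zero fun γ _ => ?_
      simp only [Fin.sum_univ_succ, Fin.cons_zero, Fin.cons_succ]
      exact if_neg (by omega)

theorem eval_CC {m : ℕ} (ρ : Fin m → ℕ) (hρ : ∀ r, 0 < ρ r) (k : ℤ) :
    eval (fun _ => 1) (CC ρ k) = cz (List.ofFn ρ) k := by
  unfold cz
  split_ifs with hk
  · obtain ⟨k, rfl⟩ := Int.eq_ofNat_of_zero_le hk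
    rw [CC, map_sum, Finset.sum_filter, Int.toNat_natCast, ← count ρ hρ k k le_rfl]
    refine Finset.sum_congr rfl fun γ _ => ?_
    refine if_congr Nat.cast_inj ?_ rfl
    simp [eval_monomial]
  · rw [CC_neg ρ (not_le.1 hk), map_zero]

theorem weight_fs {m : ℕ} (ρ : Fin m → ℕ) (γ : Fin m →₀ ℕ) :
    Finsupp.weight (fun r => (ρ r : ℤ)) γ = ((∑ r, ρ r * γ r : ℕ) : ℤ) := by
  rw [Finsupp.weight_eq_sum]
  simp [mul_comm]

theorem homog_CC {m : ℕ} (ρ : Fin m → ℕ) (k : ℤ) :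
    IsWeightedHomogeneous (fun r => (ρ r : ℤ)) (CC ρ k) k := by
  refine IsWeightedHomogeneous.sum _ _ _ fun γ hγ => isWeightedHomogeneous_monomial _ _ _ ?_
  rw [weight_fs]
  exact (mem_filter.1 hγ).2

end StabC

theorem coeff_CC {m : ℕ} (ρ : Fin m → ℕ) (hρ : ∀ r, 0 < ρ r) (k : ℤ) (γ : Fin m → ℕ) :
    coeff (fs γ) (CC ρ k) = if ((∑ r, ρ r * γ r : ℕ) : ℤ) = k then 1 else 0 := by
  rw [CC, coeff_sum]
  simp only [coeff_monomial, R.fs_injective.eq_iff]
  rw [Finset.sum_ite_eq']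
  refine if_congr ?_ rfl rfl
  rw [mem_filter, Fintype.mem_piFinset]
  refine ⟨fun h => h.2, fun h => ⟨fun r => ?_, h⟩⟩
  have := StabC.le_sum ρ hρ γ r
  rw [mem_range]
  omega

theorem StabC.coeff_mul_homog {m : ℕ} (ρ : Fin m → ℕ) (hρ : ∀ r, 0 < ρ r) (h6 : ∑ r, ρ r = 6)
    (b : ℕ) {G : MvPolynomial (Fin m) ℤ} {k K : ℤ}
    (hG : IsWeightedHomogeneous (fun r => (ρ r : ℤ)) G K) (hK : K ≤ b) (hk : k + K = 6 * b) :
    coeff (fs fun _ : Fin m => b) (CC ρ k * G) = eval (fun _ => 1) G := by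
  conv_lhs => rw [G.as_sum]
  rw [Finset.mul_sum, coeff_sum, eval_eq']
  refine Finset.sum_congr rfl fun γ hγ => ?_
  have h1 := hG (mem_support_iff.1 hγ)
  rw [StabC.weight_fs] at h1
  have h2 : ∀ r, γ r ≤ b := fun r => by
    have := StabC.le_sum ρ hρ γ r
    omega
  have h3 : (fs fun _ : Fin m => b) - γ = fs fun r => b - γ r := by
    ext r
    rfl
  have h4 : ∑ r, ρ r * (b - γ r) + ∑ r, ρ r * γ r = 6 * b := by
    rw [← Finset.sum_add_distrib, ← h6, Finset.sum_mul]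
    refine Finset.sum_congr rfl fun r _ => ?_
    rw [← mul_add, Nat.sub_add_cancel (h2 r)]
  rw [coeff_mul_monomial', if_pos (show γ ≤ fs fun _ : Fin m => b from h2), h3, coeff_CC ρ hρ,
    if_pos (by omega)]
  simp

theorem coeff_SS_stable {m : ℕ} (ρ : Fin m → ℕ) (hρ : ∀ r, 0 < ρ r) (h6 : ∑ r, ρ r = 6)
    (b : ℕ) (l : Fin 6 → ℕ) (hl : ∑ i, l i = 6 * b) (hb : l 1 + l 2 + l 3 + l 4 + l 5 ≤ b) :
    coeff (fs fun _ : Fin m => b) (SS ρ l) =
      U6 (List.ofFn ρ) ![l 1 + 4, l 2 + 3, l 3 + 2, l 4 + 1, l 5] := by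
  rw [SS, U6, ← Matrix.det_transpose, Matrix.det_apply', ← Matrix.det_transpose (Matrix.of _),
    Matrix.det_apply', coeff_sum]
  refine Finset.sum_congr rfl fun σ _ => ?_
  simp only [Matrix.transpose_apply, Matrix.of_apply]
  rw [← zsmul_eq_mul, coeff_smul, smul_eq_mul, Int.cast_id]
  congr 1
  rw [Fin.prod_univ_succ (n := 5), Fin.prod_univ_succ (n := 5)]
  have hG := IsWeightedHomogeneous.prod (Finset.univ : Finset (Fin 5))
    (fun i => CC ρ ((l i.succ : ℤ) - (i.succ : ℕ) + (σ i.succ : ℕ)))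
    (fun i => (l i.succ : ℤ) - (i.succ : ℕ) + (σ i.succ : ℕ)) fun i _ => StabC.homog_CC ρ _
  have hσ : ∑ i, ((σ i : ℕ) : ℤ) = ∑ i : Fin 6, ((i : ℕ) : ℤ) :=
    Equiv.sum_comp σ fun i : Fin 6 => ((i : ℕ) : ℤ)
  have hl' : ∑ i, (l i : ℤ) = 6 * b := by exact_mod_cast hl
  have hl2 : ∑ i : Fin 5, (l i.succ : ℤ) ≤ b := by
    have e : ∑ i : Fin 5, l i.succ = l 1 + l 2 + l 3 + l 4 + l 5 := by
      rw [Fin.sum_univ_five]
      rfl
    rw [← e] at hb
    exact_mod_cast hb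
  rw [Fin.sum_univ_succ] at hl'
  rw [Fin.sum_univ_succ, Fin.sum_univ_succ (fun i : Fin 6 => ((i : ℕ) : ℤ))] at hσ
  rw [StabC.coeff_mul_homog ρ hρ h6 b hG, map_prod]
  · simp only [Fin.cases_zero, Fin.cases_succ, one_mul]
    refine Finset.prod_congr rfl fun i _ => ?_
    rw [StabC.eval_CC ρ hρ]
    congr 2
    fin_cases i <;> simp <;> ring
  · rw [Finset.sum_add_distrib, Finset.sum_sub_distrib]
    have h0 : (0 : ℤ) ≤ (σ 0 : ℕ) := Int.natCast_nonneg _
    simp only [Fin.val_zero, Nat.cast_zero] at hσ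
    linarith
  · rw [Finset.sum_add_distrib, Finset.sum_sub_distrib]
    linarith

end Vale.Agent.P181
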