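import Vale.Agent.P181.S.DualA
import Vale.Agent.P181.S.StabC

/-! Duality for the class terms.

PLAN.  `exists_roots`: for u with nonzero coordinates there is y : Fin 6 → ℂ, nonzero coordinates, with
∏_i (1 - y_i z) = ∏_r (1 - u_r z^ρ_r) in ℂ[z].  (E.g. the monic polynomial ∏_r (z^ρ_r - u_r) of degree 6
splits over ℂ as ∏_i (z - y_i), `IsAlgClosed.splits`, `Polynomial.card_roots`..., enumerate the root
multiset as a list of length 6; both identities below then follow by evaluating at z ≠ 0 and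
`Polynomial.eq_of_infinite_eval_eq`, or with `Polynomial.reverse`.)  From the same factorization:
∏_i (1 - y_i⁻¹ z) = ∏_r (1 - u_r⁻¹ z^ρ_r), and ∏ y = ± ∏ u (evaluate at z = 0), so (∏ y)^c = (∏ u)^c
for even c.  `aeval_CC`: if ∏_i (1 - y_i z) = ∏_r (1 - u_r z^ρ_r) then aeval u (CC ρ k) = aeval y (hz 6 k):
both are the coefficients of the inverse power series (`R.SymA.mk_hsymm`, `geo_mul`; for CC:
∑_k CC ρ k z^k = ∏_r ∑_g (X_r z^ρ_r)^g, by `PowerSeries.coeff_prod` or induction, or check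
(∏_r (1 - X_r z^ρ_r)) * ∑_k CC ρ k z^k = 1 with `coeff_CC`).  Hence aeval u (SS ρ l) = aeval y (schur 6 l)
(`AlgHom.map_det`), and `schur_dual`, `coeff_rev` finish. -/

namespace Vale.Agent.P181

open MvPolynomial Finset

namespace DualB

open R.SymA

/-- The series `∑ a ^ g z ^ (n g)`. -/
noncomputable def geoN (n : ℕ) (a : ℂ) : PowerSeries ℂ :=
  PowerSeries.mk fun k => if n ∣ k then a ^ (k / n) else 0

theorem geoN_mul {n : ℕ} (hn : 0 < n) (a : ℂ) :
    geoN n a * (1 - PowerSeries.C a * PowerSeries.X ^ n) = 1 := by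
  ext k
  rw [mul_sub, mul_one, ← mul_assoc, map_sub, PowerSeries.coeff_mul_X_pow',
    PowerSeries.coeff_mul_C, PowerSeries.coeff_one]
  simp only [geoN, PowerSeries.coeff_mk]
  by_cases hk : n ≤ k
  · have hk0 : k ≠ 0 := by omega
    rw [if_pos hk, if_neg hk0]
    obtain ⟨j, rfl⟩ := Nat.exists_eq_add_of_le hk
    rw [Nat.add_sub_cancel_left]
    by_cases hd : n ∣ j
    · rw [if_pos hd, if_pos ((Nat.dvd_add_right (dvd_refl n)).2 hd), Nat.add_div_left _ hn,
        pow_succ, sub_self]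
    · rw [if_neg hd, if_neg (fun h => hd ((Nat.dvd_add_right (dvd_refl n)).1 h)), zero_mul,
        sub_self]
  · rw [if_neg hk, sub_zero]
    by_cases hk0 : k = 0
    · simp [hk0]
    · rw [if_neg hk0, if_neg fun h => hk (Nat.le_of_dvd (by omega) h)]

theorem prod_geo {n : ℕ} (hn : 0 < n) {ζ : ℂ} (hζ : IsPrimitiveRoot ζ n) (w : ℂ) :
    ∏ j : Fin n, geo (ζ ^ (j : ℕ) * w) = geoN n (w ^ n) := by
  have hζ' : IsPrimitiveRoot (PowerSeries.C ζ : PowerSeries ℂ) n :=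
    hζ.map_of_injective PowerSeries.C_injective
  have h1 := congrArg (Polynomial.eval 1)
    (X_pow_sub_C_eq_prod hζ' (α := PowerSeries.C w * PowerSeries.X) hn rfl)
  simp only [Polynomial.eval_sub, Polynomial.eval_pow, Polynomial.eval_X, Polynomial.eval_C,
    Polynomial.eval_prod, one_pow] at h1
  have h2 : (∏ j : Fin n, geo (ζ ^ (j : ℕ) * w)) *
      (1 - PowerSeries.C (w ^ n) * PowerSeries.X ^ n) = 1 := by
    rw [map_pow, ← mul_pow, h1, ← Fin.prod_univ_eq_prod_range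
      (fun i => 1 - (PowerSeries.C ζ : PowerSeries ℂ) ^ i * (PowerSeries.C w * PowerSeries.X)),
      ← Finset.prod_mul_distrib]
    refine Finset.prod_eq_one fun j _ => ?_
    have h4 := geo_mul (ζ ^ (j : ℕ) * w)
    rwa [map_mul, map_pow, mul_assoc] at h4
  have h3 := geoN_mul hn (w ^ n)
  calc _ = (∏ j : Fin n, geo (ζ ^ (j : ℕ) * w)) *
        (geoN n (w ^ n) * (1 - PowerSeries.C (w ^ n) * PowerSeries.X ^ n)) := by rw [h3, mul_one]
    _ = geoN n (w ^ n) := by rw [mul_left_comm, h2, mul_one]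

theorem aeval_hsymm {n : ℕ} (y : Fin n → ℂ) (k : ℕ) :
    aeval y (hsymm (Fin n) ℤ k) = PowerSeries.coeff k (∏ i, geo (y i)) := by
  rw [PowerSeries.coeff_prod, hsymm_eq, map_sum]
  simp [geo]

theorem aeval_CC {m : ℕ} (ρ : Fin m → ℕ) (hρ : ∀ r, 0 < ρ r) (u : Fin m → ℂ) (k : ℕ) :
    aeval u (CC ρ k) = PowerSeries.coeff k (∏ r, geoN (ρ r) (u r)) := by
  classical
  rw [PowerSeries.coeff_prod, CC, map_sum]
  have h0 : ∀ l : Fin m →₀ ℕ, ∏ r, PowerSeries.coeff (l r) (geoN (ρ r) (u r)) =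
      if ∀ r ∈ (univ : Finset (Fin m)), ρ r ∣ l r then ∏ r, u r ^ (l r / ρ r) else 0 := by
    intro l
    simp only [geoN, PowerSeries.coeff_mk]
    split_ifs with h
    · exact Finset.prod_congr rfl fun r hr => if_pos (h r hr)
    · push Not at h
      obtain ⟨r, hr, h⟩ := h
      exact Finset.prod_eq_zero hr (if_neg h)
  simp only [h0]
  rw [← Finset.sum_filter]
  refine Finset.sum_nbij' (fun γ => fs fun r => ρ r * γ r) (fun l r => l r / ρ r) ?_ ?_ ?_ ?_ ?_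
  · intro γ hγ
    simp only [Finset.mem_filter, Finset.mem_finsuppAntidiag, R.fs_apply] at hγ ⊢
    exact ⟨⟨by exact_mod_cast hγ.2, Finset.subset_univ _⟩, fun r _ => Dvd.intro _ rfl⟩
  · intro l hl
    simp only [Finset.mem_filter, Finset.mem_finsuppAntidiag, Fintype.mem_piFinset,
      Finset.mem_range, Int.toNat_natCast] at hl ⊢
    refine ⟨fun r => ?_, ?_⟩
    · have h1 : l r ≤ k := hl.1.1 ▸ Finset.single_le_sum (f := fun r => l r)
        (fun _ _ => Nat.zero_le _) (Finset.mem_univ r)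
      exact Nat.lt_succ_of_le ((Nat.div_le_self _ _).trans h1)
    · rw [← hl.1.1]
      refine congrArg _ (Finset.sum_congr rfl fun r hr => Nat.mul_div_cancel' (hl.2 r hr))
  · intro γ _
    funext r
    exact Nat.mul_div_cancel_left _ (hρ r)
  · intro l hl
    simp only [Finset.mem_filter] at hl
    ext r
    exact Nat.mul_div_cancel' (hl.2 r (Finset.mem_univ r))
  · intro γ _
    rw [← prod_X_pow, map_prod]
    refine Finset.prod_congr rfl fun r _ => ?_
    rw [map_pow, aeval_X, R.fs_apply, Nat.mul_div_cancel_left _ (hρ r)]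

theorem aeval_SS {m : ℕ} (ρ : Fin m → ℕ) (hρ : ∀ r, 0 < ρ r) (u : Fin m → ℂ) (y : Fin 6 → ℂ)
    (h : ∏ i, geo (y i) = ∏ r, geoN (ρ r) (u r)) (l : Fin 6 → ℕ) :
    aeval u (SS ρ l) = aeval y (schur 6 l) := by
  have hk : ∀ k : ℤ, aeval u (CC ρ k) = aeval y (hz 6 k) := by
    intro k
    by_cases h0 : 0 ≤ k
    · obtain ⟨k, rfl⟩ := Int.eq_ofNat_of_zero_le h0
      rw [aeval_CC ρ hρ, hz, if_pos h0, Int.toNat_natCast, aeval_hsymm, h]
    · rw [hz, if_neg h0, map_zero, CC, Finset.filter_false_of_mem, Finset.sum_empty, map_zero]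
      intro γ _ hγ
      exact h0 (hγ ▸ Int.natCast_nonneg _)
  rw [SS, schur, AlgHom.map_det, AlgHom.map_det]
  refine congrArg Matrix.det ?_
  ext i j
  exact hk _

theorem exists_roots {m : ℕ} (ρ : Fin m → ℕ) (hρ : ∀ r, 0 < ρ r) (h6 : ∑ r, ρ r = 6)
    (u : Fin m → ℂ) (hu : ∀ r, u r ≠ 0) :
    ∃ y : Fin 6 → ℂ, (∀ i, y i ≠ 0) ∧ (∏ i, y i) ^ 2 = (∏ r, u r) ^ 2 ∧
      ∏ i, geo (y i) = ∏ r, geoN (ρ r) (u r) ∧
      ∏ i, geo (y i)⁻¹ = ∏ r, geoN (ρ r) (u r)⁻¹ := by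
  classical
  choose w hw using fun r => IsAlgClosed.exists_pow_nat_eq (u r) (hρ r)
  choose ζ hζ using fun r => (⟨_, Complex.isPrimitiveRoot_exp (ρ r) (hρ r).ne'⟩ :
    ∃ ζ : ℂ, IsPrimitiveRoot ζ (ρ r))
  let e : Fin 6 ≃ (Σ r, Fin (ρ r)) := (Fintype.equivFinOfCardEq (by simp [h6])).symm
  let v : (Σ r, Fin (ρ r)) → ℂ := fun p => ζ p.1 ^ (p.2 : ℕ) * w p.1
  have hw0 : ∀ r, w r ≠ 0 := fun r h => hu r (by rw [← hw, h, zero_pow (hρ r).ne'])
  refine ⟨fun i => v (e i), fun i => ?_, ?_, ?_, ?_⟩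
  · exact mul_ne_zero (pow_ne_zero _ ((hζ _).ne_zero (hρ _).ne')) (hw0 _)
  · rw [Equiv.prod_comp e v, Fintype.prod_sigma, ← Finset.prod_pow, ← Finset.prod_pow]
    refine Finset.prod_congr rfl fun r _ => ?_
    simp only [v]
    rw [Finset.prod_mul_distrib, Finset.prod_const, Finset.card_univ, Fintype.card_fin, hw,
      Finset.prod_pow_eq_pow_sum, mul_pow, ← pow_mul,
      Fin.sum_univ_eq_sum_range (fun i => i) (ρ r), Finset.sum_range_id_mul_two, pow_mul,
      (hζ r).pow_eq_one, one_pow, one_mul]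
  · rw [Equiv.prod_comp e fun p => geo (v p), Fintype.prod_sigma]
    refine Finset.prod_congr rfl fun r _ => ?_
    rw [← hw, ← prod_geo (hρ r) (hζ r)]
  · rw [Equiv.prod_comp e fun p => geo (v p)⁻¹, Fintype.prod_sigma]
    refine Finset.prod_congr rfl fun r _ => ?_
    rw [← hw, ← inv_pow, ← prod_geo (hρ r) (hζ r).inv]
    refine Finset.prod_congr rfl fun j _ => ?_
    simp only [v]
    rw [mul_inv, inv_pow]

end DualB

theorem coeff_SS_dual {m : ℕ} (ρ : Fin m → ℕ) (hρ : ∀ r, 0 < ρ r) (h6 : ∑ r, ρ r = 6)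
    (b c : ℕ) (l : Fin 6 → ℕ) (hc : ∀ i, l i ≤ c) (he : Even c) (hb : b ≤ c) :
    coeff (fs fun _ : Fin m => b) (SS ρ l) =
      coeff (fs fun _ : Fin m => c - b) (SS ρ fun i => c - l (Fin.rev i)) := by
  refine coeff_rev _ _ c (fun u hu => ?_) (fun _ => b) fun _ => hb
  obtain ⟨y, hy, h2, h3, h4⟩ := DualB.exists_roots ρ hρ h6 u hu
  obtain ⟨d, rfl⟩ := he.two_dvd
  rw [DualB.aeval_SS ρ hρ u y h3, DualB.aeval_SS ρ hρ _ (fun i => (y i)⁻¹) h4,
    schur_dual l _ hc y hy, pow_mul, pow_mul, h2]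

end Vale.Agent.P181
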