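/-! Kernel engine: packed arrays (56 bit lanes, values modulo `2 ^ 47`). -/

namespace Vale.Agent.P181.K

noncomputable def loop (n : Nat) (f : Nat → Nat) : Nat :=
  Nat.rec (motive := fun _ => Nat) 0 (fun k r => Nat.add r (f k)) n
noncomputable def frc {α : Type} (n : Nat) (f : Nat → α) : α :=
  Nat.rec (motive := fun _ => α) (f 0) (fun k _ => f (Nat.succ k)) n
noncomputable def cnd {α : Type} (b : Bool) (x y : α) : α := Bool.rec (motive := fun _ => α) y x b
noncomputable def allB (n : Nat) (f : Nat → Bool) : Bool :=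
  Nat.rec (motive := fun _ => Bool) true (fun k r => cnd (f k) r false) n
noncomputable def mn (x y : Nat) : Nat := cnd (Nat.ble x y) x y
noncomputable def mx (x y : Nat) : Nat := cnd (Nat.ble x y) y x

noncomputable def nth {α : Type} (z : α) (l : List α) : Nat → α :=
  List.rec (motive := fun _ => Nat → α) (fun _ => z)
    (fun x _ ih n => Nat.rec (motive := fun _ => α) x (fun k _ => ih k) n) l

inductive Tr : Type
  | leaf : Nat → Tr
  | node : Nat → Tr → Tr → Tr

noncomputable def Tr.get (t : Tr) (n : Nat) : Nat :=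
  Tr.rec (motive := fun _ => Nat) (fun v => v) (fun c _ _ l r => cnd (Nat.ble n c) l r) t

noncomputable def on (w n : Nat) : Nat :=
  Nat.div (Nat.sub (Nat.pow 2 (Nat.mul w n)) 1) (Nat.sub (Nat.pow 2 w) 1)

/-- `2 ^ 47 - 1` on the first `n` lanes. -/
noncomputable def m1 (n : Nat) : Nat := Nat.mul 140737488355327 (on 56 n)
noncomputable def m1M (n : Nat) : Nat := frc n m1

noncomputable def mk (R n k : Nat) : Nat := Nat.mul (m1 (Nat.sub R k)) (on (Nat.mul 56 R) n)
noncomputable def mkM (R n k : Nat) : Nat := frc n fun n => frc k fun k => mk R n k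

/-- `2 ^ 47` on the first `n` lanes. -/
noncomputable def bb (n : Nat) : Nat := Nat.mul 140737488355328 (on 56 n)
noncomputable def bbM (n : Nat) : Nat := frc n bb

noncomputable def hstep (M MX MY sx sy P : Nat) (ih : Nat → Nat → Nat → Nat) (S G H : Nat) : Nat :=
  (fun S' => (fun G' => ih S' G' (Nat.add G' (Nat.shiftLeft (Nat.land H MY) sy)))
      (Nat.add S' (Nat.shiftLeft (Nat.land G MX) sx)))
    (cnd (Nat.beq P 0) S (Nat.land (Nat.add S P) M))

noncomputable def hgo (e M MX MY sx sy : Nat) (P : Nat → Nat) (m : Nat) : Nat → Nat → Nat → Nat :=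
  Nat.rec (motive := fun _ => Nat → Nat → Nat → Nat) (fun _ _ H => H)
    (fun t ih => hstep M MX MY sx sy (frc (Nat.sub e t) P) ih) m

noncomputable def hh (R n e k : Nat) (P : Nat → Nat) : Nat :=
  hgo e (mkM R n 0) (mkM R n k) (mkM R (Nat.sub n k) 0) (Nat.mul 56 k)
    (Nat.mul (Nat.mul 56 R) k) P (Nat.succ e) 0 0 0

noncomputable def ps1 (tab : Nat → Nat) (k4 cnt K0 : Nat) : Nat :=
  loop cnt fun j => frc (Nat.add K0 (Nat.mul k4 j)) tab

noncomputable def ps (tab : Nat → Nat) (k k4 ak ck dk S K s : Nat) : Nat :=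
  cnd (Nat.ble (Nat.mul k s) S)
    (loop (Nat.succ (mn s ck)) fun y =>
      frc (Nat.sub s y) fun s1 => frc (Nat.sub s1 ak) fun z0 =>
        ps1 tab k4 (Nat.sub (Nat.succ (mn s1 dk)) z0)
          (Nat.sub K (Nat.mul k
            (Nat.add (Nat.add (Nat.mul 64 y) z0) (Nat.mul 4096 (Nat.sub s1 z0)))))) 0

/-- The packed version of `HH`. -/
noncomputable def mulH (R n e k : Nat) (tab : Nat → Nat) (a c d : Nat) : Nat :=
  hh R n e k (ps tab k (Nat.mul 4095 k) (Nat.div a k) (Nat.div c k) (Nat.div d k)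
    (Nat.add (Nat.add a c) d) (Nat.add (Nat.add (Nat.mul 4096 a) (Nat.mul 64 c)) d))

noncomputable def srt (tp tn : Nat → Nat → Nat → Nat) (a c d : Nat) : Nat :=
  cnd (Nat.ble a c)
    (cnd (Nat.beq a c) 0
      (cnd (Nat.ble a d)
        (cnd (Nat.beq a d) 0
          (cnd (Nat.ble c d) (cnd (Nat.beq c d) 0 (tn d c a)) (tp c d a)))
        (tn c a d)))
    (cnd (Nat.ble c d)
      (cnd (Nat.beq c d) 0
        (cnd (Nat.ble a d) (cnd (Nat.beq a d) 0 (tp d a c)) (tn a d c)))
      (tp a c d))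

noncomputable def tabU (tp tn : Nat → Nat → Nat → Nat) (K : Nat) : Nat :=
  frc (Nat.shiftRight K 12) fun a => frc (Nat.land (Nat.shiftRight K 6) 63) fun c =>
    frc (Nat.land K 63) fun d => srt tp tn a c d

noncomputable def neg (R n X : Nat) : Nat :=
  Nat.sub (bbM (Nat.mul R n)) (Nat.land X (mkM R n 0))

/-- `∑_{j < n} f j * 2 ^ (w * (n - 1 - j))`. -/
noncomputable def hor (w n : Nat) (f : Nat → Nat) : Nat :=
  Nat.rec (motive := fun _ => Nat) 0 (fun j r => Nat.add (Nat.shiftLeft r w) (f j)) n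

noncomputable def vd (x p q a c d : Int) : Int :=
  Int.mul (Int.mul (Int.mul (Int.mul
    (Int.mul (Int.mul (Int.mul (Int.mul (Int.sub x p) (Int.sub x q)) (Int.sub x a)) (Int.sub x c))
      (Int.sub x d))
    (Int.mul (Int.mul (Int.mul (Int.sub p q) (Int.sub p a)) (Int.sub p c)) (Int.sub p d)))
    (Int.mul (Int.mul (Int.sub q a) (Int.sub q c)) (Int.sub q d)))
    (Int.mul (Int.sub a c) (Int.sub a d))) (Int.sub c d)

/-- Residue of the sign of a Vandermonde product. -/
noncomputable def sg47 (v : Int) : Nat :=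
  Int.rec (motive := fun _ => Nat) (fun n => cnd (Nat.beq n 0) 0 1) (fun _ => 140737488355327) v

noncomputable def a0 (p q a c d : Nat) : Nat :=
  frc (Nat.add (Nat.add (Nat.add (Nat.add p q) a) c) d) fun S =>
    cnd (Nat.ble S 15)
      (sg47 (vd (Int.ofNat (Nat.sub 15 S)) (Int.ofNat p) (Int.ofNat q) (Int.ofNat a) (Int.ofNat c)
        (Int.ofNat d))) 0

noncomputable def arr0 (R a c d : Nat) : Nat :=
  cnd (Nat.ble a 5)
    (hor (Nat.mul 56 R) 6 fun j => hor 56 6 fun i => a0 (Nat.sub 5 i) (Nat.sub 5 j) a c d) 0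

noncomputable def blk (lv : List Tr) (b K : Nat) : Nat :=
  cnd (Nat.ble (Nat.add (Nat.add (Nat.mul 2 (Nat.shiftRight K 12))
      (Nat.land (Nat.shiftRight K 6) 63)) (Nat.land K 63)) (Nat.add (Nat.mul 6 b) 14))
    ((nth (Tr.leaf 0) lv b).get K) 0

/-- Row number `i` of a block; the low byte of the block is its row length. -/
noncomputable def ex (B i : Nat) : Nat :=
  frc (Nat.land B 255) fun L =>
    Nat.land (Nat.shiftRight B (Nat.add (Nat.mul (Nat.mul 56 L) i) 8)) (m1 L)

noncomputable def tp4 (R : Nat) (bk : Nat → Nat) (n a c d : Nat) : Nat :=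
  (fun w K => Nat.add (Nat.add
    (Nat.add
      (Nat.sub (bbM (Nat.mul R d))
        ((fun K1 i => hor w d fun j => ex (frc (Nat.sub K1 j) bk) i)
          (Nat.sub (Nat.add (Nat.mul 4096 c) (Nat.mul 65 d)) 1) (Nat.sub a (Nat.succ c))))
      (Nat.shiftLeft
        ((fun K2 i => hor w (Nat.sub c (Nat.succ d)) fun j =>
            ex (frc (Nat.sub K2 (Nat.mul 64 j)) bk) i)
          (Nat.sub (Nat.add (Nat.mul 4160 c) d) 64) (Nat.sub a (Nat.succ c)))
        (Nat.mul w (Nat.succ d))))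
    (Nat.shiftLeft
      (Nat.sub (bbM (Nat.mul R (Nat.sub a (Nat.succ c))))
        (hor w (Nat.sub a (Nat.succ c)) fun j =>
          ex (frc (Nat.sub K (Nat.mul 4096 (Nat.succ j))) bk) j))
      (Nat.mul w (Nat.succ c))))
    (Nat.shiftLeft
      ((fun B m => hor w m fun j => ex B (Nat.sub m (Nat.succ j))) (frc K bk)
        (Nat.sub n (Nat.succ a)))
      (Nat.mul w (Nat.succ a))))
    (Nat.mul 56 R) (Nat.add (Nat.add (Nat.mul 4096 a) (Nat.mul 64 c)) d)

noncomputable def nn (nr : Nat → Nat → Nat → Nat) (b a c d : Nat) : Nat :=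
  mn (nr a c d) (Nat.sub (Nat.add (Nat.mul 6 b) 16) (Nat.add (Nat.add a c) d))

noncomputable def tpN (R : Nat) (nr : Nat → Nat → Nat → Nat) (lv : List Tr) (b a c d : Nat) : Nat :=
  cnd (Nat.beq b 0) (arr0 R a c d)
    (cnd (Nat.ble (Nat.add (Nat.add a c) d) (Nat.add (Nat.mul 6 b) 15))
      (tp4 R (blk lv b) (nn nr b a c d) a c d) 0)

noncomputable def tnN (R : Nat) (nr : Nat → Nat → Nat → Nat) (lv : List Tr) (b a c d : Nat) : Nat :=
  neg R (nn nr b a c d) (tpN R nr lv b a c d)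

noncomputable def tabN (R : Nat) (nr : Nat → Nat → Nat → Nat) (lv : List Tr) (b K : Nat) : Nat :=
  tabU (tpN R nr lv b) (tnN R nr lv b) K

noncomputable def hsum (R : Nat) (nr : Nat → Nat → Nat → Nat) (lv : List Tr) (b n a c d : Nat) :
    Nat :=
  loop b fun j => frc (Nat.sub b (Nat.succ j)) fun b' =>
    mulH R n 6 (Nat.succ j) (tabN R nr lv b') a c d

noncomputable def chkRow (b H r M : Nat) : Bool :=
  Nat.beq (Nat.land (Nat.mul b r) M) (Nat.land H M)

noncomputable def chkO (R : Nat) (nr : Nat → Nat → Nat → Nat) (ln : Nat → Nat → Nat → Nat → Nat)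
    (lv : List Tr) (b a c d : Nat) : Bool :=
  frc (nn nr b a c d) fun n =>
    (fun H B m => cnd (Nat.ble (Nat.land B 255) R)
        (cnd (Nat.beq (Nat.shiftRight B (Nat.add (Nat.mul (Nat.mul 56 (Nat.land B 255)) m) 8)) 0)
          (allB m fun i => frc (Nat.add (Nat.succ a) i) fun q =>
            chkRow b (Nat.shiftRight H (Nat.mul (Nat.mul 56 R) q)) (ex B i) (m1M (ln q a c d)))
          false) false)
      (hsum R nr lv b n a c d)
      (frc (Nat.add (Nat.add (Nat.mul 4096 a) (Nat.mul 64 c)) d) (blk lv b))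
      (Nat.sub n (Nat.succ a))

noncomputable def chkA (R cm : Nat) (nr : Nat → Nat → Nat → Nat) (ln : Nat → Nat → Nat → Nat → Nat)
    (lv : List Tr) (b lo n : Nat) : Bool :=
  allB n fun i => frc (Nat.add lo i) fun a => allB (mn a cm) fun c => allB c fun d =>
    cnd (Nat.ble (nr a c d) (Nat.succ a)) true (chkO R nr ln lv b a c d)

noncomputable def nr1 (a c d : Nat) : Nat :=
  mx (Nat.succ a) (Nat.div (Nat.sub 93 (Nat.add (Nat.add a c) d)) 3)
noncomputable def ln1 (q a c d : Nat) : Nat :=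
  Nat.div (Nat.sub 94 (Nat.add (Nat.add (Nat.add q a) c) d)) 2

noncomputable def nr2 (a c d : Nat) : Nat :=
  mx (Nat.succ a) (Nat.div (Nat.sub 159 (Nat.add (Nat.add a c) d)) 3)
noncomputable def ln2 (q a c d : Nat) : Nat :=
  Nat.div (Nat.sub 160 (Nat.add (Nat.add (Nat.add q a) c) d)) 2

noncomputable def nr3 (_ _ d : Nat) : Nat := cnd (Nat.ble d 1) 8 2

end Vale.Agent.P181.K
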