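import Vale.Agent.P181.S.Eng2

/-! Grouping several checks into one kernel computation. -/

namespace Vale.Agent.P181.K

noncomputable def chkB (R cm : Nat) (nr : Nat → Nat → Nat → Nat) (ln : Nat → Nat → Nat → Nat → Nat)
    (lv : List Tr) (b0 nb lo n : Nat) : Bool :=
  allB nb fun i => frc (Nat.add b0 i) fun b => chkA R cm nr ln lv b lo n

noncomputable def covB (V : Nat → Nat) (zT zN : List Nat) (cts : List Tc) (lo n : Nat) : Bool :=
  allB n fun i => frc (Nat.add lo i) fun a => covA V zT zN (nth (Tc.leaf [] []) cts i) a 0 a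

noncomputable def exB (V : Nat → Nat) (zT zN : List Nat) (cts : List Tc) (lo n : Nat) : Bool :=
  allB n fun i => frc (Nat.shiftRight (Nat.add lo i) 2) fun b =>
    frc (Nat.land (Nat.add lo i) 3) fun z =>
      cnd (Nat.beq z 0) true (exA V zT zN (nth (Tc.leaf [] []) cts i) b z)

end Vale.Agent.P181.K
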