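import Vale.Agent.P181.S.Cov

/-! Exact multiplicities in `h_6[h_b]` on the small zone, and the final assembly.

PLAN.  Let W n p q a c d := q < n and Sc a c d := a ≤ 15 ∧ c ≤ 15 ∧ d ≤ 15.  `HH_smul`: HH is linear in F.
`gs_rep`: if for k < j the table tb k represents (j-1-k)! * cP (j-1-k) b on all keys with entries ≤ 15
and cf k * (j-1-k)! = (j-1)!, ∑ cf k < 512, then gs represents j! * cP j b (`mulH_rep` with
(min b c + 1) (min b d + 1) ≤ 256, `Rp.mask`, `Rp.smul`, `Rp.sum`, `cP_rec`).  `tg_rep`: `tabU_rep`,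
`Rp.neg`, `cP_swap2/3`.  Chain t0 (`arr0_rep`, `cP_zero`), g1, t1, …, g6.  The last mask also shows that
all lanes of g6 are below 2^47 and vanish from row n on (`dg_land`, `dg_mkM`).
`exO_spec`: define U r p as the lane (p, a+1+r) of g6; KB holds by `dg_shr`, `dg_sub`, `dg_rwM`.  On a Valid
lane 0 ≤ 720 * cP 6 b ≤ UU < 2^47 (`h.nonnegM`, `up_stable`, `mM_lam`; Valid b → Valid 24), so the lane
equals 720 * cP 6 b.  Then `dg_ndM`, `sub55_spec`, `orL_spec`, `good_spec` (with X = 0 for the initial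
value, `cP_nonneg`), `tv_tb`.
`final`: for l antitone with ∑ l ≠ 6 b both sides are 0 (`mult_pl_eq_zero`); otherwise `valid_of_anti`.
If ez ≤ q use CovOK.  Otherwise ez ≠ 0, so z = zc .. is 1, 2 or 3 (zc < 4, and zc = 0 gives ez = 0), a ≤ 15,
and `exA` gives `exO`. -/

namespace Vale.Agent.P181

open K Finset

theorem ex_HH_smul (e k : ℕ) (s : ℤ) (F : ℕ → ℕ → ℕ → ℕ → ℕ → ℤ) (p q a c d : ℕ) :
    HH e k (fun p q a c d => s * F p q a c d) p q a c d = s * HH e k F p q a c d := by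
  simp only [HH, PP, Finset.mul_sum, mul_ite, mul_zero]

/-- The array represents `j!` times the coefficients of `h_j[h_b]`. -/
def ExRp (b n j X a c d : ℕ) : Prop :=
  Rp 78 (2 ^ 47) 1 (fun _ q => q < n) X fun p q => (j.factorial : ℤ) * cP j b p q a c d

/-- The same for a table. -/
def ExTab (b n j : ℕ) (tb : ℕ → ℕ) : Prop :=
  ∀ a c d, a ≤ 15 → c ≤ 15 → d ≤ 15 → ExRp b n j (tb (4096 * a + 64 * c + d)) a c d

theorem ex_gs_eq (b n j : ℕ) (cf : List ℕ) (tb : List (ℕ → ℕ)) (a c d : ℕ) :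
    gs b n j cf tb a c d = (∑ k ∈ range j, cf.getD k 0 *
      (mulH 78 n b (k + 1) (tb.getD k fun _ => 0) a c d &&& mkM 78 n 0)) &&& mkM 78 n 0 := by
  unfold gs
  simp only [loop_eq, nth_eq]
  rfl

theorem ex_gs {b n j : ℕ} {cf : List ℕ} {tb : List (ℕ → ℕ)}
    (ht : ∀ k < j + 1, ExTab b n (j - k) (tb.getD k fun _ => 0))
    (hcf : ∀ k < j + 1, cf.getD k 0 * (j - k).factorial = j.factorial)
    (hs : ∑ k ∈ range (j + 1), cf.getD k 0 * 1 < 512) {a c d : ℕ} (ha : a ≤ 15) (hc : c ≤ 15)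
    (hd : d ≤ 15) : ExRp b n (j + 1) (gs b n (j + 1) cf tb a c d) a c d := by
  have h1 : ∀ k < j + 1, Rp 78 (2 ^ 47) (cf.getD k 0 * 1) (fun _ q => q < n)
      (cf.getD k 0 * (mulH 78 n b (k + 1) (tb.getD k fun _ => 0) a c d &&& mkM 78 n 0))
      fun p q => (j.factorial : ℤ) * HH b (k + 1) (cP (j - k) b) p q a c d := fun k hk => by
    have h2 := mulH_rep (R := 78) (n := n) (m := 2 ^ 47) (V := fun _ q => q < n) (e := b)
      (F := fun p q a c d => ((j - k).factorial : ℤ) * cP (j - k) b p q a c d)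
      (by omega) dvd_rfl (fun _ _ _ _ _ hq h => lt_of_le_of_lt hq h) (fun _ _ h => h)
      (Nat.succ_pos k) (fun a' ha' c' hc' d' hd' =>
        ht k hk a' c' d' (ha'.trans ha) (hc'.trans hc) (hd'.trans hd)) (by
        have k1 : min b c + 1 ≤ 16 := by omega
        have k2 : min b d + 1 ≤ 16 := by omega
        exact (Nat.mul_le_mul k1 k2).trans (by norm_num))
    have h3 := (h2.mask (n := n) (by omega) dvd_rfl fun _ _ h => Or.inl h).smul (cf.getD k 0)
      (lt_of_le_of_lt (Finset.single_le_sum (f := fun k => cf.getD k 0 * 1)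
        (fun _ _ => Nat.zero_le _) (Finset.mem_range.2 hk)) hs)
    refine h3.mono dvd_rfl le_rfl fun p q _ h => ⟨h, ?_⟩
    rw [ex_HH_smul, ← mul_assoc, ← Nat.cast_mul, hcf k hk]
  rw [ex_gs_eq]
  refine ((Rp.sum h1 hs).mask (n := n) (by omega) dvd_rfl fun _ _ h => Or.inl h).mono dvd_rfl
    le_rfl fun p q _ h => ⟨h, ?_⟩
  have h4 := cP_rec (j + 1) b p q a c d
  simp only [Nat.add_sub_cancel] at h4
  rw [← Finset.mul_sum, ← h4, Nat.factorial_succ, Nat.cast_mul]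
  ring

theorem ex_tg {b n j : ℕ} {g : ℕ → ℕ → ℕ → ℕ}
    (hg : ∀ a c d, d < c → c < a → a ≤ 15 → ExRp b n j (g a c d) a c d) :
    ExTab b n j (tg n g) := fun a c d ha hc hd =>
  tabU_rep (W := fun _ q _ _ _ => q < n)
    (F := fun p q a c d => (j.factorial : ℤ) * cP j b p q a c d)
    (Sc := fun a c d => a ≤ 15 ∧ c ≤ 15 ∧ d ≤ 15)
    (fun p q a c d => by rw [cP_swap2, mul_neg]) (fun p q a c d => by rw [cP_swap3, mul_neg])
    (fun _ _ _ _ _ h => h) (fun _ _ _ _ _ h => h) (fun _ _ _ h => ⟨h.2.1, h.1, h.2.2⟩)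
    (fun _ _ _ h => ⟨h.1, h.2.2, h.2.1⟩) (fun a c d h1 h2 h => hg a c d h1 h2 h.1)
    (fun a c d h1 h2 h => Rp.neg (by omega) dvd_rfl (hg a c d h1 h2 h.1) fun _ _ h => Or.inl h)
    (by omega) (by omega) ⟨ha, hc, hd⟩

theorem ex_t0 (b n : ℕ) : ExTab b n 0 (t0 n) :=
  ex_tg fun a c d h1 h2 _ => (arr0_rep (by omega) h1 h2 _).mono dvd_rfl le_rfl fun p q _ h =>
    ⟨h, by rw [cP_zero, Nat.factorial_zero, Nat.cast_one, one_mul]⟩

theorem ex_t1 (b n : ℕ) : ExTab b n 1 (t1 b n) :=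
  ex_tg fun a c d h1 h2 h3 => ex_gs (j := 0) (fun k hk => by
    interval_cases k
    exact ex_t0 b n) (by decide) (by decide) h3 (by omega) (by omega)

theorem ex_t2 (b n : ℕ) : ExTab b n 2 (t2 b n) :=
  ex_tg fun a c d h1 h2 h3 => ex_gs (j := 1) (fun k hk => by
    interval_cases k
    exacts [ex_t1 b n, ex_t0 b n]) (by decide) (by decide) h3 (by omega) (by omega)

theorem ex_t3 (b n : ℕ) : ExTab b n 3 (t3 b n) :=
  ex_tg fun a c d h1 h2 h3 => ex_gs (j := 2) (fun k hk => by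
    interval_cases k
    exacts [ex_t2 b n, ex_t1 b n, ex_t0 b n]) (by decide) (by decide) h3 (by omega) (by omega)

theorem ex_t4 (b n : ℕ) : ExTab b n 4 (t4 b n) :=
  ex_tg fun a c d h1 h2 h3 => ex_gs (j := 3) (fun k hk => by
    interval_cases k
    exacts [ex_t3 b n, ex_t2 b n, ex_t1 b n, ex_t0 b n]) (by decide) (by decide) h3 (by omega)
    (by omega)

theorem ex_t5 (b n : ℕ) : ExTab b n 5 (t5 b n) :=
  ex_tg fun a c d h1 h2 h3 => ex_gs (j := 4) (fun k hk => by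
    interval_cases k
    exacts [ex_t4 b n, ex_t3 b n, ex_t2 b n, ex_t1 b n, ex_t0 b n]) (by decide) (by decide) h3
    (by omega) (by omega)

theorem g6_rep (b n : ℕ) {a c d : ℕ} (ha : a ≤ 15) (hc : c ≤ 15) (hd : d ≤ 15) :
    Rp 78 (2 ^ 47) 1 (fun _ q => q < n) (g6 b n a c d) (fun p q => 720 * cP 6 b p q a c d) ∧
      ∀ i, dg 56 (g6 b n a c d) i ≤ if i < 78 * n then 2 ^ 47 - 1 else 0 := by
  refine ⟨ex_gs (j := 5) (fun k hk => by
    interval_cases k
    exacts [ex_t5 b n, ex_t4 b n, ex_t3 b n, ex_t2 b n, ex_t1 b n, ex_t0 b n]) (by decide)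
    (by decide) ha hc hd, fun i => ?_⟩
  have hp : i % 78 < 78 := Nat.mod_lt _ (by omega)
  rw [g6, ex_gs_eq]
  generalize (∑ k ∈ range 6, _ : ℕ) = X
  have h := dg_and_mkM hp X n 0 (i / 78)
  rw [Nat.div_add_mod] at h
  rw [h]
  have h2 : dg 56 X i % 2 ^ 47 < 2 ^ 47 := Nat.mod_lt _ (by omega)
  split_ifs <;> omega

variable {V : ℕ → ℕ} {zT zN : List ℕ}

theorem exO_spec (h : RepFacts) (hV : VOK V) {tr : List ℕ} {b n a c d p q : ℕ} (hb : b ≤ 24)
    (ha : a ≤ 15) (hk : exO V tr b n a c d = true) (hv : Valid b p q a c d) (hq : q < n)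
    (hU : UU p q a c d < 2 ^ 47) : cP 6 b p q a c d ≤ cP b 6 p q a c d := by
  obtain ⟨v1, v2, v3, v4, v5⟩ := id hv
  obtain ⟨r, rfl⟩ : ∃ r, q = a + 1 + r := ⟨q - (a + 1), by omega⟩
  obtain ⟨g1, g2⟩ := g6_rep b n ha (c := c) (d := d) (by omega) (by omega)
  have hp : p < 78 := by omega
  have e : exO V tr b n a c d = sub55 (ndM a (6 * b + 15 - (a + c + d))
      (min (n - (a + 1)) ((6 * b + 15 - (a + c + d)) / 3 - (a + 1))))
      (orL (fun x => tv V b a c d x +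
        (2 ^ 55 * rwM (n - (a + 1)) - g6 b n a c d >>> (56 * (78 * (a + 1))))) tr
        (2 ^ 55 * rwM (n - (a + 1)) - g6 b n a c d >>> (56 * (78 * (a + 1))))) := by
    unfold exO
    simp only [frc_eq, mn_eq, ← mul_assoc]
    rfl
  rw [e] at hk
  generalize g6 b n a c d = G at hk g1 g2
  have h1 : ∀ i, dg 56 (2 ^ 55 * rwM (n - (a + 1))) i =
      if i < 78 * (n - (a + 1)) then 2 ^ 55 else 0 := dg_rwM (by omega) _
  have h2 := dg_sub (w := 56) (x := 2 ^ 55 * rwM (n - (a + 1)))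
    (y := G >>> (56 * (78 * (a + 1)))) (by omega) fun i => by
      have k := g2 (i + 78 * (a + 1))
      rw [h1, dg_shr]
      split_ifs at k ⊢ <;> omega
  have hK : KB (2 ^ 55 * rwM (n - (a + 1)) - G >>> (56 * (78 * (a + 1)))) (n - (a + 1))
      fun r p => (dg 56 G (78 * (a + 1 + r) + p) : ℕ) := by
    refine ⟨fun i => ?_, fun r hr p hp => ?_⟩
    · rw [h2, h1]
      split_ifs <;> omega
    · have k := g2 (78 * (a + 1 + r) + p)
      rw [h2, h1, dg_shr, if_pos (by omega),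
        show 78 * r + p + 78 * (a + 1) = 78 * (a + 1 + r) + p by omega]
      beta_reduce
      split_ifs at k <;> omega
  have h3 := orL_spec (sub55_spec (i := 78 * r + p) hk (by
    rw [dg_ndM (by omega) (by omega) hp, if_pos (by omega)]))
  have h4 : ((dg 56 G (78 * (a + 1 + r) + p) : ℕ) : ℤ) ≤ 720 * cP b 6 p (a + 1 + r) a c d := by
    rcases h3 with h3 | ⟨x, h3⟩
    · have k1 := good_spec (X := 0) (r := r) (fun i => by rw [dg_zero]; omega) hK (by omega) hp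
        (by rw [zero_add]; exact h3)
      have k2 := cP_nonneg h hv
      rw [dg_zero] at k1
      omega
    · have k1 := tv_tb h hV hb (c := c) (d := d) (by omega) (by omega) a x
      exact (good_spec k1.1 hK (by omega) hp h3).trans (k1.2 b le_rfl r p hp hv)
  have h5 := h.nonnegM b _ (lam_anti hv)
  have h6 := up_stable h b _ (lam_anti hv) (lam_sum hv)
  have h7 : UU (lam b p (a + 1 + r) a c d 1 + 4) (lam b p (a + 1 + r) a c d 2 + 3)
      (lam b p (a + 1 + r) a c d 3 + 2) (lam b p (a + 1 + r) a c d 4 + 1)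
      (lam b p (a + 1 + r) a c d 5) = UU p (a + 1 + r) a c d := by
    change UU (p - 4 + 4) (a + 1 + r - 3 + 3) (a - 2 + 2) (c - 1 + 1) d = _
    rw [Nat.sub_add_cancel (by omega), Nat.sub_add_cancel (by omega),
      Nat.sub_add_cancel (by omega), Nat.sub_add_cancel (by omega)]
  rw [h7] at h6
  rw [mM_lam hv] at h5 h6
  have h8 : ((dg 56 G (78 * (a + 1 + r) + p) : ℕ) : ℤ) % 2 ^ 47 =
      720 * cP 6 b p (a + 1 + r) a c d % 2 ^ 47 := g1.2 p (a + 1 + r) hp hq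
  rw [Int.emod_eq_of_lt (b := 2 ^ 47) (a := 720 * _) (by omega) (by omega)] at h8
  omega

theorem final (h : RepFacts) (hV : VOK V)
    (hc : ∀ a c d, d < c → c < a → a ≤ 38 → CovOK zT zN a c d)
    (h0 : ∀ b ≤ 24, nth 0 zN (4 * b) = 0)
    (he : ∀ b, 7 ≤ b → b ≤ 24 → ∀ z, 1 ≤ z → z ≤ 3 → ∃ ct, exA V zT zN ct b z = true) :
    FiniteCheck := by
  intro b l hb7 hb hl
  by_cases hs : ∑ i, l i = 6 * b
  swap
  · rw [mM, mN, mult_pl_eq_zero 6 b l hs, mult_pl_eq_zero b 6 l (by rwa [mul_comm])]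
  obtain ⟨hv, e⟩ := valid_of_anti hl hs
  rw [← e, mM_lam hv, mN_lam hv]
  generalize l 1 + 4 = p, l 2 + 3 = q, l 3 + 2 = a, l 4 + 1 = c, l 5 = d at hv
  obtain ⟨v1, v2, v3, v4, v5⟩ := id hv
  obtain ⟨c1, c2⟩ := hc a c d v1 v2 (by omega)
  by_cases hq : ez zT zN b a c d ≤ q
  · exact c2 b hb7 hb p q hv hq
  have e1 : ez zT zN b a c d = nth 0 zN (4 * b + zc zT b a c d) := frc_eq _ _
  have z0 : zc zT b a c d ≠ 0 := fun k => hq (by rw [e1, k, add_zero, h0 b hb]; omega)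
  have z1 : a ≤ 15 ∧ zc zT b a c d ≤ 3 := by
    rw [zc, cnd_eq] at z0 ⊢
    split_ifs at z0 ⊢ with k
    · exact ⟨Nat.le_of_ble_eq_true k, Nat.and_le_right⟩
    · exact absurd rfl z0
  obtain ⟨ct, hct⟩ := he b hb7 hb _ (by omega) z1.2
  unfold exA at hct
  simp only [frc_eq, allB_iff, cnd_eq, Nat.beq_eq] at hct
  have k := hct a (by omega) c v2 d v1
  rw [if_pos rfl] at k
  obtain ⟨tr, -, k⟩ := Tc.get_spec k
  exact exO_spec h hV hb z1.1 k hv (by rw [e1] at hq; exact not_le.1 hq)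
    (c1 z1.1 p q ⟨v1, v2, v3, v4, by omega⟩)

end Vale.Agent.P181
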