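import Vale.Agent.P181.S.Ex
import Vale.Agent.P181.C.A0
import Vale.Agent.P181.C.A1
import Vale.Agent.P181.C.A2
import Vale.Agent.P181.C.A3
import Vale.Agent.P181.C.A4
import Vale.Agent.P181.C.A5
import Vale.Agent.P181.C.A6
import Vale.Agent.P181.C.A7
import Vale.Agent.P181.C.A8
import Vale.Agent.P181.C.A9
import Vale.Agent.P181.C.A10
import Vale.Agent.P181.C.A11
import Vale.Agent.P181.C.A12
import Vale.Agent.P181.C.A13
import Vale.Agent.P181.C.A14
import Vale.Agent.P181.C.A15
import Vale.Agent.P181.C.A16
import Vale.Agent.P181.C.A17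
import Vale.Agent.P181.C.A18
import Vale.Agent.P181.C.A19
import Vale.Agent.P181.C.A20
import Vale.Agent.P181.C.A21
import Vale.Agent.P181.C.A22
import Vale.Agent.P181.C.A23
import Vale.Agent.P181.C.A24
import Vale.Agent.P181.C.A25
import Vale.Agent.P181.C.A26
import Vale.Agent.P181.C.A27
import Vale.Agent.P181.C.A28
import Vale.Agent.P181.C.A29
import Vale.Agent.P181.C.A30
import Vale.Agent.P181.C.A31
import Vale.Agent.P181.C.A32
import Vale.Agent.P181.C.A33
import Vale.Agent.P181.C.B0
import Vale.Agent.P181.C.B1
import Vale.Agent.P181.C.B2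
import Vale.Agent.P181.C.B3
import Vale.Agent.P181.C.B4
import Vale.Agent.P181.C.B5
import Vale.Agent.P181.C.B6
import Vale.Agent.P181.C.B7
import Vale.Agent.P181.C.B8
import Vale.Agent.P181.C.Z0
import Vale.Agent.P181.C.U0
import Vale.Agent.P181.C.U1
import Vale.Agent.P181.C.U2
import Vale.Agent.P181.C.U3
import Vale.Agent.P181.C.U4
import Vale.Agent.P181.C.U5
import Vale.Agent.P181.C.U6
import Vale.Agent.P181.C.U7
import Vale.Agent.P181.C.U8
import Vale.Agent.P181.C.U9
import Vale.Agent.P181.C.U10
import Vale.Agent.P181.C.U11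
import Vale.Agent.P181.C.U12
import Vale.Agent.P181.C.U13
import Vale.Agent.P181.C.U14
import Vale.Agent.P181.C.U15
import Vale.Agent.P181.C.U16
import Vale.Agent.P181.C.U17
import Vale.Agent.P181.C.U18
import Vale.Agent.P181.C.U19
import Vale.Agent.P181.C.U20
import Vale.Agent.P181.C.U21
import Vale.Agent.P181.C.U22
import Vale.Agent.P181.C.E0
import Vale.Agent.P181.C.E1
import Vale.Agent.P181.C.E2
import Vale.Agent.P181.C.E3
import Vale.Agent.P181.C.E4
import Vale.Agent.P181.C.E5
import Vale.Agent.P181.C.E6
import Vale.Agent.P181.C.E7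
import Vale.Agent.P181.C.E8
import Vale.Agent.P181.C.E9
import Vale.Agent.P181.C.E10
import Vale.Agent.P181.C.E11
import Vale.Agent.P181.C.E12
import Vale.Agent.P181.C.E13
import Vale.Agent.P181.C.E14
import Vale.Agent.P181.C.E15
import Vale.Agent.P181.C.E16
import Vale.Agent.P181.C.E17
import Vale.Agent.P181.C.E18
import Vale.Agent.P181.C.E19
import Vale.Agent.P181.C.E20

/-! The finite check: `7 ≤ b ≤ 24`, six variables. -/

namespace Vale.Agent.P181

open K

theorem chkB_spec {R cm : ℕ} {nr : ℕ → ℕ → ℕ → ℕ} {ln : ℕ → ℕ → ℕ → ℕ → ℕ} {lv : List Tr}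
    {b0 nb lo n b a : ℕ} (h : chkB R cm nr ln lv b0 nb lo n = true) (h1 : b0 ≤ b)
    (h2 : b < b0 + nb) (h3 : lo ≤ a) (h4 : a < lo + n) : chkA R cm nr ln lv b a 1 = true := by
  have h5 := (allB_iff _ _).1 h (b - b0) (by omega)
  rw [frc_eq, Nat.add_eq, Nat.add_sub_cancel' h1] at h5
  exact chkA_split h5 h3 h4

theorem covB_spec {V : ℕ → ℕ} {zT zN : List ℕ} {cts : List Tc} {lo n a : ℕ}
    (h : covB V zT zN cts lo n = true) (h1 : lo ≤ a) (h2 : a < lo + n) :
    ∃ ct, covA V zT zN ct a 0 a = true := by
  have h5 := (allB_iff _ _).1 h (a - lo) (by omega)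
  rw [frc_eq, Nat.add_eq, Nat.add_sub_cancel' h1] at h5
  exact ⟨_, h5⟩

theorem exB_spec {V : ℕ → ℕ} {zT zN : List ℕ} {cts : List Tc} {lo n b z : ℕ}
    (h : exB V zT zN cts lo n = true) (h1 : lo ≤ 4 * b + z) (h2 : 4 * b + z < lo + n)
    (h3 : 1 ≤ z) (h4 : z ≤ 3) : ∃ ct, exA V zT zN ct b z = true := by
  have h5 := (allB_iff _ _).1 h (4 * b + z - lo) (by omega)
  have e1 : Nat.shiftRight (4 * b + z) 2 = b := by
    rw [Nat.shiftRight_eq, Nat.shiftRight_eq_div_pow]
    omega
  have e2 : Nat.land (4 * b + z) 3 = z := by
    have h6 : (4 * b + z) &&& 3 = (4 * b + z) % 4 := Nat.and_two_pow_sub_one_eq_mod (4 * b + z) 2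
    rw [Nat.land_eq, h6]
    omega
  rw [frc_eq, frc_eq, Nat.add_eq, Nat.add_sub_cancel' h1, e1, e2, cnd_eq, if_neg] at h5
  · exact ⟨_, h5⟩
  · rw [Nat.beq_eq]
    omega

theorem all1 (b : ℕ) (h0 : b ≠ 0) (h1 : b ≤ 13) (a : ℕ) (h2 : a < 22) :
    chkA 44 64 nr1 ln1 lv1 b a 1 = true :=
  if _ : a < 7 then
    (chkB_spec ckA0 (by omega) (by omega) (by omega) (by omega))
  else if _ : a < 8 then
    (chkB_spec ckA1 (by omega) (by omega) (by omega) (by omega))
  else if _ : a < 9 then
    (chkB_spec ckA2 (by omega) (by omega) (by omega) (by omega))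
  else if _ : a < 10 then
    (chkB_spec ckA3 (by omega) (by omega) (by omega) (by omega))
  else if _ : a < 11 then
    (if _ : b < 10 then
      chkB_spec ckA4 (by omega) (by omega) (by omega) (by omega)
    else 
      chkB_spec ckA5 (by omega) (by omega) (by omega) (by omega))
  else if _ : a < 12 then
    (if _ : b < 10 then
      chkB_spec ckA6 (by omega) (by omega) (by omega) (by omega)
    else 
      chkB_spec ckA7 (by omega) (by omega) (by omega) (by omega))
  else if _ : a < 13 then
    (if _ : b < 11 then
      chkB_spec ckA8 (by omega) (by omega) (by omega) (by omega)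
    else 
      chkB_spec ckA9 (by omega) (by omega) (by omega) (by omega))
  else if _ : a < 14 then
    (if _ : b < 9 then
      chkB_spec ckA10 (by omega) (by omega) (by omega) (by omega)
    else if _ : b < 12 then
      chkB_spec ckA11 (by omega) (by omega) (by omega) (by omega)
    else 
      chkB_spec ckA12 (by omega) (by omega) (by omega) (by omega))
  else if _ : a < 15 then
    (if _ : b < 9 then
      chkB_spec ckA13 (by omega) (by omega) (by omega) (by omega)
    else if _ : b < 12 then
      chkB_spec ckA14 (by omega) (by omega) (by omega) (by omega)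
    else 
      chkB_spec ckA15 (by omega) (by omega) (by omega) (by omega))
  else if _ : a < 16 then
    (if _ : b < 9 then
      chkB_spec ckA16 (by omega) (by omega) (by omega) (by omega)
    else if _ : b < 11 then
      chkB_spec ckA17 (by omega) (by omega) (by omega) (by omega)
    else if _ : b < 13 then
      chkB_spec ckA18 (by omega) (by omega) (by omega) (by omega)
    else 
      chkB_spec ckA19 (by omega) (by omega) (by omega) (by omega))
  else if _ : a < 17 then
    (if _ : b < 9 then
      chkB_spec ckA20 (by omega) (by omega) (by omega) (by omega)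
    else if _ : b < 11 then
      chkB_spec ckA21 (by omega) (by omega) (by omega) (by omega)
    else if _ : b < 13 then
      chkB_spec ckA22 (by omega) (by omega) (by omega) (by omega)
    else 
      chkB_spec ckA23 (by omega) (by omega) (by omega) (by omega))
  else if _ : a < 18 then
    (if _ : b < 9 then
      chkB_spec ckA24 (by omega) (by omega) (by omega) (by omega)
    else if _ : b < 11 then
      chkB_spec ckA25 (by omega) (by omega) (by omega) (by omega)
    else if _ : b < 13 then
      chkB_spec ckA26 (by omega) (by omega) (by omega) (by omega)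
    else 
      chkB_spec ckA27 (by omega) (by omega) (by omega) (by omega))
  else if _ : a < 19 then
    (if _ : b < 10 then
      chkB_spec ckA28 (by omega) (by omega) (by omega) (by omega)
    else if _ : b < 12 then
      chkB_spec ckA29 (by omega) (by omega) (by omega) (by omega)
    else 
      chkB_spec ckA30 (by omega) (by omega) (by omega) (by omega))
  else if _ : a < 20 then
    (if _ : b < 11 then
      chkB_spec ckA31 (by omega) (by omega) (by omega) (by omega)
    else 
      chkB_spec ckA32 (by omega) (by omega) (by omega) (by omega))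
  else 
    (chkB_spec ckA33 (by omega) (by omega) (by omega) (by omega))

theorem all2 (b : ℕ) (h0 : b ≠ 0) (h1 : b ≤ 24) (a : ℕ) (h2 : a < 39) :
    chkA 78 2 nr2 ln2 lv2 b a 1 = true :=
  if _ : b < 11 then
    (chkB_spec ckB0 (by omega) (by omega) (by omega) (by omega))
  else if _ : b < 14 then
    (chkB_spec ckB1 (by omega) (by omega) (by omega) (by omega))
  else if _ : b < 16 then
    (chkB_spec ckB2 (by omega) (by omega) (by omega) (by omega))
  else if _ : b < 18 then
    (chkB_spec ckB3 (by omega) (by omega) (by omega) (by omega))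
  else if _ : b < 20 then
    (chkB_spec ckB4 (by omega) (by omega) (by omega) (by omega))
  else if _ : b < 23 then
    (if _ : a < 12 then
      chkB_spec ckB5 (by omega) (by omega) (by omega) (by omega)
    else 
      chkB_spec ckB6 (by omega) (by omega) (by omega) (by omega))
  else 
    (if _ : a < 14 then
      chkB_spec ckB7 (by omega) (by omega) (by omega) (by omega)
    else 
      chkB_spec ckB8 (by omega) (by omega) (by omega) (by omega))

theorem all3 (b : ℕ) (h0 : b ≠ 0) (h1 : b ≤ 24) (a : ℕ) (h2 : a < 5) :
    chkA 78 64 nr3 ln2 lv3 b a 1 = true :=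
  chkB_spec ckZ0 (by omega) (by omega) (by omega) (by omega)

theorem allU (a : ℕ) (h1 : 2 ≤ a) (h2 : a ≤ 38) : ∃ ct, covA VV zT zN ct a 0 a = true :=
  if _ : a < 8 then
    covB_spec ckU0 (by omega) (by omega)
  else if _ : a < 10 then
    covB_spec ckU1 (by omega) (by omega)
  else if _ : a < 11 then
    covB_spec ckU2 (by omega) (by omega)
  else if _ : a < 12 then
    covB_spec ckU3 (by omega) (by omega)
  else if _ : a < 13 then
    covB_spec ckU4 (by omega) (by omega)
  else if _ : a < 14 then
    covB_spec ckU5 (by omega) (by omega)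
  else if _ : a < 15 then
    covB_spec ckU6 (by omega) (by omega)
  else if _ : a < 16 then
    covB_spec ckU7 (by omega) (by omega)
  else if _ : a < 17 then
    covB_spec ckU8 (by omega) (by omega)
  else if _ : a < 18 then
    covB_spec ckU9 (by omega) (by omega)
  else if _ : a < 19 then
    covB_spec ckU10 (by omega) (by omega)
  else if _ : a < 20 then
    covB_spec ckU11 (by omega) (by omega)
  else if _ : a < 21 then
    covB_spec ckU12 (by omega) (by omega)
  else if _ : a < 22 then
    covB_spec ckU13 (by omega) (by omega)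
  else if _ : a < 23 then
    covB_spec ckU14 (by omega) (by omega)
  else if _ : a < 24 then
    covB_spec ckU15 (by omega) (by omega)
  else if _ : a < 25 then
    covB_spec ckU16 (by omega) (by omega)
  else if _ : a < 26 then
    covB_spec ckU17 (by omega) (by omega)
  else if _ : a < 27 then
    covB_spec ckU18 (by omega) (by omega)
  else if _ : a < 28 then
    covB_spec ckU19 (by omega) (by omega)
  else if _ : a < 30 then
    covB_spec ckU20 (by omega) (by omega)
  else if _ : a < 32 then
    covB_spec ckU21 (by omega) (by omega)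
  else 
    covB_spec ckU22 (by omega) (by omega)

theorem allE (b : ℕ) (h1 : 7 ≤ b) (h2 : b ≤ 24) (z : ℕ) (h3 : 1 ≤ z) (h4 : z ≤ 3) :
    ∃ ct, exA VV zT zN ct b z = true :=
  if _ : 4 * b + z < 30 then
    exB_spec ckE0 (by omega) (by omega) (by omega) (by omega)
  else if _ : 4 * b + z < 36 then
    exB_spec ckE1 (by omega) (by omega) (by omega) (by omega)
  else if _ : 4 * b + z < 48 then
    exB_spec ckE2 (by omega) (by omega) (by omega) (by omega)
  else if _ : 4 * b + z < 56 then
    exB_spec ckE3 (by omega) (by omega) (by omega) (by omega)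
  else if _ : 4 * b + z < 60 then
    exB_spec ckE4 (by omega) (by omega) (by omega) (by omega)
  else if _ : 4 * b + z < 68 then
    exB_spec ckE5 (by omega) (by omega) (by omega) (by omega)
  else if _ : 4 * b + z < 72 then
    exB_spec ckE6 (by omega) (by omega) (by omega) (by omega)
  else if _ : 4 * b + z < 76 then
    exB_spec ckE7 (by omega) (by omega) (by omega) (by omega)
  else if _ : 4 * b + z < 80 then
    exB_spec ckE8 (by omega) (by omega) (by omega) (by omega)
  else if _ : 4 * b + z < 82 then
    exB_spec ckE9 (by omega) (by omega) (by omega) (by omega)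
  else if _ : 4 * b + z < 84 then
    exB_spec ckE10 (by omega) (by omega) (by omega) (by omega)
  else if _ : 4 * b + z < 86 then
    exB_spec ckE11 (by omega) (by omega) (by omega) (by omega)
  else if _ : 4 * b + z < 88 then
    exB_spec ckE12 (by omega) (by omega) (by omega) (by omega)
  else if _ : 4 * b + z < 90 then
    exB_spec ckE13 (by omega) (by omega) (by omega) (by omega)
  else if _ : 4 * b + z < 92 then
    exB_spec ckE14 (by omega) (by omega) (by omega) (by omega)
  else if _ : 4 * b + z < 94 then
    exB_spec ckE15 (by omega) (by omega) (by omega) (by omega)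
  else if _ : 4 * b + z < 95 then
    exB_spec ckE16 (by omega) (by omega) (by omega) (by omega)
  else if _ : 4 * b + z < 96 then
    exB_spec ckE17 (by omega) (by omega) (by omega) (by omega)
  else if _ : 4 * b + z < 98 then
    exB_spec ckE18 (by omega) (by omega) (by omega) (by omega)
  else if _ : 4 * b + z < 99 then
    exB_spec ckE19 (by omega) (by omega) (by omega) (by omega)
  else 
    exB_spec ckE20 (by omega) (by omega) (by omega) (by omega)

theorem zN_zero : allB 25 (fun b => Nat.beq (nth 0 zN (4 * b)) 0) = true := by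
  decide +kernel

theorem finiteCheck (h : RepFacts) : FiniteCheck := by
  have hV : VOK VV := vv_ok h (lev_all zone1 (by omega) all1) (lev_all zone2 (by omega) all2)
    (lev_all zone3 (by omega) all3)
  refine final h hV (fun a c d hd hc ha => ?_) (fun b hb => ?_) allE
  · obtain ⟨ct, hct⟩ := allU a (by omega) ha
    exact covA_spec h hV hct (Nat.zero_le c) (by omega) hd hc
  · exact Nat.eq_of_beq_eq_true ((allB_iff _ _).1 zN_zero b (by omega))

end Vale.Agent.P181
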