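import Vale.Agent.P181.S.LapAux

/-! Column operations and Laplace expansion for `UU`; the packed table of `DD`.

PLAN.  `UU_eq`: for class t let A be the matrix of U6 and P the 6 x 6 integer matrix with column 0 the
coefficient vector of 1 and column j+1 the coefficient vector of pb t j, where row j' holds the
coefficient of u^(5 - j').  Then A * P has first row (1,0,0,0,0,0) (each pb t j vanishes at u = 1) and
entry (i+1, j+1) = DD t j (ν i).  det P = ± 1 is the sign in wE t / class size (P is triangular after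
reversing rows; `decide +kernel` on `Matrix.det` or `simp [Matrix.det_succ_row_zero]` also work).
One generic lemma: det of a 6 x 6 matrix with first row (1,0,..,0) is
∑_{u < 10} sgL u * m3 * m2 (expand: `Matrix.det_succ_row_zero`, `Fin.sum_univ_succ`, `ring`).
`DD_eq`: avoid evaluating cs naively (exponential).  Prove cs (r :: ρ) k = cs ρ k +
(if r ≤ k then cs (r :: ρ) (k - r) else 0) for r > 0, define a fast list valued version
(csL ρ : List ℤ of length 78, computed by that recursion or given as literal tables checked by it),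
and finish with `decide +kernel` (write bounded statements as `List.all`/`∀ k < 78`). -/

namespace Vale.Agent.P181

open Finset

lemma lap_det5 (M : Matrix (Fin 5) (Fin 5) ℤ) (D : ℕ → ℕ → ℤ) (p q a c d : ℕ)
    (h : ∀ i j : Fin 5, M i j = D j (![p, q, a, c, d] i)) :
    M.det = ∑ u ∈ range 10, sgL.getD u 0 *
      m3 D (j3L.getD u 0) (j4L.getD u 0) (j5L.getD u 0) a c d *
        m2 D (j1L.getD u 0) (j2L.getD u 0) p q := by
  have e : M = !![D 0 p, D 1 p, D 2 p, D 3 p, D 4 p; D 0 q, D 1 q, D 2 q, D 3 q, D 4 q;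
      D 0 a, D 1 a, D 2 a, D 3 a, D 4 a; D 0 c, D 1 c, D 2 c, D 3 c, D 4 c;
      D 0 d, D 1 d, D 2 d, D 3 d, D 4 d] := by
    ext i j
    rw [h]
    fin_cases i <;> fin_cases j <;> rfl
  rw [e]
  simp only [sum_range_succ, sum_range_zero, sgL, j1L, j2L, j3L, j4L, j5L, List.getD_cons_zero,
    List.getD_cons_succ, m2, m3]
  simp [Matrix.det_succ_row_zero, Fin.sum_univ_succ, Fin.succAbove]
  ring

/-- The matrix of the column operation. -/
def lapP (t : ℕ) : Matrix (Fin 6) (Fin 6) ℤ := Matrix.of fun i j =>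
  Fin.cases (if i = 5 then 1 else 0)
    (fun j' : Fin 5 => ((pb.getD t []).getD j' []).getD (5 - i) 0) j

def lapE (t : ℕ) : ℤ := -∑ u ∈ range 10, sgL.getD u 0 *
  m3 (fun j k => ((pb.getD t []).getD j []).getD k 0) (j3L.getD u 0) (j4L.getD u 0)
    (j5L.getD u 0) 3 2 1 *
  m2 (fun j k => ((pb.getD t []).getD j []).getD k 0) (j1L.getD u 0) (j2L.getD u 0) 5 4

lemma lap_detE (t : ℕ) : (lapP t).det = lapE t := by
  have h0 : ∀ i : Fin 5, lapP t i.castSucc 0 = 0 := by
    intro i
    fin_cases i <;> rfl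
  have h1 : lapP t (Fin.last 5) 0 = 1 := rfl
  rw [Matrix.det_succ_column_zero, Fin.sum_univ_castSucc]
  simp only [h0, mul_zero, zero_mul, sum_const_zero, zero_add]
  rw [lap_det5 _ (fun j k => ((pb.getD t []).getD j []).getD k 0) 5 4 3 2 1
    (by intro i j; fin_cases i <;> rfl), h1, lapE]
  norm_num

lemma lap_detP : ∀ t < 11, (cls.getD t ([], 0)).2 * lapE t = wE.getD t 0 ∧
    lapE t * lapE t = 1 ∧ ∀ j : Fin 6, ∑ i, lapP t i j = if j = 0 then 1 else 0 := by
  decide +kernel

lemma lap_U6 {t : ℕ} (ht : t < 11) (p q a c d : ℕ) :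
    (cls.getD t ([], 0)).2 * U6 (cls.getD t ([], 0)).1 ![p, q, a, c, d] =
      ∑ u ∈ range 10, scU DD t u a c d * arU DD t u p q := by
  obtain ⟨h1, h2, h3⟩ := lap_detP t ht
  rw [← lap_detE] at h1 h2
  set A : Matrix (Fin 6) (Fin 6) ℤ := Matrix.of fun i j : Fin 6 =>
    (Fin.cases 1 (fun i' : Fin 5 => cz (cls.getD t ([], 0)).1
      ((![p, q, a, c, d] i' : ℤ) - 5 + (j : ℕ))) i : ℤ) with hA
  have r0 : ∀ j, (A * lapP t) 0 j = if j = 0 then 1 else 0 := by
    intro j
    rw [← h3 j, Matrix.mul_apply]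
    exact sum_congr rfl fun i _ => one_mul _
  have h4 : A.det * (lapP t).det = ((A * lapP t).submatrix Fin.succ Fin.succ).det := by
    rw [← Matrix.det_mul, Matrix.det_succ_row_zero, Fin.sum_univ_succ]
    simp [r0, Fin.succ_ne_zero]
  have h5 := lap_det5 ((A * lapP t).submatrix Fin.succ Fin.succ) (DD t) p q a c d fun i j => by
    rw [Matrix.submatrix_apply, Matrix.mul_apply, DD, ← sum_range_reflect,
      ← Fin.sum_univ_eq_sum_range (fun s => ((pb.getD t []).getD j []).getD (6 - 1 - s) 0 *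
        cz (cls.getD t ([], 0)).1 ((![p, q, a, c, d] i : ℕ) - ((6 - 1 - s : ℕ) : ℤ))) 6]
    refine sum_congr rfl fun s _ => ?_
    have hs : ((6 - 1 - s : ℕ) : ℤ) = 5 - (s : ℕ) := by
      have := s.2
      omega
    rw [mul_comm, hs, ← sub_add]
    rfl
  have h6 : (cls.getD t ([], 0)).2 * A.det = wE.getD t 0 * (A.det * (lapP t).det) := by
    rw [← h1]
    linear_combination (-(cls.getD t ([], 0)).2 * A.det) * h2
  refine h6.trans ?_
  rw [h4, h5, mul_sum]
  refine sum_congr rfl fun u _ => ?_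
  rw [scU, arU]
  ring

theorem UU_eq (p q a c d : ℕ) :
    UU p q a c d = ∑ t ∈ range 11, ∑ u ∈ range 10, scU DD t u a c d * arU DD t u p q := by
  rw [← sum_congr rfl fun t ht => lap_U6 (mem_range.1 ht) p q a c d]
  simp only [UU, cls, List.map, List.sum_cons, List.sum_nil, sum_range_succ, sum_range_zero,
    List.getD_cons_zero, List.getD_cons_succ]
  ring

lemma lap_DD : ∀ t < 11, ∀ j < 5, ∀ k < 78,
    (∑ s ∈ range 6, ((pb.getD t []).getD j []).getD s 0 *
      if s ≤ k then (lapT.getD t []).getD (k - s) 0 else 0) + (bdL.getD (5 * t + j) 0 : ℕ) =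
      ((dpL.getD (5 * t + j) 0 >>> (56 * k) % 2 ^ 56 : ℕ) : ℤ) := by
  decide +kernel

theorem DD_eq {t j k : ℕ} (ht : t < 11) (hj : j < 5) (hk : k < 78) :
    DD t j k + (bdL.getD (5 * t + j) 0 : ℕ) =
      ((dpL.getD (5 * t + j) 0 >>> (56 * k) % 2 ^ 56 : ℕ) : ℤ) := by
  rw [← lap_DD t ht j hj k hk, DD]
  congr 1
  refine sum_congr rfl fun s _ => ?_
  congr 1
  rw [cz]
  by_cases h : s ≤ k
  · rw [if_pos h, if_pos (by omega), ← lap_tab ht (k - s) (by omega)]
    congr 1
    omega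
  · rw [if_neg h, if_neg (by omega)]

lemma lap_dp : ∀ t < 11, ∀ j < 5, dpL.getD (5 * t + j) 0 < 2 ^ (56 * 78) ∧ ∀ k < 78,
    dpL.getD (5 * t + j) 0 >>> (56 * k) % 2 ^ 56 ≤ 2 * bdL.getD (5 * t + j) 0 := by
  decide +kernel

theorem dpL_le {t j : ℕ} (ht : t < 11) (hj : j < 5) (k : ℕ) :
    dpL.getD (5 * t + j) 0 >>> (56 * k) % 2 ^ 56 ≤
      if k < 78 then 2 * bdL.getD (5 * t + j) 0 else 0 := by
  obtain ⟨h1, h2⟩ := lap_dp t ht j hj
  split_ifs with h
  · exact h2 k h
  · rw [Nat.shiftRight_eq_div_pow, Nat.div_eq_of_lt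
      (h1.trans_le (Nat.pow_le_pow_right two_pos (by omega))), Nat.zero_mod]

end Vale.Agent.P181
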