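import Vale.Agent.P181.S.RepA
import Vale.Agent.P181.S.NDefs

/-! Sorting the outer triple, the initial array, and assembling an array from rows.

PLAN.  `tabU_rep`: decode the key (`Nat.shiftRight_eq_div_pow`, `Nat.and_two_pow_sub_one_eq_mod`,
omega), `srt` is a case distinction; F vanishes when two of a, c, d agree (x = -x), and the six
orders follow from the two swaps (use `Rp.mono` to transport W and F).
`arr0_rep`: `dg_hor_rows`, `dg_hor`; the statement a0 p q a c d < 2^47 and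
(a0 p q a c d : ℤ) ≡ A0 p q a c d mod 2^47 for all p q a c d < 6 is a finite check
(`decide +kernel`, e.g. on (a0 .. : ℤ) % 2^47 = A0 .. % 2^47); A0 = 0 if an argument exceeds 5.
`dg_tp4`: four stacks of rows (`dg_hor_rows`), two of them subtracted from `bbM` (`dg_sub`), shifted
by `dg_shl` (56 * R * s = 56 * (R * s)) to disjoint row ranges, then `dg_add`; rows are below
2^(56 R) with lanes below 2^47 by `dg_ex`, `lt_of_dg` and the bound on the low byte. -/

namespace Vale.Agent.P181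

open K Finset

variable {R : ℕ} {m : ℤ}

theorem tabU_rep {tp tn : ℕ → ℕ → ℕ → ℕ} {F : ℕ → ℕ → ℕ → ℕ → ℕ → ℤ}
    {W : ℕ → ℕ → ℕ → ℕ → ℕ → Prop} {Sc : ℕ → ℕ → ℕ → Prop}
    (hF2 : ∀ p q a c d, F p q c a d = -F p q a c d) (hF3 : ∀ p q a c d, F p q a d c = -F p q a c d)
    (hW2 : ∀ p q a c d, W p q a c d → W p q c a d) (hW3 : ∀ p q a c d, W p q a c d → W p q a d c)
    (hS2 : ∀ a c d, Sc a c d → Sc c a d) (hS3 : ∀ a c d, Sc a c d → Sc a d c)
    (hp : ∀ a c d, d < c → c < a → Sc a c d →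
      Rp R m 1 (fun p q => W p q a c d) (tp a c d) fun p q => F p q a c d)
    (hn : ∀ a c d, d < c → c < a → Sc a c d →
      Rp R m 1 (fun p q => W p q a c d) (tn a c d) fun p q => -F p q a c d)
    {a c d : ℕ} (hc : c < 64) (hd : d < 64) (hS : Sc a c d) :
    Rp R m 1 (fun p q => W p q a c d) (tabU tp tn (4096 * a + 64 * c + d))
      fun p q => F p q a c d := by
  have e1 : Nat.shiftRight (4096 * a + 64 * c + d) 12 = a := by
    rw [Nat.shiftRight_eq, Nat.shiftRight_eq_div_pow]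
    omega
  have e2 : Nat.land (Nat.shiftRight (4096 * a + 64 * c + d) 6) 63 = c := by
    refine (Nat.and_two_pow_sub_one_eq_mod _ 6).trans ?_
    rw [Nat.shiftRight_eq, Nat.shiftRight_eq_div_pow]
    omega
  have e3 : Nat.land (4096 * a + 64 * c + d) 63 = d := by
    refine (Nat.and_two_pow_sub_one_eq_mod _ 6).trans ?_
    omega
  have z2 : ∀ p q a d, F p q a a d = 0 := fun p q a d => by
    have h := hF2 p q a a d
    omega
  have z3 : ∀ p q a c, F p q a c c = 0 := fun p q a c => by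
    have h := hF3 p q a c c
    omega
  have z4 : ∀ p q a c, F p q a c a = 0 := fun p q a c => by rw [hF3, z2, neg_zero]
  have hz : (∀ p q, F p q a c d = 0) →
      Rp R m 1 (fun p q => W p q a c d) 0 fun p q => F p q a c d := fun h =>
    (Rp.zero (c := 1)).mono dvd_rfl le_rfl fun p q _ k => ⟨k, h p q⟩
  simp only [tabU, frc_eq, e1, e2, e3, srt, cnd_eq, Nat.ble_eq, Nat.beq_eq]
  split_ifs with h1 h2 h3 h4 h5 h6 h7 h8 h9 h10
  · exact hz fun p q => h2 ▸ z2 p q a d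
  · exact hz fun p q => h4 ▸ z4 p q a c
  · exact hz fun p q => h6 ▸ z3 p q a c
  · refine (hn d c a (by omega) (by omega) (hS2 _ _ _ (hS3 _ _ _ (hS2 _ _ _ hS)))).mono dvd_rfl
      le_rfl fun p q _ k => ⟨hW2 _ _ _ _ _ (hW3 _ _ _ _ _ (hW2 _ _ _ _ _ k)), ?_⟩
    rw [hF2 p q c d a, hF3 p q c a d, hF2 p q a c d, neg_neg, neg_neg]
  · refine (hp c d a (by omega) (by omega) (hS3 _ _ _ (hS2 _ _ _ hS))).mono dvd_rfl
      le_rfl fun p q _ k => ⟨hW3 _ _ _ _ _ (hW2 _ _ _ _ _ k), ?_⟩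
    rw [hF3 p q c a d, hF2 p q a c d, neg_neg]
  · refine (hn c a d (by omega) (by omega) (hS2 _ _ _ hS)).mono dvd_rfl
      le_rfl fun p q _ k => ⟨hW2 _ _ _ _ _ k, ?_⟩
    rw [hF2 p q a c d, neg_neg]
  · exact hz fun p q => h8 ▸ z3 p q a c
  · exact hz fun p q => h10 ▸ z4 p q a c
  · refine (hp d a c (by omega) (by omega) (hS2 _ _ _ (hS3 _ _ _ hS))).mono dvd_rfl
      le_rfl fun p q _ k => ⟨hW2 _ _ _ _ _ (hW3 _ _ _ _ _ k), ?_⟩
    rw [hF2 p q a d c, hF3 p q a c d, neg_neg]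
  · refine (hn a d c (by omega) (by omega) (hS3 _ _ _ hS)).mono dvd_rfl
      le_rfl fun p q _ k => ⟨hW3 _ _ _ _ _ k, ?_⟩
    rw [hF3 p q a c d, neg_neg]
  · exact hp a c d (by omega) (by omega) hS

theorem RepC_all (hR : 0 < R) {P : ℕ → Prop} (h : ∀ q p, p < R → P (R * q + p)) (i : ℕ) :
    P i := by
  have k := h (i / R) (i % R) (Nat.mod_lt _ hR)
  rwa [Nat.div_add_mod] at k

theorem RepC_a0_lt (p q a c d : ℕ) : a0 p q a c d < 2 ^ 47 := by
  have h : ∀ v, sg47 v < 2 ^ 47 := by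
    intro v
    cases v with
    | ofNat n =>
      show cnd (Nat.beq n 0) 0 1 < 2 ^ 47
      rw [cnd_eq]
      split_ifs <;> norm_num
    | negSucc n =>
      show 140737488355327 < 2 ^ 47
      norm_num
  simp only [a0, frc_eq, cnd_eq]
  split_ifs
  · exact h _
  · norm_num

theorem RepC_a0_eq : ∀ p < 6, ∀ q < 6, ∀ a < 6, ∀ c < a, ∀ d < c,
    (a0 p q a c d : ℤ) % 2 ^ 47 = A0 p q a c d % 2 ^ 47 := by
  decide +kernel

theorem arr0_rep (hR : 6 ≤ R) {a c d : ℕ} (hd : d < c) (hc : c < a) (V : ℕ → ℕ → Prop) :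
    Rp R (2 ^ 47) 1 V (arr0 R a c d) fun p q => A0 p q a c d := by
  simp only [arr0, cnd_eq, Nat.ble_eq]
  split_ifs with ha
  swap
  · refine (Rp.zero (c := 1)).mono dvd_rfl le_rfl fun p q _ k => ⟨k, ?_⟩
    rw [A0, if_neg fun h => ha h.2.2.1]
  have h1 : ∀ j p, dg 56 (hor 56 6 fun i => a0 (5 - i) (5 - j) a c d) p =
      if p < 6 then a0 (5 - (6 - 1 - p)) (5 - j) a c d else 0 := fun j p =>
    dg_hor (fun i _ => (RepC_a0_lt _ _ _ _ _).trans (by norm_num)) p
  have h2 : ∀ q p, p < R →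
      dg 56 (hor (56 * R) 6 fun j => hor 56 6 fun i => a0 (5 - i) (5 - j) a c d) (R * q + p) =
      if q < 6 ∧ p < 6 then a0 p q a c d else 0 := by
    intro q p hp
    rw [dg_hor_rows hp fun j _ => lt_of_dg (by norm_num) fun i hi => by
      rw [h1, if_neg (by omega)], h1]
    by_cases hq : q < 6
    · by_cases hp6 : p < 6
      · rw [if_pos hq, if_pos hp6, if_pos ⟨hq, hp6⟩]
        congr 1 <;> omega
      · rw [if_pos hq, if_neg hp6, if_neg fun h => hp6 h.2]
    · rw [if_neg hq, if_neg fun h => hq h.1]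
  refine ⟨RepC_all (R := R) (by omega) fun q p hp => ?_, fun p q hp _ => ?_⟩
  · refine (h2 q p hp).trans_le ?_
    split_ifs
    · rw [one_mul]
      exact (RepC_a0_lt _ _ _ _ _).le
    · exact Nat.zero_le _
  · refine (congrArg (fun x : ℕ => (x : ℤ) % 2 ^ 47) (h2 q p hp)).trans ?_
    split_ifs with h
    · exact RepC_a0_eq p h.2 q h.1 a (by omega) c hc d hd
    · show ((0 : ℕ) : ℤ) % 2 ^ 47 = A0 p q a c d % 2 ^ 47
      rw [A0, if_neg (by omega), Nat.cast_zero]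

theorem RepC_ex_le (B i p : ℕ) : dg 56 (ex B i) p ≤ 2 ^ 47 := by
  rw [dg_ex]
  split_ifs
  · exact (Nat.mod_lt _ (by norm_num)).le
  · exact Nat.zero_le _

theorem RepC_hor {n p : ℕ} {B I : ℕ → ℕ} (hB : ∀ j < n, B j % 256 ≤ R) (hp : p < R) (q : ℕ) :
    dg 56 (hor (56 * R) n fun j => ex (B j) (I j)) (R * q + p) =
      if q < n then dg 56 (ex (B (n - 1 - q)) (I (n - 1 - q))) p else 0 :=
  dg_hor_rows hp (fun j hj => lt_of_dg (by norm_num) fun i hi => by
    have h := hB j hj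
    rw [dg_ex, if_neg (by omega)]) q

theorem RepC_hor_le {n : ℕ} {B I : ℕ → ℕ} (hR : 0 < R) (hB : ∀ j < n, B j % 256 ≤ R) (i : ℕ) :
    dg 56 (hor (56 * R) n fun j => ex (B j) (I j)) i ≤ 2 ^ 47 := by
  refine RepC_all hR (P := fun i => dg 56 (hor (56 * R) n fun j => ex (B j) (I j)) i ≤ 2 ^ 47)
    (fun q p hp => ?_) i
  rw [RepC_hor hB hp]
  split_ifs
  · exact RepC_ex_le _ _ _
  · exact Nat.zero_le _

theorem RepC_lt {n p : ℕ} (hp : p < R) (q : ℕ) : R * q + p < R * n ↔ q < n := by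
  constructor
  · intro h
    exact Nat.lt_of_mul_lt_mul_left (a := R) (by omega)
  · intro h
    have k : R * (q + 1) ≤ R * n := Nat.mul_le_mul_left R h
    rw [mul_add, mul_one] at k
    omega

theorem RepC_sub0 {n : ℕ} {B I : ℕ → ℕ} (hR : 0 < R) (hB : ∀ j < n, B j % 256 ≤ R) (i : ℕ) :
    dg 56 (bbM (R * n) - hor (56 * R) n fun j => ex (B j) (I j)) i =
      dg 56 (bbM (R * n)) i - dg 56 (hor (56 * R) n fun j => ex (B j) (I j)) i := by
  refine dg_sub (by norm_num) (RepC_all hR fun q p hp => ?_) i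
  rw [RepC_hor hB hp, dg_bbM]
  simp only [RepC_lt hp]
  split_ifs
  · exact RepC_ex_le _ _ _
  · exact le_rfl

theorem RepC_sub {n p : ℕ} {B I : ℕ → ℕ} (hB : ∀ j < n, B j % 256 ≤ R) (hp : p < R) (q : ℕ) :
    dg 56 (bbM (R * n) - hor (56 * R) n fun j => ex (B j) (I j)) (R * q + p) =
      if q < n then 2 ^ 47 - dg 56 (ex (B (n - 1 - q)) (I (n - 1 - q))) p else 0 := by
  rw [RepC_sub0 (by omega) hB, RepC_hor hB hp, dg_bbM]
  simp only [RepC_lt hp]
  split_ifs <;> rfl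

theorem RepC_sub_le {n : ℕ} {B I : ℕ → ℕ} (hR : 0 < R) (hB : ∀ j < n, B j % 256 ≤ R) (i : ℕ) :
    dg 56 (bbM (R * n) - hor (56 * R) n fun j => ex (B j) (I j)) i ≤ 2 ^ 47 := by
  rw [RepC_sub0 hR hB, dg_bbM]
  refine (Nat.sub_le _ _).trans ?_
  split_ifs
  · exact le_rfl
  · exact Nat.zero_le _

theorem RepC_shl {p : ℕ} (hp : p < R) (X s q : ℕ) :
    dg 56 (X <<< (56 * R * s)) (R * q + p) = if s ≤ q then dg 56 X (R * (q - s) + p) else 0 := by
  rw [mul_assoc, dg_shl]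
  by_cases h : s ≤ q
  · obtain ⟨k, rfl⟩ := Nat.exists_eq_add_of_le h
    rw [if_pos h, Nat.add_sub_cancel_left, mul_add, add_assoc, if_pos (Nat.le_add_right _ _),
      Nat.add_sub_cancel_left]
  · rw [if_neg h, if_neg (not_le.2 ((RepC_lt hp q).2 (not_le.1 h)))]

theorem RepC_shl_le {X : ℕ} (h : ∀ i, dg 56 X i ≤ 2 ^ 47) (s i : ℕ) :
    dg 56 (X <<< (56 * R * s)) i ≤ 2 ^ 47 := by
  rw [mul_assoc, dg_shl]
  split_ifs
  · exact h _
  · exact Nat.zero_le _

theorem RepC_add4 {X Y Z U : ℕ} (h1 : ∀ i, dg 56 X i ≤ 2 ^ 47) (h2 : ∀ i, dg 56 Y i ≤ 2 ^ 47)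
    (h3 : ∀ i, dg 56 Z i ≤ 2 ^ 47) (h4 : ∀ i, dg 56 U i ≤ 2 ^ 47) (i : ℕ) :
    dg 56 (X + Y + Z + U) i = dg 56 X i + dg 56 Y i + dg 56 Z i + dg 56 U i := by
  have a1 : ∀ i, dg 56 (X + Y) i = dg 56 X i + dg 56 Y i := dg_add fun i => by
    have k1 := h1 i
    have k2 := h2 i
    omega
  have a2 : ∀ i, dg 56 (X + Y + Z) i = dg 56 (X + Y) i + dg 56 Z i := dg_add fun i => by
    have k1 := h1 i
    have k2 := h2 i
    have k3 := h3 i
    rw [a1]
    omega
  rw [dg_add, a2, a1]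
  intro i
  have k1 := h1 i
  have k2 := h2 i
  have k3 := h3 i
  have k4 := h4 i
  rw [a2, a1]
  omega

theorem dg_tp4 {bk : ℕ → ℕ} {n a c d p : ℕ} (hd : d < c) (hc : c < a) (hp : p < R)
    (h1 : ∀ q < d, bk (4096 * c + 64 * d + q) % 256 ≤ R)
    (h2 : ∀ q, d < q → q < c → bk (4096 * c + 64 * q + d) % 256 ≤ R)
    (h3 : ∀ q, c < q → q ≤ a → bk (4096 * q + 64 * c + d) % 256 ≤ R) (q : ℕ) :
    dg 56 (tp4 R bk n a c d) (R * q + p) =
      if q < d then 2 ^ 47 - dg 56 (ex (bk (4096 * c + 64 * d + q)) (a - c - 1)) p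
      else if q = d then 0
      else if q < c then dg 56 (ex (bk (4096 * c + 64 * q + d)) (a - c - 1)) p
      else if q = c then 0
      else if q < a then 2 ^ 47 - dg 56 (ex (bk (4096 * q + 64 * c + d)) (a - q - 1)) p
      else if q = a then 0
      else if q < n then dg 56 (ex (bk (4096 * a + 64 * c + d)) (q - a - 1)) p
      else 0 := by
  have hR : 0 < R := by omega
  have e : tp4 R bk n a c d =
      (bbM (R * d) - hor (56 * R) d fun j => ex (bk (4096 * c + 65 * d - 1 - j)) (a - (c + 1))) +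
      (hor (56 * R) (c - (d + 1)) fun j =>
        ex (bk (4160 * c + d - 64 - 64 * j)) (a - (c + 1))) <<< (56 * R * (d + 1)) +
      (bbM (R * (a - (c + 1))) - hor (56 * R) (a - (c + 1)) fun j =>
        ex (bk (4096 * a + 64 * c + d - 4096 * (j + 1))) j) <<< (56 * R * (c + 1)) +
      (hor (56 * R) (n - (a + 1)) fun j =>
        ex (bk (4096 * a + 64 * c + d)) (n - (a + 1) - (j + 1))) <<< (56 * R * (a + 1)) := by
    simp only [tp4, frc_eq]
    rfl
  have b1 : ∀ j < d, bk (4096 * c + 65 * d - 1 - j) % 256 ≤ R := fun j hj => by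
    rw [show 4096 * c + 65 * d - 1 - j = 4096 * c + 64 * d + (d - 1 - j) by omega]
    exact h1 _ (by omega)
  have b2 : ∀ j < c - (d + 1), bk (4160 * c + d - 64 - 64 * j) % 256 ≤ R := fun j hj => by
    rw [show 4160 * c + d - 64 - 64 * j = 4096 * c + 64 * (c - 1 - j) + d by omega]
    exact h2 _ (by omega) (by omega)
  have b3 : ∀ j < a - (c + 1), bk (4096 * a + 64 * c + d - 4096 * (j + 1)) % 256 ≤ R :=
    fun j hj => by
      rw [show 4096 * a + 64 * c + d - 4096 * (j + 1) = 4096 * (a - 1 - j) + 64 * c + d by omega]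
      exact h3 _ (by omega) (by omega)
  have b4 : ∀ j < n - (a + 1), bk (4096 * a + 64 * c + d) % 256 ≤ R := fun _ _ => h3 a hc le_rfl
  rw [e, RepC_add4 (RepC_sub_le hR b1) (RepC_shl_le (RepC_hor_le hR b2) _)
    (RepC_shl_le (RepC_sub_le hR b3) _) (RepC_shl_le (RepC_hor_le hR b4) _),
    RepC_shl hp, RepC_shl hp, RepC_shl hp, RepC_sub b1 hp, RepC_hor b2 hp, RepC_sub b3 hp,
    RepC_hor b4 hp, show a - c - 1 = a - (c + 1) by omega]
  by_cases c1 : q < d
  · rw [if_pos c1, if_pos c1, if_neg (by omega), if_neg (by omega), if_neg (by omega),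
      show 4096 * c + 65 * d - 1 - (d - 1 - q) = 4096 * c + 64 * d + q by omega]
    rfl
  rw [if_neg c1, if_neg c1, zero_add]
  by_cases c2 : q = d
  · rw [if_pos c2, if_neg (by omega), if_neg (by omega), if_neg (by omega)]
  rw [if_neg c2, if_pos (show d + 1 ≤ q by omega)]
  by_cases c3 : q < c
  · rw [if_pos c3, if_pos (by omega), if_neg (by omega), if_neg (by omega),
      show 4160 * c + d - 64 - 64 * (c - (d + 1) - 1 - (q - (d + 1))) = 4096 * c + 64 * q + d by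
        omega]
    rfl
  rw [if_neg c3, if_neg (show ¬ q - (d + 1) < c - (d + 1) by omega), zero_add]
  by_cases c4 : q = c
  · rw [if_pos c4, if_neg (by omega), if_neg (by omega)]
  rw [if_neg c4, if_pos (show c + 1 ≤ q by omega)]
  by_cases c5 : q < a
  · rw [if_pos c5, if_pos (by omega), if_neg (by omega),
      show a - (c + 1) - 1 - (q - (c + 1)) = a - q - 1 by omega,
      show 4096 * a + 64 * c + d - 4096 * (a - q - 1 + 1) = 4096 * q + 64 * c + d by omega]
    rfl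
  rw [if_neg c5, if_neg (show ¬ q - (c + 1) < a - (c + 1) by omega), zero_add]
  by_cases c6 : q = a
  · rw [if_pos c6, if_neg (by omega)]
  rw [if_neg c6, if_pos (show a + 1 ≤ q by omega)]
  by_cases c7 : q < n
  · rw [if_pos c7, if_pos (by omega),
      show n - (a + 1) - (n - (a + 1) - 1 - (q - (a + 1)) + 1) = q - a - 1 by omega]
  · rw [if_neg c7, if_neg (by omega)]

end Vale.Agent.P181
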