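import Vale.Agent.P181.S.RepB
import Vale.Agent.P181.S.RepC
import Vale.Agent.P181.S.Newt
import Vale.Agent.P181.S.Anti

/-! The tables of `h_b[h_6]` are correct, level by level.

PLAN.  `tp_rep`: for b = 0 use `arr0_rep`, `cP_zero`.  For b ≥ 1: if a + c + d > 6 b + 15 the array is 0
and cP vanishes (`cP_big`).  Otherwise use `dg_tp4`; from Z 0 q0 a c d with q0 > a, `down` and the swaps
give Z 0 a c d q, Z 0 a c q d, Z 0 a q c d, Z 0 (a+1) a c d, so `nr_lt` and `Lv` bound the low bytes;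
values by `Lv` and `cP_swap1..3`; rows q ≥ nn are outside Z or have q + a + c + d > 6 b + 15.
`md_dvd`: md (b+1) ∣ md b, so md b ∣ md b' for b' ≤ b and md b ∣ 2^47.
`lev_step`: take sorted q a c d with q < nr a c d; Z 0 q a c d holds by `ln_pos`, `ln_iff`, so `bnd` places
(a, c, d) in the range of the check and `chkO` is true.  With n = nn .. and V p q' = Z p q' a c d ∧ q' < n,
`mulH_rep` (e = 6, so (min 6 c + 1) (min 6 d + 1) ≤ 49) with `tabU_rep`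
(Sc a c d = ∃ q0, a < q0 ∧ c < q0 ∧ d < q0 ∧ Z 0 q0 a c d; `Rp.neg` for tnN) and `Rp.sum` show that hsum
represents ∑_j HH 6 (j+1) (cP (b-1-j) 6) = b * cP b 6 (`cP_rec`) modulo md (b-1), bound 3 b < 512.
If q < n, `chkRow` gives b * row ≡ hsum lane modulo 2^47 on the lanes p < ln (`dg_land`, `dg_m1`,
`dg_mul`, `dg_shr`), and `Int.ModEq.cancel_left_div_gcd` gives md b.  If q ≥ n then cP = 0 and the row
is zero because B >>> (56 L m + 8) = 0 with m = n - (a+1) ≤ q - a - 1 (`dg_ex`). -/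

namespace Vale.Agent.P181

open K Finset

structure ZoneOK (R cm am : ℕ) (nr : ℕ → ℕ → ℕ → ℕ) (ln : ℕ → ℕ → ℕ → ℕ → ℕ)
    (Z : ℕ → ℕ → ℕ → ℕ → ℕ → Prop) : Prop where
  sw1 : ∀ p q a c d, Z p q a c d → Z p a q c d
  sw2 : ∀ p q a c d, Z p q a c d → Z p q c a d
  sw3 : ∀ p q a c d, Z p q a c d → Z p q a d c
  down : ∀ p q a c d p' q' a' c' d', p' ≤ p → q' ≤ q → a' ≤ a → c' ≤ c → d' ≤ d →
    Z p q a c d → Z p' q' a' c' d'
  ln_iff : ∀ p q a c d, d < c → c < a → a < q → a < am → c < cm → q < nr a c d →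
    (Z p q a c d ↔ p < ln q a c d)
  ln_pos : ∀ q a c d, d < c → c < a → a < q → a < am → c < cm → q < nr a c d →
    0 < ln q a c d ∧ ln q a c d ≤ R
  nr_lt : ∀ p q a c d, d < c → c < a → Z p q a c d → q < nr a c d
  bnd : ∀ p q a c d, d < c → c < a → a < q → Z p q a c d → a < am ∧ c < cm
  am_le : am ≤ 64
  R6 : 6 ≤ R

/-- The modulus known at level `b`. -/
def md : ℕ → ℤ
  | 0 => 2 ^ 47
  | b + 1 => md b / Int.gcd (md b) (b + 1 : ℕ)

def Lv (R : ℕ) (Z : ℕ → ℕ → ℕ → ℕ → ℕ → Prop) (lv : List Tr) (b : ℕ) : Prop :=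
  ∀ q a c d, d < c → c < a → a < q → Z 0 q a c d →
    blk lv b (4096 * a + 64 * c + d) % 256 ≤ R ∧ ∀ p, Z p q a c d →
      ((dg 56 (ex (blk lv b (4096 * a + 64 * c + d)) (q - a - 1)) p : ℕ) : ℤ) ≡
        cP b 6 p q a c d [ZMOD md b]

variable {R cm am : ℕ} {nr : ℕ → ℕ → ℕ → ℕ} {ln : ℕ → ℕ → ℕ → ℕ → ℕ}
  {Z : ℕ → ℕ → ℕ → ℕ → ℕ → Prop} {lv : List Tr}

theorem md_pos (b : ℕ) : 0 < md b := by
  induction b with
  | zero => exact pow_pos two_pos 47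
  | succ b ih => exact Int.ediv_pos_of_pos_of_dvd ih (Int.natCast_nonneg _) (Int.gcd_dvd_left _ _)

theorem md_dvd {b b' : ℕ} (h : b' ≤ b) : md b ∣ md b' := by
  induction h with
  | refl => rfl
  | step _ ih => exact (Int.ediv_dvd_of_dvd (Int.gcd_dvd_left _ _)).trans ih

theorem lev_md47 (b : ℕ) : md b ∣ 2 ^ 47 := md_dvd (Nat.zero_le b)

theorem lev_nn (b a c d : ℕ) : nn nr b a c d = min (nr a c d) (6 * b + 16 - (a + c + d)) :=
  mn_eq _ _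

theorem lev_tpN (b a c d : ℕ) : tpN R nr lv b a c d =
    if b = 0 then arr0 R a c d else if a + c + d ≤ 6 * b + 15 then
      tp4 R (blk lv b) (nn nr b a c d) a c d else 0 := by
  unfold tpN
  simp only [cnd_eq, Nat.beq_eq, Nat.ble_eq]
  rfl

theorem lev_ex_lt (B i p : ℕ) : dg 56 (ex B i) p < 2 ^ 47 := by
  rw [dg_ex]
  split_ifs
  · exact Nat.mod_lt _ (by positivity)
  · positivity

theorem lev_neg {m v : ℤ} {x : ℕ} (hm : m ∣ 2 ^ 47) (hx : x < 2 ^ 47) (h : (x : ℤ) ≡ v [ZMOD m]) :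
    ((2 ^ 47 - x : ℕ) : ℤ) ≡ -v [ZMOD m] := by
  rw [Nat.cast_sub hx.le]
  have h1 : ((2 ^ 47 : ℕ) : ℤ) ≡ 0 [ZMOD m] := Int.modEq_zero_iff_dvd.2 (by exact_mod_cast hm)
  simpa using h1.sub h

/-- Outside the stored rows the coefficient vanishes. -/
theorem lev_out (hZ : ZoneOK R cm am nr ln Z) (b : ℕ) {p q a c d : ℕ} (hd : d < c) (hc : c < a)
    (h : Z p q a c d) : q < nn nr b a c d ∨ cP b 6 p q a c d = 0 := by
  have h1 := hZ.nr_lt p q a c d hd hc h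
  rw [lev_nn]
  by_cases h2 : b * 6 + 15 < p + q + a + c + d
  · exact Or.inr (cP_big h2)
  · left
    omega

theorem tp_rep (hZ : ZoneOK R cm am nr ln Z) {b : ℕ} (hb : b ≠ 0 → Lv R Z lv b) {a c d q0 : ℕ}
    (hd : d < c) (hc : c < a) (ha : a < q0) (h0 : Z 0 q0 a c d) :
    Rp R (md b) 1 (fun p q => Z p q a c d) (tpN R nr lv b a c d) fun p q => cP b 6 p q a c d := by
  rw [lev_tpN]
  split_ifs with hb0 hS
  · subst hb0
    exact (arr0_rep hZ.R6 hd hc _).mono dvd_rfl le_rfl fun p q _ h => ⟨h, cP_zero _ _ _ _ _ _⟩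
  swap
  · exact Rp.zero.mono dvd_rfl le_rfl fun p q _ h => ⟨h, cP_big (by omega)⟩
  have hL := hb hb0
  have hR : 0 < R := by
    have := hZ.R6
    omega
  have z0 : ∀ {p q a c d}, Z p q a c d → Z 0 q a c d := fun h =>
    hZ.down _ _ _ _ _ _ _ _ _ _ (Nat.zero_le _) le_rfl le_rfl le_rfl le_rfl h
  have zq : ∀ q, q ≤ q0 → Z 0 a q c d := fun q hq =>
    hZ.sw1 _ _ _ _ _ (hZ.down _ _ _ _ _ _ _ _ _ _ le_rfl hq le_rfl le_rfl le_rfl h0)
  have key := fun p (hp : p < R) => dg_tp4 (bk := blk lv b) (n := nn nr b a c d) hd hc hp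
    (fun q hq => (hL a c d q hq hd hc
      (hZ.sw3 _ _ _ _ _ (hZ.sw2 _ _ _ _ _ (zq q (by omega))))).1)
    (fun q h1 h2 => (hL a c q d h1 h2 hc (hZ.sw2 _ _ _ _ _ (zq q (by omega)))).1)
    (fun q h1 h2 => by
      rcases h2.lt_or_eq with h2 | rfl
      · exact (hL a q c d hd h1 h2 (zq q (by omega))).1
      · exact (hL q0 q c d hd hc ha h0).1)
  refine ⟨fun i => ?_, fun p q hp h => ?_⟩
  · rw [← Nat.div_add_mod i R, key _ (Nat.mod_lt _ hR), one_mul]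
    split_ifs <;> first | exact Nat.sub_le _ _ | exact Nat.zero_le _ | exact (lev_ex_lt _ _ _).le
  have k1 := hZ.sw1 _ _ _ _ _ h
  have k2 := hZ.sw2 _ _ _ _ _ k1
  have k3 := hZ.sw3 _ _ _ _ _ k2
  have e1 := cP_swap1 b 6 p a q c d
  have e2 := cP_swap2 b 6 p a q c d
  have e3 := cP_swap3 b 6 p a c q d
  rw [key p hp]
  beta_reduce
  split_ifs with h1 h2 h3 h4 h5 h6 h7
  · rw [show cP b 6 p q a c d = -cP b 6 p a c d q by omega]
    exact lev_neg (lev_md47 b) (lev_ex_lt _ _ _) ((hL a c d q h1 hd hc (z0 k3)).2 p k3)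
  · subst h2
    rw [show cP b 6 p q a c q = 0 by omega]
    rfl
  · rw [show cP b 6 p q a c d = cP b 6 p a c q d by omega]
    exact (hL a c q d (by omega) h3 hc (z0 k2)).2 p k2
  · subst h4
    rw [show cP b 6 p q a q d = 0 by omega]
    rfl
  · rw [e1]
    exact lev_neg (lev_md47 b) (lev_ex_lt _ _ _) ((hL a q c d hd (by omega) h5 (z0 k1)).2 p k1)
  · subst h6
    rw [show cP b 6 p q q c d = 0 by omega]
    rfl
  · exact (hL q a c d hd hc (by omega) (z0 h)).2 p h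
  · rw [(lev_out hZ b hd hc h).resolve_left h7]
    rfl

theorem lev_tab (hZ : ZoneOK R cm am nr ln Z) {b : ℕ} (hb : b ≠ 0 → Lv R Z lv b) {a c d q0 : ℕ}
    (hc : c < 64) (hd : d < 64) (h1 : a < q0) (h2 : c < q0) (h3 : d < q0) (h0 : Z 0 q0 a c d) :
    Rp R (md b) 1 (fun p q => Z p q a c d) (tabN R nr lv b (4096 * a + 64 * c + d))
      fun p q => cP b 6 p q a c d := by
  have hR : 0 < R := by
    have := hZ.R6
    omega
  refine tabU_rep (W := Z) (F := cP b 6)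
    (Sc := fun a c d => ∃ q0, a < q0 ∧ c < q0 ∧ d < q0 ∧ Z 0 q0 a c d)
    (cP_swap2 b 6) (cP_swap3 b 6) hZ.sw2 hZ.sw3 ?_ ?_ ?_ ?_ hc hd ⟨q0, h1, h2, h3, h0⟩
  · rintro a c d ⟨q, k1, k2, k3, k⟩
    exact ⟨q, k2, k1, k3, hZ.sw2 _ _ _ _ _ k⟩
  · rintro a c d ⟨q, k1, k2, k3, k⟩
    exact ⟨q, k1, k3, k2, hZ.sw3 _ _ _ _ _ k⟩
  · rintro a c d hd hc ⟨q, k1, -, -, k⟩
    exact tp_rep hZ hb hd hc k1 k
  · rintro a c d hd hc ⟨q, k1, -, -, k⟩
    exact Rp.neg hR (lev_md47 b) (tp_rep hZ hb hd hc k1 k) fun p q h => lev_out hZ b hd hc h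

theorem lev_hsum (hZ : ZoneOK R cm am nr ln Z) {b : ℕ} (hb : b + 1 ≤ 100)
    (ih : ∀ b', b' ≠ 0 → b' < b + 1 → Lv R Z lv b') {a c d q0 : ℕ} (hd : d < c) (hc : c < a)
    (ha : a < q0) (h0 : Z 0 q0 a c d) (n : ℕ) :
    Rp R (md b) (∑ _j ∈ range (b + 1), 3) (fun p q => Z p q a c d ∧ q < n)
      (hsum R nr lv (b + 1) n a c d) fun p q => ((b + 1 : ℕ) : ℤ) * cP (b + 1) 6 p q a c d := by
  have hR : 0 < R := by
    have := hZ.R6
    omega
  have ham := (hZ.bnd 0 q0 a c d hd hc ha h0).1.trans_le hZ.am_le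
  have e : hsum R nr lv (b + 1) n a c d =
      ∑ j ∈ range (b + 1), mulH R n 6 (j + 1) (tabN R nr lv (b + 1 - 1 - j)) a c d := by
    unfold hsum
    rw [loop_eq]
    refine Finset.sum_congr rfl fun j _ => ?_
    rw [frc_eq, show Nat.sub (b + 1) (Nat.succ j) = b + 1 - 1 - j by
      rw [Nat.sub_eq, Nat.succ_eq_add_one]; omega]
  simp only [e, cP_rec]
  refine Rp.sum (cs := fun _ => 3) (fun j _ => ?_) (by simp; omega)
  refine mulH_rep hR (lev_md47 b) ?_ (fun _ _ h => h.2) (Nat.succ_pos j) ?_ ?_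
  · rintro p q p' q' hp hq ⟨k1, k2⟩
    exact ⟨hZ.down _ _ _ _ _ _ _ _ _ _ hp hq le_rfl le_rfl le_rfl k1, by omega⟩
  · intro a' ha' c' hc' d' hd'
    refine Rp.mono (lev_tab hZ (fun k => ih _ k (by omega)) (q0 := q0) (by omega) (by omega)
      (by omega) (by omega) (by omega)
      (hZ.down _ _ _ _ _ _ _ _ _ _ le_rfl le_rfl ha' hc' hd' h0)) (md_dvd (by omega)) le_rfl ?_
    rintro p q - ⟨k1, -⟩
    exact ⟨hZ.down _ _ _ _ _ _ _ _ _ _ le_rfl le_rfl ha' hc' hd' k1, rfl⟩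
  · have k1 : min 6 c + 1 ≤ 7 := by omega
    have k2 : min 6 d + 1 ≤ 7 := by omega
    exact (Nat.mul_le_mul k1 k2).trans (by norm_num)

theorem lev_chkO {b a c d n B : ℕ} (h : chkO R nr ln lv b a c d = true) (hn : n = nn nr b a c d)
    (hB : B = blk lv b (4096 * a + 64 * c + d)) :
    B % 256 ≤ R ∧ B >>> (56 * (B % 256) * (n - (a + 1)) + 8) = 0 ∧ ∀ i < n - (a + 1),
      chkRow b (hsum R nr lv b n a c d >>> (56 * R * (a + 1 + i))) (ex B i)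
        (m1 (ln (a + 1 + i) a c d)) = true := by
  have e : B % 256 = B &&& 255 := (Nat.and_two_pow_sub_one_eq_mod B 8).symm
  unfold chkO m1M at h
  simp only [frc_eq, cnd_eq, Nat.ble_eq, Nat.beq_eq] at h
  subst hn hB
  rw [e]
  split_ifs at h with h1 h2
  exact ⟨h1, h2, (allB_iff _ _).1 h⟩

theorem lev_row {b H r L p : ℕ} (hb : b ≤ 100) (h : chkRow b H r (m1 L) = true) (hp : p < L)
    (hr : ∀ i, dg 56 r i < 2 ^ 47) :
    (b : ℤ) * (dg 56 r p : ℕ) ≡ (dg 56 H p : ℕ) [ZMOD 2 ^ 47] := by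
  unfold chkRow at h
  rw [Nat.beq_eq] at h
  have h1 : dg 56 (b * r &&& m1 L) p = dg 56 (H &&& m1 L) p := congrArg (fun x => dg 56 x p) h
  rw [dg_land, dg_land, dg_m1, if_pos hp, Nat.and_two_pow_sub_one_eq_mod,
    Nat.and_two_pow_sub_one_eq_mod, dg_mul b fun i => ?_] at h1
  · exact_mod_cast Int.natCast_modEq_iff.2 (show _ ≡ _ [MOD 2 ^ 47] from h1)
  · have h2 := Nat.mul_le_mul hb (hr i).le
    omega

theorem lev_step (hZ : ZoneOK R cm am nr ln Z) {b : ℕ} (hb0 : b ≠ 0) (hb : b ≤ 100)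
    (ih : ∀ b', b' ≠ 0 → b' < b → Lv R Z lv b')
    (hc : ∀ a < am, chkA R cm nr ln lv b a 1 = true) : Lv R Z lv b := by
  intro q a c d hdc hca haq h0
  obtain ⟨ham, hcm⟩ := hZ.bnd 0 q a c d hdc hca haq h0
  have hq := hZ.nr_lt 0 q a c d hdc hca h0
  have h1 := hc a ham
  unfold chkA at h1
  simp only [allB_iff, frc_eq, mn_eq, cnd_eq, Nat.ble_eq] at h1
  have h2 : (if nr a c d ≤ a + 1 then true else chkO R nr ln lv b a c d) = true :=
    h1 0 one_pos c (lt_min hca hcm) d hdc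
  rw [if_neg (by omega)] at h2
  obtain ⟨k1, k2, k3⟩ := lev_chkO h2 rfl rfl
  refine ⟨k1, fun p hp => ?_⟩
  have hl1 := (hZ.ln_iff p q a c d hdc hca haq ham hcm hq).1 hp
  have hl2 := (hZ.ln_pos q a c d hdc hca haq ham hcm hq).2
  by_cases hn : q < nn nr b a c d
  · obtain ⟨b, rfl⟩ := Nat.exists_eq_succ_of_ne_zero hb0
    have k4 := k3 (q - a - 1) (by omega)
    rw [show a + 1 + (q - a - 1) = q by omega] at k4
    have k5 := lev_row hb k4 hl1 (lev_ex_lt _ _)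
    rw [mul_assoc, dg_shr, add_comm p] at k5
    have k6 := (lev_hsum hZ hb ih hdc hca haq h0 _).2 p q (by omega) ⟨hp, hn⟩
    exact Int.ModEq.cancel_left_div_gcd (md_pos b) ((k5.of_dvd (lev_md47 b)).trans k6)
  · rw [(lev_out hZ b hdc hca hp).resolve_left hn, dg_ex]
    generalize blk lv b (4096 * a + 64 * c + d) = B at k2
    generalize B % 256 = L at k2
    have e : L * (nn nr b a c d - (a + 1)) ≤ L * (q - a - 1) := Nat.mul_le_mul_left _ (by omega)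
    rw [add_comm, Nat.shiftRight_add, mul_assoc] at k2
    have k4 := dg_shr 56 (B >>> 8) (L * (nn nr b a c d - (a + 1)))
      (L * (q - a - 1) + p - L * (nn nr b a c d - (a + 1)))
    rw [k2, dg_zero, Nat.sub_add_cancel (by omega)] at k4
    rw [← k4]
    simp

theorem chkA_split {b lo n a : ℕ} (h : chkA R cm nr ln lv b lo n = true) (h1 : lo ≤ a)
    (h2 : a < lo + n) : chkA R cm nr ln lv b a 1 = true := by
  unfold chkA at h ⊢
  simp only [allB_iff, frc_eq] at h ⊢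
  intro i hi
  have h3 := h (a - lo) (by omega)
  rw [show Nat.add lo (a - lo) = Nat.add a i by simp only [Nat.add_eq]; omega] at h3
  exact h3

theorem lev_all (hZ : ZoneOK R cm am nr ln Z) {B : ℕ} (hB : B ≤ 100)
    (hc : ∀ b, b ≠ 0 → b ≤ B → ∀ a < am, chkA R cm nr ln lv b a 1 = true) :
    ∀ b, b ≠ 0 → b ≤ B → Lv R Z lv b := by
  intro b
  induction b using Nat.strong_induction_on with
  | _ b ih =>
    intro hb0 hb
    exact lev_step hZ hb0 (by omega) (fun b' h1 h2 => ih b' h2 h1 (by omega)) (hc b hb0 hb)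

def Z1 (p q a c d : ℕ) : Prop :=
  2 * p + (q + a + c + d) ≤ 92 ∧ 2 * q + (q + a + c + d) ≤ 90 ∧ 2 * a + (q + a + c + d) ≤ 90 ∧
    2 * c + (q + a + c + d) ≤ 90 ∧ 2 * d + (q + a + c + d) ≤ 90

def Z2 (p q a c d : ℕ) : Prop :=
  2 * p + (q + a + c + d) ≤ 158 ∧ 2 * q + (q + a + c + d) ≤ 156 ∧ 2 * a + (q + a + c + d) ≤ 156 ∧
    2 * c + (q + a + c + d) ≤ 156 ∧ 2 * d + (q + a + c + d) ≤ 156 ∧
    (q ≤ 1 ∨ a ≤ 1 ∨ c ≤ 1) ∧ (q ≤ 1 ∨ a ≤ 1 ∨ d ≤ 1) ∧ (q ≤ 1 ∨ c ≤ 1 ∨ d ≤ 1) ∧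
    (a ≤ 1 ∨ c ≤ 1 ∨ d ≤ 1) ∧ (q = 0 ∨ a = 0 ∨ c = 0 ∨ d = 0)

def Z3 (p q a c d : ℕ) : Prop :=
  2 * p + (q + a + c + d) ≤ 158 ∧ q ≤ 7 ∧ a ≤ 7 ∧ c ≤ 7 ∧ d ≤ 7 ∧
    (q ≤ 4 ∨ a ≤ 4) ∧ (q ≤ 4 ∨ c ≤ 4) ∧ (q ≤ 4 ∨ d ≤ 4) ∧ (a ≤ 4 ∨ c ≤ 4) ∧ (a ≤ 4 ∨ d ≤ 4) ∧
    (c ≤ 4 ∨ d ≤ 4) ∧ (q ≤ 1 ∨ a ≤ 1 ∨ c ≤ 1 ∨ d ≤ 1)

theorem zone1 : ZoneOK 44 64 22 nr1 ln1 Z1 := by
  have e1 : ∀ a c d, nr1 a c d = max (a + 1) ((93 - (a + c + d)) / 3) := fun a c d => mx_eq _ _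
  have e2 : ∀ q a c d, ln1 q a c d = (94 - (q + a + c + d)) / 2 := fun _ _ _ _ => rfl
  constructor <;> (try simp only [e1, e2, Z1]) <;> intros <;> omega

theorem zone2 : ZoneOK 78 2 39 nr2 ln2 Z2 := by
  have e1 : ∀ a c d, nr2 a c d = max (a + 1) ((159 - (a + c + d)) / 3) := fun a c d => mx_eq _ _
  have e2 : ∀ q a c d, ln2 q a c d = (160 - (q + a + c + d)) / 2 := fun _ _ _ _ => rfl
  constructor <;> (try simp only [e1, e2, Z2]) <;> intros <;> omega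

theorem zone3 : ZoneOK 78 64 5 nr3 ln2 Z3 := by
  have e1 : ∀ a c d, nr3 a c d = 8 - 6 * min (d - 1) 1 := fun a c d => by
    simp only [nr3, cnd_eq, Nat.ble_eq]
    split_ifs <;> omega
  have e2 : ∀ q a c d, ln2 q a c d = (160 - (q + a + c + d)) / 2 := fun _ _ _ _ => rfl
  constructor <;> (try simp only [e1, e2, Z3]) <;> intros <;> omega

end Vale.Agent.P181
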