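import Vale.Agent.P181.S.Eng
import Vale.Agent.P181.S.Dg

/-! Basic facts on the kernel engine: control structures, masks, the predicate `Rp`.

PLAN.  The control lemmas are inductions (`Nat.rec` unfolds by `rfl`).  `Nat.add`, `Nat.mul`,
`Nat.land`, `Nat.shiftLeft` ... are turned into the usual operators by `Nat.add_eq`, `Nat.mul_eq`,
`Nat.sub_eq`, `Nat.land_eq`, `Nat.shiftLeft_eq'`, `Nat.shiftRight_eq`, `Nat.pow_eq`, or by `show`/`rfl`.
Masks: `dg_rep`, `dg_rows`, `lt_of_dg`; every index i is R * (i / R) + i % R when 0 < R.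
x &&& (2^47 - 1) = x % 2^47 (`Nat.and_two_pow_sub_one_eq_mod`), and m ∣ 2^47.
`Rp.shX`: the lane R q + p of the shifted number is the lane R q + p - k of the masked number;
if p < k ≤ R this is lane R (q-1) + (R + p - k) with R + p - k ≥ R - k, which is masked out (if k > R the
mask is 0).  `dg_hor`: induction on n, `dg_add`, `dg_shl` with s = 1, `dg_of_lt`. -/

namespace Vale.Agent.P181

open K Finset

theorem loop_eq (n : ℕ) (f : ℕ → ℕ) : loop n f = ∑ k ∈ range n, f k := by
  induction n with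
  | zero => rfl
  | succ n ih =>
    rw [Finset.sum_range_succ, ← ih]
    rfl

theorem frc_eq {α : Type} (n : ℕ) (f : ℕ → α) : frc n f = f n := by
  cases n <;> rfl

theorem cnd_eq {α : Type} (b : Bool) (x y : α) : cnd b x y = if b = true then x else y := by
  cases b <;> rfl

theorem allB_iff (n : ℕ) (f : ℕ → Bool) : allB n f = true ↔ ∀ i < n, f i = true := by
  induction n with
  | zero => exact ⟨fun _ i hi => absurd hi (Nat.not_lt_zero i), fun _ => rfl⟩
  | succ n ih =>
    have e : allB (n + 1) f = cnd (f n) (allB n f) false := rfl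
    rw [e, cnd_eq]
    constructor
    · intro h i hi
      split_ifs at h with hn
      rcases Nat.lt_succ_iff_lt_or_eq.1 hi with h1 | h1
      · exact ih.1 h i h1
      · rw [h1]; exact hn
    · intro h
      rw [if_pos (h n (Nat.lt_succ_self n))]
      exact ih.2 fun i hi => h i (Nat.lt_succ_of_lt hi)

theorem mn_eq (x y : ℕ) : mn x y = min x y := by
  rw [mn, cnd_eq, min_def]
  simp only [Nat.ble_eq]

theorem mx_eq (x y : ℕ) : mx x y = max x y := by
  rw [mx, cnd_eq, max_def]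
  simp only [Nat.ble_eq]

theorem nth_eq {α : Type} (z : α) (l : List α) (i : ℕ) : nth z l i = l.getD i z := by
  induction l generalizing i with
  | nil => rfl
  | cons x l ih =>
    cases i with
    | zero => rfl
    | succ i =>
      rw [List.getD_cons_succ, ← ih]
      rfl

theorem on_eq (w n : ℕ) : K.on w n = ones w n := by
  rfl

theorem dg_m1 (n i : ℕ) : dg 56 (m1 n) i = if i < n then 2 ^ 47 - 1 else 0 := by
  have e : m1 n = (2 ^ 47 - 1) * ones 56 n := rfl
  rw [e, dg_rep (by norm_num) (by norm_num)]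

theorem dg_bbM (n i : ℕ) : dg 56 (bbM n) i = if i < n then 2 ^ 47 else 0 := by
  have e : bbM n = 2 ^ 47 * ones 56 n := by
    rw [bbM, frc_eq]
    rfl
  rw [e, dg_rep (by norm_num) (by norm_num)]

theorem dg_mkM {R p : ℕ} (hp : p < R) (n k q : ℕ) :
    dg 56 (mkM R n k) (R * q + p) = if q < n ∧ p + k < R then 2 ^ 47 - 1 else 0 := by
  have e : mkM R n k = m1 (R - k) * ones (56 * R) n := by
    rw [mkM, frc_eq, frc_eq]
    rfl
  have hlt : m1 (R - k) < 2 ^ (56 * R) :=
    lt_of_dg (by norm_num) fun i hi => by rw [dg_m1, if_neg (by omega)]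
  rw [e, dg_rows (by norm_num) hp hlt, dg_m1]
  by_cases h1 : q < n
  · by_cases h2 : p + k < R
    · rw [if_pos h1, if_pos (by omega), if_pos ⟨h1, h2⟩]
    · rw [if_pos h1, if_neg (by omega), if_neg (fun h => h2 h.2)]
  · rw [if_neg h1, if_neg (fun h => h1 h.1)]

theorem dg_hor {w n : ℕ} {f : ℕ → ℕ} (hf : ∀ j < n, f j < 2 ^ w) (q : ℕ) :
    dg w (hor w n f) q = if q < n then f (n - 1 - q) else 0 := by
  induction n generalizing q with
  | zero => exact (dg_zero w q).trans (by simp)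
  | succ n ih =>
    have e : hor w (n + 1) f = hor w n f <<< (w * 1) + f n := by
      rw [mul_one]
      rfl
    have ih' := ih fun j hj => hf j (Nat.lt_succ_of_lt hj)
    have hn := hf n (Nat.lt_succ_self n)
    have key : ∀ i, dg w (hor w n f <<< (w * 1)) i + dg w (f n) i =
        if i < n + 1 then f (n + 1 - 1 - i) else 0 := by
      intro i
      rw [dg_shl, dg_of_lt hn]
      cases i with
      | zero => simp
      | succ i =>
        rw [if_pos (by omega), if_neg (by omega), add_zero, Nat.add_sub_cancel, ih']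
        by_cases hi : i < n
        · rw [if_pos hi, if_pos (by omega)]
          congr 1
          omega
        · rw [if_neg hi, if_neg (by omega)]
    rw [e, dg_add, key]
    intro i
    rw [key]
    split_ifs with hi
    · exact hf _ (by omega)
    · exact Nat.two_pow_pos w

/-- Lanes of a stack of rows. -/
theorem dg_hor_rows {R n p : ℕ} {f : ℕ → ℕ} (hp : p < R) (hf : ∀ j < n, f j < 2 ^ (56 * R))
    (q : ℕ) :
    dg 56 (hor (56 * R) n f) (R * q + p) = if q < n then dg 56 (f (n - 1 - q)) p else 0 := by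
  have h := dg_dg 56 R (hor (56 * R) n f) q p
  rw [if_pos hp, dg_hor hf] at h
  rw [← h]
  split_ifs
  · rfl
  · exact dg_zero 56 p

theorem dg_ex (B i p : ℕ) :
    dg 56 (ex B i) p =
      if p < B % 256 then dg 56 (B >>> 8) (B % 256 * i + p) % 2 ^ 47 else 0 := by
  have e0 : B &&& 255 = B % 256 := Nat.and_two_pow_sub_one_eq_mod B 8
  have e : ex B i = (B >>> (56 * (B &&& 255) * i + 8)) &&& m1 (B &&& 255) := by
    rw [ex, frc_eq]
    rfl
  rw [e, e0, dg_land, dg_m1, add_comm _ 8, Nat.shiftRight_add, mul_assoc, dg_shr, add_comm p]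
  split_ifs
  · exact Nat.and_two_pow_sub_one_eq_mod _ 47
  · exact Nat.and_zero _

/-- All lanes of `X` are at most `c * 2 ^ 47`, and lane `(p, q)` is `f p q` modulo `m` on `V`. -/
def Rp (R : ℕ) (m : ℤ) (c : ℕ) (V : ℕ → ℕ → Prop) (X : ℕ) (f : ℕ → ℕ → ℤ) : Prop :=
  (∀ i, dg 56 X i ≤ c * 2 ^ 47) ∧
    ∀ p q, p < R → V p q → ((dg 56 X (R * q + p) : ℕ) : ℤ) ≡ f p q [ZMOD m]

def Down (V : ℕ → ℕ → Prop) : Prop := ∀ p q p' q', p' ≤ p → q' ≤ q → V p q → V p' q'

variable {R c c' n : ℕ} {m : ℤ} {V V' : ℕ → ℕ → Prop} {X Y : ℕ} {f g : ℕ → ℕ → ℤ}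

theorem Rp.zero : Rp R m c V 0 fun _ _ => 0 := by
  refine ⟨fun i => ?_, fun p q _ _ => ?_⟩
  · rw [dg_zero]; exact Nat.zero_le _
  · rw [dg_zero]; rfl

theorem Rp.mono {m' : ℤ} (h : Rp R m c V X f) (hm : m' ∣ m) (hc : c ≤ c')
    (hV : ∀ p q, p < R → V' p q → V p q ∧ g p q = f p q) : Rp R m' c' V' X g := by
  refine ⟨fun i => (h.1 i).trans (Nat.mul_le_mul_right _ hc), fun p q hp hv => ?_⟩
  obtain ⟨h1, h2⟩ := hV p q hp hv
  rw [h2]
  exact (h.2 p q hp h1).of_dvd hm

theorem Rp.add (h : Rp R m c V X f) (h' : Rp R m c' V Y g) (hc : c + c' < 512) :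
    Rp R m (c + c') V (X + Y) fun p q => f p q + g p q := by
  have hb : ∀ i, dg 56 X i + dg 56 Y i ≤ (c + c') * 2 ^ 47 := fun i => by
    rw [add_mul]; exact Nat.add_le_add (h.1 i) (h'.1 i)
  have e := dg_add (w := 56) (x := X) (y := Y) fun i => by
    have := hb i
    omega
  refine ⟨fun i => by rw [e]; exact hb i, fun p q hp hv => ?_⟩
  rw [e, Nat.cast_add]
  exact (h.2 p q hp hv).add (h'.2 p q hp hv)

theorem Rp.smul (h : Rp R m c V X f) (s : ℕ) (hc : s * c < 512) :
    Rp R m (s * c) V (s * X) fun p q => s * f p q := by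
  have hb : ∀ i, s * dg 56 X i ≤ (s * c) * 2 ^ 47 := fun i => by
    rw [mul_assoc]; exact Nat.mul_le_mul_left _ (h.1 i)
  have e := dg_mul (w := 56) (x := X) s fun i => by
    have := hb i
    omega
  refine ⟨fun i => by rw [e]; exact hb i, fun p q hp hv => ?_⟩
  rw [e, Nat.cast_mul]
  exact (h.2 p q hp hv).mul_left _

theorem Rp.sum {cs X : ℕ → ℕ} {f : ℕ → ℕ → ℕ → ℤ} (h : ∀ j < n, Rp R m (cs j) V (X j) (f j))
    (hc : ∑ j ∈ range n, cs j < 512) :
    Rp R m (∑ j ∈ range n, cs j) V (∑ j ∈ range n, X j) fun p q => ∑ j ∈ range n, f j p q := by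
  induction n with
  | zero =>
    simp only [Finset.range_zero, Finset.sum_empty]
    exact Rp.zero
  | succ n ih =>
    simp only [Finset.sum_range_succ] at hc ⊢
    exact (ih (fun j hj => h j (Nat.lt_succ_of_lt hj)) (by omega)).add
      (h n (Nat.lt_succ_self n)) hc

theorem dg_and_mkM {R p : ℕ} (hp : p < R) (X n k q : ℕ) :
    dg 56 (X &&& mkM R n k) (R * q + p) =
      if q < n ∧ p + k < R then dg 56 X (R * q + p) % 2 ^ 47 else 0 := by
  rw [dg_land, dg_mkM hp]
  split_ifs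
  · exact Nat.and_two_pow_sub_one_eq_mod _ 47
  · exact Nat.and_zero _

theorem dg_and_mkM_lt {R : ℕ} (hR : 0 < R) (X n k i : ℕ) :
    dg 56 (X &&& mkM R n k) i < 2 ^ 47 := by
  rw [← Nat.div_add_mod i R, dg_and_mkM (Nat.mod_lt i hR)]
  split_ifs
  · exact Nat.mod_lt _ (by norm_num)
  · norm_num

theorem mod47_modEq (hm : m ∣ 2 ^ 47) (x : ℕ) : ((x % 2 ^ 47 : ℕ) : ℤ) ≡ x [ZMOD m] := by
  have h : ((x % 2 ^ 47 : ℕ) : ℤ) ≡ x [ZMOD 2 ^ 47] := by
    rw [Int.natCast_mod]
    exact Int.mod_modEq _ _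
  exact h.of_dvd hm

theorem Rp.mask (hR : 0 < R) (hm : m ∣ 2 ^ 47) (h : Rp R m c V X f)
    (hn : ∀ p q, V p q → q < n ∨ f p q = 0) : Rp R m 1 V (X &&& mkM R n 0) f := by
  refine ⟨fun i => ?_, fun p q hp hv => ?_⟩
  · rw [one_mul]; exact (dg_and_mkM_lt hR X n 0 i).le
  · rw [dg_and_mkM hp]
    split_ifs with h1
    · exact (mod47_modEq hm _).trans (h.2 p q hp hv)
    · rcases hn p q hv with h2 | h2
      · exact absurd ⟨h2, hp⟩ h1
      · rw [h2]; rfl

theorem Rp.shX (hR : 0 < R) (hm : m ∣ 2 ^ 47) (h : Rp R m c V X f) (hV : Down V)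
    (hn : ∀ p q, V p q → q < n) (k : ℕ) :
    Rp R m 1 V ((X &&& mkM R n k) <<< (56 * k))
      fun p q => if k ≤ p then f (p - k) q else 0 := by
  refine ⟨fun i => ?_, fun p q hp hv => ?_⟩
  · rw [one_mul, dg_shl]
    split_ifs
    · exact (dg_and_mkM_lt hR X n k _).le
    · exact Nat.zero_le _
  · rw [dg_shl]
    by_cases hk : k ≤ p
    · have e : R * q + p - k = R * q + (p - k) := by omega
      have hp' : p - k < R := by omega
      simp only [if_pos hk]
      rw [if_pos (by omega), e, dg_and_mkM hp', if_pos ⟨hn p q hv, by omega⟩]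
      exact (mod47_modEq hm _).trans (h.2 _ _ hp' (hV p q _ _ (Nat.sub_le _ _) le_rfl hv))
    · simp only [if_neg hk]
      split_ifs with h1
      · have h2 := dg_and_mkM (Nat.mod_lt (R * q + p - k) hR) X n k ((R * q + p - k) / R)
        rw [Nat.div_add_mod] at h2
        rw [h2, if_neg]
        · rfl
        · rintro ⟨-, h3⟩
          have h4 : ((R * q + p - k) % R + k) % R = p := by
            rw [Nat.mod_add_mod, Nat.sub_add_cancel h1, Nat.mul_add_mod, Nat.mod_eq_of_lt hp]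
          rw [Nat.mod_eq_of_lt h3] at h4
          omega
      · rfl

theorem Rp.shY (hR : 0 < R) (hm : m ∣ 2 ^ 47) (h : Rp R m c V X f) (hV : Down V)
    (hn : ∀ p q, V p q → q < n) (k : ℕ) :
    Rp R m 1 V ((X &&& mkM R (n - k) 0) <<< (56 * R * k))
      fun p q => if k ≤ q then f p (q - k) else 0 := by
  refine ⟨fun i => ?_, fun p q hp hv => ?_⟩
  · rw [one_mul, mul_assoc, dg_shl]
    split_ifs
    · exact (dg_and_mkM_lt hR X _ 0 _).le
    · exact Nat.zero_le _
  · rw [mul_assoc, dg_shl]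
    by_cases hk : k ≤ q
    · obtain ⟨r, rfl⟩ := Nat.exists_eq_add_of_le hk
      have e : R * (k + r) + p - R * k = R * r + p := by rw [mul_add]; omega
      have h1 := hn p _ hv
      simp only [if_pos hk]
      rw [if_pos (by rw [mul_add]; omega), e, dg_and_mkM hp, if_pos ⟨by omega, hp⟩,
        Nat.add_sub_cancel_left]
      exact (mod47_modEq hm _).trans (h.2 _ _ hp (hV p _ _ _ le_rfl (Nat.le_add_left r k) hv))
    · simp only [if_neg hk]
      have h1 : R * (q + 1) ≤ R * k := Nat.mul_le_mul_left R (by omega)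
      rw [mul_add, mul_one] at h1
      rw [if_neg (by omega)]
      rfl

theorem Rp.neg (hR : 0 < R) (hm : m ∣ 2 ^ 47) (h : Rp R m c V X f)
    (hn : ∀ p q, V p q → q < n ∨ f p q = 0) : Rp R m 1 V (K.neg R n X) fun p q => -f p q := by
  have e0 : K.neg R n X = bbM (R * n) - (X &&& mkM R n 0) := rfl
  have hle : ∀ i, dg 56 (X &&& mkM R n 0) i ≤ dg 56 (bbM (R * n)) i := by
    intro i
    rw [dg_bbM]
    split_ifs with hi
    · exact (dg_and_mkM_lt hR X n 0 i).le
    · rw [← Nat.div_add_mod i R, dg_and_mkM (Nat.mod_lt i hR), if_neg]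
      rintro ⟨h1, -⟩
      exact hi (by rw [mul_comm]; exact (Nat.div_lt_iff_lt_mul hR).1 h1)
  have e := dg_sub (w := 56) (by norm_num) hle
  refine ⟨fun i => ?_, fun p q hp hv => ?_⟩
  · rw [e0, e, dg_bbM, one_mul]
    split_ifs <;> omega
  · rw [e0, e, Nat.cast_sub (hle _)]
    have h1 : ((dg 56 (bbM (R * n)) (R * q + p) : ℕ) : ℤ) ≡ 0 [ZMOD m] := by
      rw [dg_bbM]
      split_ifs
      · exact (Int.modEq_zero_iff_dvd).2 (by exact_mod_cast hm)
      · rfl
    have h2 := (Rp.mask hR hm h hn).2 p q hp hv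
    simpa using h1.sub h2

end Vale.Agent.P181
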