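import Vale.Agent.P181.S.RepA
import Vale.Agent.P181.S.NDefs

/-! Correctness of the packed multiplication `mulH`.

PLAN.  `hh_rep`: put S t = ∑_{s < t} P s, G t p q = ∑_{i < t} [k i ≤ p] S (t - i) (p - k i) q,
H t p q = ∑_{l < t} [k l ≤ q] G (t - l) p (q - k l); then S (t+1) = S t + P t,
G (t+1) = S (t+1) + shiftX (G t), H (t+1) = G (t+1) + shiftY (H t) (`Finset.sum_range_succ'`).
Induction on the number j of remaining steps of `hgo`: if j + t = e + 1 and the three arguments
represent S t, G t, H t with bounds 1, 2, 3 then `hgo .. j S G H` represents H (e+1) with bound 3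
(step j+1 uses P (e - j) = P t).  If P t = 0 as a number then it represents 0 modulo m, so S itself
represents S (t+1).  `ps_rep`: `loop_eq`, `Rp.sum` twice; for fixed y the admissible z are
z0 ≤ z ≤ min s1 (d / k) with z0 = s1 - a / k (k * (s1 - z) ≤ a ↔ s1 - z ≤ a / k, `Nat.le_div_iff_mul_le`),
z = z0 + j, and the key is 4096 (a - k (s1 - z)) + 64 (c - k y) + (d - k z).  If k * s > a + c + d all
terms of PP vanish. -/

namespace Vale.Agent.P181

open K Finset

variable {R n : ℕ} {m : ℤ} {V : ℕ → ℕ → Prop}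

def repbS (f : ℕ → ℕ → ℕ → ℤ) (t p q : ℕ) : ℤ := ∑ s ∈ range t, f s p q

def repbG (k : ℕ) (f : ℕ → ℕ → ℕ → ℤ) (t p q : ℕ) : ℤ :=
  ∑ i ∈ range t, if k * i ≤ p then repbS f (t - i) (p - k * i) q else 0

def repbH (k : ℕ) (f : ℕ → ℕ → ℕ → ℤ) (t p q : ℕ) : ℤ :=
  ∑ l ∈ range t, if k * l ≤ q then repbG k f (t - l) p (q - k * l) else 0

theorem repb_shift (k t p : ℕ) (g : ℕ → ℕ → ℤ) :
    (∑ i ∈ range (t + 1), if k * i ≤ p then g (t + 1 - i) (p - k * i) else 0) =
      g (t + 1) p + if k ≤ p then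
        ∑ i ∈ range t, (if k * i ≤ p - k then g (t - i) (p - k - k * i) else 0) else 0 := by
  rw [Finset.sum_range_succ', add_comm]
  refine congrArg₂ _ ?_ ?_
  · simp
  · split_ifs with h
    · refine Finset.sum_congr rfl fun i _ => ?_
      have h1 : k * (i + 1) ≤ p ↔ k * i ≤ p - k := by rw [mul_add, mul_one]; omega
      have h2 : p - k * (i + 1) = p - k - k * i := by rw [mul_add, mul_one]; omega
      have h3 : t + 1 - (i + 1) = t - i := by omega
      rw [h2, h3]
      exact if_congr h1 rfl rfl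
    · refine Finset.sum_eq_zero fun i _ => if_neg ?_
      rw [mul_add, mul_one]; omega

theorem repbG_succ (k : ℕ) (f : ℕ → ℕ → ℕ → ℤ) (t p q : ℕ) :
    repbG k f (t + 1) p q = repbS f (t + 1) p q + if k ≤ p then repbG k f t (p - k) q else 0 :=
  repb_shift k t p fun t p => repbS f t p q

theorem repbH_succ (k : ℕ) (f : ℕ → ℕ → ℕ → ℤ) (t p q : ℕ) :
    repbH k f (t + 1) p q = repbG k f (t + 1) p q + if k ≤ q then repbH k f t p (q - k) else 0 :=
  repb_shift k t q fun t q => repbG k f t p q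

theorem repb_hgo_succ (e M MX MY sx sy : ℕ) (P : ℕ → ℕ) (j S G H S' : ℕ)
    (hS : S' = if P (e - j) = 0 then S else (S + P (e - j)) &&& M) :
    hgo e M MX MY sx sy P (j + 1) S G H = hgo e M MX MY sx sy P j S' (S' + (G &&& MX) <<< sx)
      (S' + (G &&& MX) <<< sx + (H &&& MY) <<< sy) := by
  have h : cnd (Nat.beq (frc (Nat.sub e j) P) 0) S
      (Nat.land (Nat.add S (frc (Nat.sub e j) P)) M) = S' := by
    rw [hS, cnd_eq, frc_eq]
    exact if_congr Nat.beq_eq.to_iff rfl rfl
  rw [← h]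
  rfl

theorem repb_hgo (hR : 0 < R) (hm : m ∣ 2 ^ 47) (hV : Down V) (hn : ∀ p q, V p q → q < n)
    (e k : ℕ) {P : ℕ → ℕ} {f : ℕ → ℕ → ℕ → ℤ} (hP : ∀ s ≤ e, Rp R m 510 V (P s) (f s)) (j : ℕ) :
    ∀ t S G H, j + t = e + 1 → Rp R m 1 V S (repbS f t) → Rp R m 2 V G (repbG k f t) →
      Rp R m 3 V H (repbH k f t) →
      Rp R m 3 V (hgo e (mkM R n 0) (mkM R n k) (mkM R (n - k) 0) (56 * k) (56 * R * k) P j S G H)
        (repbH k f (e + 1)) := by
  induction j with
  | zero =>
    intro t S G H ht _ _ hH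
    rw [zero_add] at ht
    subst ht
    exact hH
  | succ j ih =>
    intro t S G H ht hS hG hH
    have het : e - j = t := by omega
    rw [repb_hgo_succ _ _ _ _ _ _ _ _ _ _ _ _ rfl, het]
    have h1 : Rp R m (1 + 510) V (S + P t) (repbS f (t + 1)) :=
      (hS.add (hP t (by omega)) (by norm_num)).mono dvd_rfl le_rfl fun p q _ h =>
        ⟨h, Finset.sum_range_succ _ _⟩
    have hS' : Rp R m 1 V (if P t = 0 then S else (S + P t) &&& mkM R n 0) (repbS f (t + 1)) := by
      split_ifs with h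
      · rw [h, add_zero] at h1
        exact ⟨hS.1, h1.2⟩
      · exact h1.mask hR hm fun p q h => Or.inl (hn p q h)
    have hG' := (hS'.add (hG.shX hR hm hV hn k) (by norm_num)).mono (c' := 2)
      (g := repbG k f (t + 1)) dvd_rfl le_rfl fun p q _ h => ⟨h, repbG_succ k f t p q⟩
    have hH' := (hG'.add (hH.shY hR hm hV hn k) (by norm_num)).mono (c' := 3)
      (g := repbH k f (t + 1)) dvd_rfl le_rfl fun p q _ h => ⟨h, repbH_succ k f t p q⟩
    exact ih (t + 1) _ _ _ (by omega) hS' hG' hH'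

theorem repb_ps_eq (tab : ℕ → ℕ) (k k4 ak ck dk S K s : ℕ) :
    ps tab k k4 ak ck dk S K s = if k * s ≤ S then
      ∑ y ∈ range (min s ck + 1), ∑ j ∈ range (min (s - y) dk + 1 - (s - y - ak)),
        tab (K - k * (64 * y + (s - y - ak) + 4096 * (s - y - (s - y - ak))) + k4 * j) else 0 := by
  unfold ps ps1
  simp only [cnd_eq, loop_eq, frc_eq, mn_eq, Nat.ble_eq]
  rfl

theorem hh_rep (hR : 0 < R) (hm : m ∣ 2 ^ 47) (hV : Down V) (hn : ∀ p q, V p q → q < n)
    (e k : ℕ) {P : ℕ → ℕ} {f : ℕ → ℕ → ℕ → ℤ} (hP : ∀ s ≤ e, Rp R m 510 V (P s) (f s)) :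
    Rp R m 3 V (hh R n e k P) fun p q =>
      ∑ l ∈ range (e + 1), ∑ i ∈ range (e + 1 - l), ∑ s ∈ range (e + 1 - l - i),
        if k * i ≤ p ∧ k * l ≤ q then f s (p - k * i) (q - k * l) else 0 := by
  have h := repb_hgo hR hm hV hn e k hP (e + 1) 0 0 0 0 rfl Rp.zero Rp.zero Rp.zero
  refine Rp.mono h dvd_rfl le_rfl fun p q _ hv => ⟨hv, ?_⟩
  unfold repbH repbG repbS
  refine Finset.sum_congr rfl fun l _ => ?_
  by_cases h1 : k * l ≤ q
  · rw [if_pos h1]
    refine Finset.sum_congr rfl fun i _ => ?_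
    by_cases h2 : k * i ≤ p <;> simp [h1, h2]
  · simp [h1]

theorem ps_rep {k a c d : ℕ} (hk : 0 < k) {tab : ℕ → ℕ} {F : ℕ → ℕ → ℕ → ℕ → ℕ → ℤ}
    (ht : ∀ a' ≤ a, ∀ c' ≤ c, ∀ d' ≤ d,
      Rp R m 1 V (tab (4096 * a' + 64 * c' + d')) fun p q => F p q a' c' d')
    (s : ℕ) (hs : (min s c + 1) * (min s d + 1) ≤ 510) :
    Rp R m 510 V
      (ps tab k (4095 * k) (a / k) (c / k) (d / k) (a + c + d) (4096 * a + 64 * c + d) s)
      fun p q => PP k F s p q a c d := by
  have hd : ∀ x y : ℕ, k * x ≤ y ↔ x ≤ y / k := fun x y => by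
    rw [Nat.le_div_iff_mul_le hk, mul_comm]
  rw [repb_ps_eq]
  split_ifs with hS
  swap
  · refine Rp.mono (Rp.zero (c := 510)) dvd_rfl le_rfl fun p q _ hv => ⟨hv, ?_⟩
    refine Finset.sum_eq_zero fun y hy => Finset.sum_eq_zero fun z hz => if_neg ?_
    rw [Finset.mem_range] at hy hz
    have h1 : s = (s - y - z) + y + z := by omega
    have h2 : k * s = k * (s - y - z) + k * y + k * z := by
      rw [← mul_add, ← mul_add, ← h1]
    omega
  have hb : ∑ y ∈ range (min s (c / k) + 1),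
      ∑ _j ∈ range (min (s - y) (d / k) + 1 - (s - y - a / k)), 1 ≤ 510 := by
    refine le_trans (Finset.sum_le_card_nsmul _ _ (min s d + 1) fun y _ => ?_) ?_
    · have := Nat.div_le_self d k
      simp only [Finset.sum_const, Finset.card_range, smul_eq_mul, mul_one]
      omega
    · rw [Finset.card_range, smul_eq_mul]
      have := Nat.div_le_self c k
      exact le_trans (Nat.mul_le_mul_right _ (by omega)) hs
  have key := Rp.sum (R := R) (m := m) (V := V) (n := min s (c / k) + 1)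
    (cs := fun y => ∑ _j ∈ range (min (s - y) (d / k) + 1 - (s - y - a / k)), 1)
    (X := fun y => ∑ j ∈ range (min (s - y) (d / k) + 1 - (s - y - a / k)),
      tab (4096 * a + 64 * c + d - k * (64 * y + (s - y - a / k) +
        4096 * (s - y - (s - y - a / k))) + 4095 * k * j))
    (f := fun y p q => ∑ j ∈ range (min (s - y) (d / k) + 1 - (s - y - a / k)),
      F p q (a - k * (s - y - (s - y - a / k + j))) (c - k * y) (d - k * (s - y - a / k + j)))
    (fun y hy => by
      refine Rp.sum (cs := fun _ => 1) (fun j hj => ?_) ?_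
      · have h1 : k * y ≤ c := (hd _ _).2 (by omega)
        have h2 : k * (s - y - (s - y - a / k)) ≤ a := (hd _ _).2 (by omega)
        have h3 : k * (s - y - a / k + j) ≤ d := (hd _ _).2 (by omega)
        have h4 : k * (s - y - (s - y - a / k)) = k * (s - y - (s - y - a / k + j)) + k * j := by
          rw [← mul_add]; congr 1; omega
        have h5 : 4096 * a + 64 * c + d - k * (64 * y + (s - y - a / k) +
            4096 * (s - y - (s - y - a / k))) + 4095 * k * j =
            4096 * (a - k * (s - y - (s - y - a / k + j))) + 64 * (c - k * y) +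
              (d - k * (s - y - a / k + j)) := by
          have e1 : k * (64 * y + (s - y - a / k) + 4096 * (s - y - (s - y - a / k))) =
              64 * (k * y) + k * (s - y - a / k) + 4096 * (k * (s - y - (s - y - a / k))) := by ring
          have e2 : 4095 * k * j = 4095 * (k * j) := by ring
          rw [mul_add k _ j] at h3 ⊢
          rw [e1, e2]
          omega
        rw [h5]
        exact ht _ (Nat.sub_le _ _) _ (Nat.sub_le _ _) _ (Nat.sub_le _ _)
      · have := Finset.single_le_sum (f := fun y => ∑ _j ∈ range (min (s - y) (d / k) + 1 -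
          (s - y - a / k)), 1) (fun _ _ => Nat.zero_le _) (Finset.mem_range.2 hy)
        omega)
    (by omega)
  refine key.mono dvd_rfl hb fun p q _ hv => ⟨hv, ?_⟩
  unfold PP
  symm
  refine (Finset.sum_congr rfl fun y hy => ?_).trans (Finset.sum_subset
    (Finset.range_mono (by omega)) fun y _ hy => Finset.sum_eq_zero fun z _ => if_neg ?_)
  · rw [Finset.mem_range] at hy
    rw [← Finset.sum_filter, ← Finset.sum_Ico_eq_sum_range (fun z =>
      F p q (a - k * (s - y - z)) (c - k * y) (d - k * z))]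
    refine Finset.sum_congr ?_ fun _ _ => rfl
    ext z
    simp only [Finset.mem_Ico, Finset.mem_filter, Finset.mem_range, hd]
    omega
  · simp only [Finset.mem_range, hd] at *
    omega

theorem mulH_rep (hR : 0 < R) (hm : m ∣ 2 ^ 47) (hV : Down V) (hn : ∀ p q, V p q → q < n)
    {e k a c d : ℕ} (hk : 0 < k) {tab : ℕ → ℕ} {F : ℕ → ℕ → ℕ → ℕ → ℕ → ℤ}
    (ht : ∀ a' ≤ a, ∀ c' ≤ c, ∀ d' ≤ d,
      Rp R m 1 V (tab (4096 * a' + 64 * c' + d')) fun p q => F p q a' c' d')
    (he : (min e c + 1) * (min e d + 1) ≤ 510) :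
    Rp R m 3 V (mulH R n e k tab a c d) fun p q => HH e k F p q a c d := by
  refine hh_rep hR hm hV hn e k (f := fun s p q => PP k F s p q a c d) fun s hs =>
    ps_rep hk ht s (le_trans (Nat.mul_le_mul ?_ ?_) he) <;> omega

end Vale.Agent.P181
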