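import Vale.Agent.P181.S.Vz

/-! Translating lower bounds with the semigroup property.

PLAN.  `mN_one`: h_1[h_6] = h_6 = schur (6,0,0,0,0,0) has multiplicity 1 (`R.mult_schur`), or compute
cP 1 6 4 3 2 1 0 with `cP_rec`, `cP_zero`.  `cP_mono`: `h.semigroup` with μ = (6,0,..,0), induction;
lam b .. + (6,0,…) = lam (b+1) ... `nz_spec`: if y = 0 everything is 0.  Otherwise the lane of V is
nonzero, so by `VOK` (zone bits 0; if fd y 23 = 63 the key decodes as a = fd y 17 + 3, c = 0, which is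
never Valid, here the guard `fd y 23 ≤ 62` excludes it anyway) it is Valid at level y % 32 with positive cP.
`tv_tb`: if a guard fails the array is 0 and 0 ≤ cP (`h.nonnegN`).  Otherwise write x % 128 = z + 4 b',
μ_i = fd x .., cc = (x >>> 7) % 32, fd (x >>> 7) s = fd x (s + 7).  With X the source array and
s = 78 (μ3 - μ4) + μ2, `dg_shl` says lane 78 r + p is 0 or the lane 78 r' + p' of X with
78 r' + p' + s = 78 r + p, p' < 78.  If that lane is nonzero it is Valid at level b'; adding μ gives a Valid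
tuple at level b' + cc ≤ 24, so p' + μ2 ≤ 76, whence p = p' + μ2, r = r' + μ3 - μ4.  Then
`h.semigroup` (lam b' .. + lam cc .. = lam (b' + cc) ..) and `cP_mono`. -/

namespace Vale.Agent.P181

open K Finset

theorem mN_one : mN 1 ![6, 0, 0, 0, 0, 0] ≠ 0 := by
  have h1 : mN 1 ![6, 0, 0, 0, 0, 0] = cP 1 6 4 3 2 1 0 :=
    mult_eq_cP 1 6 ![6, 0, 0, 0, 0, 0] (by simp [Fin.sum_univ_six])
  have h2 := cP_rec 1 6 4 3 2 1 0
  have h3 : cP 0 6 = A0 := by
    funext p q a c d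
    exact cP_zero 6 p q a c d
  rw [sum_range_one, show 1 - 1 - 0 = 0 from rfl, h3] at h2
  have h4 : HH 6 (0 + 1) A0 4 3 2 1 0 = 1 := by decide +kernel
  rw [h1]
  rw [h4] at h2
  omega

theorem cP_nonneg (h : RepFacts) {b p q a c d : ℕ} (hv : Valid b p q a c d) :
    0 ≤ cP b 6 p q a c d := by
  rw [← mN_lam hv]
  exact h.nonnegN b _ (lam_anti hv)

theorem tv_add (h : RepFacts) {b e p q a c d m1 m2 m3 m4 m5 : ℕ} (hv : Valid b p q a c d)
    (hm : Valid e (m1 + 4) (m2 + 3) (m3 + 2) (m4 + 1) m5)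
    (hn : cP e 6 (m1 + 4) (m2 + 3) (m3 + 2) (m4 + 1) m5 ≠ 0) :
    Valid (b + e) (p + m1) (q + m2) (a + m3) (c + m4) (d + m5) ∧
      cP b 6 p q a c d ≤ cP (b + e) 6 (p + m1) (q + m2) (a + m3) (c + m4) (d + m5) := by
  have hw : Valid (b + e) (p + m1) (q + m2) (a + m3) (c + m4) (d + m5) := by
    unfold Valid at hv hm ⊢
    omega
  refine ⟨hw, ?_⟩
  have h1 := h.semigroup b e _ _ (lam_anti hv) (lam_anti hm) (by rwa [mN_lam hm])
  have e1 : lam b p q a c d + lam e (m1 + 4) (m2 + 3) (m3 + 2) (m4 + 1) m5 =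
      lam (b + e) (p + m1) (q + m2) (a + m3) (c + m4) (d + m5) := by
    unfold Valid at hv hm
    funext i
    fin_cases i <;> simp [lam] <;> omega
  rwa [e1, mN_lam hv, mN_lam hw] at h1

theorem cP_mono (h : RepFacts) {b b' p q a c d : ℕ} (hv : Valid b p q a c d) (hb : b ≤ b') :
    cP b 6 p q a c d ≤ cP b' 6 p q a c d := by
  have hm : Valid 1 (0 + 4) (0 + 3) (0 + 2) (0 + 1) 0 := by
    unfold Valid
    omega
  have hn : cP 1 6 (0 + 4) (0 + 3) (0 + 2) (0 + 1) 0 ≠ 0 := by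
    have h1 : mN 1 ![6, 0, 0, 0, 0, 0] = cP 1 6 4 3 2 1 0 :=
      mult_eq_cP 1 6 ![6, 0, 0, 0, 0, 0] (by simp [Fin.sum_univ_six])
    exact h1 ▸ mN_one
  induction hb with
  | refl => exact le_rfl
  | @step k hk ih =>
    have hk' : Valid k p q a c d := by
      unfold Valid at hv ⊢
      have : b ≤ k := hk
      omega
    exact ih.trans (tv_add h hk' hm hn).2

theorem tv_fd (x s : ℕ) : fd x s = x / 2 ^ s % 64 := by
  unfold fd
  rw [← Nat.shiftRight_eq_div_pow]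
  exact Nat.and_two_pow_sub_one_eq_mod _ 6

theorem tv_31 (x : ℕ) : Nat.land x 31 = x % 32 := Nat.and_two_pow_sub_one_eq_mod _ 5

theorem tv_127 (x : ℕ) : Nat.land x 127 = x % 128 := Nat.and_two_pow_sub_one_eq_mod _ 7

theorem tv_fd_lt (x s : ℕ) : fd x s < 64 := by
  rw [tv_fd]
  omega

theorem tv_fd_shr (x s : ℕ) : fd (x >>> 7) s = fd x (7 + s) := by
  unfold fd
  exact congrArg (Nat.land · 63) (Nat.shiftRight_add x 7 s).symm

theorem nz_spec {V : ℕ → ℕ} (hV : VOK V) {y : ℕ} (hy : nz V y = true) :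
    y = 0 ∨ (Valid (y % 32) (fd y 5 + 4) (fd y 11 + 3) (fd y 17 + 2) (fd y 23 + 1) (fd y 29) ∧
      cP (y % 32) 6 (fd y 5 + 4) (fd y 11 + 3) (fd y 17 + 2) (fd y 23 + 1) (fd y 29) ≠ 0) := by
  by_cases h0 : y = 0
  · exact Or.inl h0
  right
  unfold nz at hy
  rw [cnd_eq, if_neg (by rwa [Nat.beq_eq]), bnd2_iff, bnd2_iff, Nat.ble_eq, Nat.ble_eq, Nat.ble_eq,
    lane_eq, frc_eq, tv_31] at hy
  obtain ⟨⟨h1, h2⟩, h3⟩ := hy
  have h5 := tv_fd_lt y 5
  have hL := (hV 0 (y % 32) (fd y 17 + 2) (fd y 23 + 1) (fd y 29) (by omega) (by omega) (by omega)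
    (tv_fd_lt _ _)).2 (fd y 11 - fd y 17) (fd y 5 + 4) (by omega)
  rw [zero_add] at hL
  have h4 : 1 ≤ dg 56 (V (4 * (y % 32) + 128 * fd y 29 + 8192 * (fd y 23 + 1) +
      524288 * (fd y 17 + 2))) (78 * (fd y 11 - fd y 17) + (fd y 5 + 4)) := h3
  rw [show fd y 17 + 2 + 1 + (fd y 11 - fd y 17) = fd y 11 + 3 by omega] at hL
  obtain ⟨k1, k2⟩ := hL.resolve_left (by omega)
  exact ⟨k1, by omega⟩

/-- Every valid lane is a lower bound at all levels from `b` on. -/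
def TB (X b a c d : ℕ) : Prop :=
  (∀ i, dg 56 X i < 2 ^ 54) ∧ ∀ b', b ≤ b' → ∀ r p, p < 78 → Valid b' p (a + 1 + r) a c d →
    ((dg 56 X (78 * r + p) : ℕ) : ℤ) ≤ 720 * cP b' 6 p (a + 1 + r) a c d

theorem tv_zero (h : RepFacts) (b a c d : ℕ) : TB 0 b a c d := by
  refine ⟨fun i => by rw [dg_zero]; positivity, fun b' _ r p _ hv => ?_⟩
  have := cP_nonneg h hv
  rw [dg_zero]
  omega

theorem tv_shift (h : RepFacts) {X b b0 e a c d m1 m2 m3 m4 m5 : ℕ} (hb : b ≤ 24)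
    (he : b0 + e ≤ b) (hX : LB X b0 a c d)
    (hm : (e = 0 ∧ m1 = 0 ∧ m2 = 0 ∧ m3 = 0 ∧ m4 = 0 ∧ m5 = 0) ∨
      (Valid e (m1 + 4) (m2 + 3) (m3 + 2) (m4 + 1) m5 ∧
        cP e 6 (m1 + 4) (m2 + 3) (m3 + 2) (m4 + 1) m5 ≠ 0)) :
    TB (X <<< (56 * (78 * (m2 - m3) + m1))) b (a + m3) (c + m4) (d + m5) := by
  refine ⟨fun i => ?_, fun b' hb' r p hp hv => ?_⟩
  · rw [dg_shl]
    split_ifs
    · exact hX.1 _
    · positivity
  have h0 := cP_nonneg h hv
  rw [dg_shl]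
  split_ifs with hs
  swap
  · omega
  obtain ⟨r', p', hp', e1⟩ : ∃ r' p', p' < 78 ∧ 78 * r + p - (78 * (m2 - m3) + m1) = 78 * r' + p' :=
    ⟨_, _, Nat.mod_lt _ (by norm_num), (Nat.div_add_mod _ 78).symm⟩
  rw [e1]
  rcases hX.2 r' p' hp' with k | ⟨k1, k2⟩
  · omega
  rcases hm with ⟨-, rfl, rfl, rfl, rfl, rfl⟩ | ⟨hm, hn⟩
  · obtain ⟨rfl, rfl⟩ : r' = r ∧ p' = p := by omega
    have := cP_mono h k1 (show b0 ≤ b' by omega)
    simp only [add_zero]
    omega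
  · obtain ⟨k3, k4⟩ := tv_add h k1 hm hn
    have k5 := cP_mono h k3 (show b0 + e ≤ b' by omega)
    unfold Valid at k1 hm
    obtain ⟨rfl, e2⟩ : p = p' + m1 ∧ a + m3 + 1 + r = a + 1 + r' + m2 := by omega
    rw [e2]
    omega

theorem tv_tb (h : RepFacts) {V : ℕ → ℕ} (hV : VOK V) {b c d : ℕ} (hb : b ≤ 24) (hc : c < 64)
    (hd : d < 64) (a x : ℕ) : TB (tv V b a c d x) b a c d := by
  unfold tv
  rw [cnd_eq]
  split_ifs with hg
  swap
  · exact tv_zero h b a c d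
  rw [bnd2_iff, bnd2_iff, bnd2_iff, bnd2_iff, Nat.ble_eq, Nat.ble_eq, Nat.ble_eq, Nat.ble_eq,
    frc_eq, tv_31, tv_31] at hg
  obtain ⟨g1, g2, g3, g4, g5⟩ := hg
  have g1' : x >>> 2 % 32 + x >>> 7 % 32 ≤ b := g1
  have g6 := nz_spec hV (show nz V (x >>> 7) = true from g5)
  simp only [tv_fd_shr] at g6
  have hX := hV (x % 4) (x >>> 2 % 32) (a - fd x 24) (c - fd x 30) (d - fd x 36) (by omega)
    (by omega) (by omega) (by omega)
  rw [show x % 4 + 4 * (x >>> 2 % 32) = x % 128 by rw [Nat.shiftRight_eq_div_pow]; omega] at hX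
  have key := tv_shift h (m1 := fd x 12) (m2 := fd x 18) (m3 := fd x 24) (m4 := fd x 30)
    (m5 := fd x 36) hb g1' hX (g6.imp_left fun k => ?_)
  · rw [Nat.sub_add_cancel g2, Nat.sub_add_cancel g3, Nat.sub_add_cancel g4] at key
    rw [frc_eq, tv_127]
    exact key
  · rw [← tv_fd_shr x 5, ← tv_fd_shr x 11, ← tv_fd_shr x 17, ← tv_fd_shr x 23, ← tv_fd_shr x 29, k]
    simp [tv_fd]

end Vale.Agent.P181
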