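import Vale.Agent.P181.S.Vz
import Vale.Agent.P181.S.Lap

/-! The scalars of the stable bound, computed modulo `2 ^ 80`.

PLAN.  `DD_eq`, `dpL_le` give DD t j k = lane - bd with 0 ≤ lane ≤ 2 bd, and bd ≤ 2^21 (decide on the 55
entries), hence `DD_abs` and `dM_spec` (decode the key 128 i + k).  n2 x y z w ≡ x y - z w and
n2 < 2^171 when all arguments are below 2^81 (2^170 ≡ 0); n3 w x y z p q r is the residue modulo 2^80 of
w (x p - y q + z r) (`Nat.and_two_pow_sub_one_eq_mod`).  A lemma for `tm`: if s < 2^80, (s : ℤ) ≡ σ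
mod 2^80 and |σ| < 2^79 then tm cp cn u s k A O =
k (A + σ.natAbs * (if 0 ≤ σ then cp u else cn u)) (O + σ.natAbs * be u).
|scU| ≤ 144 * 6 * 2^63 < 2^79.  wpL t ≡ wE t mod 2^80 (decide).  Prove `cl0_spec` for one class t < 11
(ten applications of the `tm` lemma, `Finset.sum_range_succ`, the lists j3L.. sgL by `rfl`/`simp`), then
induct on the number of classes (generalize A, O; the recursion runs t = 10, 9, …, 0). -/

namespace Vale.Agent.P181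

open K Finset

theorem usa_bd : ∀ i < 55, bdL.getD i 0 ≤ 2 ^ 21 := by decide

theorem usa_wp : ∀ t < 11, ((wpL.getD t 0 : ℕ) : ℤ) ≡ wE.getD t 0 * 1 [ZMOD 2 ^ 80] ∧
    ((Nat.sub 1208925819614629174706176 (wpL.getD t 0) : ℕ) : ℤ) ≡ wE.getD t 0 * -1 [ZMOD 2 ^ 80] ∧
    |wE.getD t 0 * 1| ≤ 144 ∧ |wE.getD t 0 * -1| ≤ 144 := by decide

theorem DD_abs {t j k : ℕ} (ht : t < 11) (hj : j < 5) (hk : k < 78) : |DD t j k| ≤ 2 ^ 21 := by
  have h1 := DD_eq ht hj hk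
  have h2 := dpL_le ht hj k
  have h3 := usa_bd (5 * t + j) (by omega)
  rw [if_pos hk] at h2
  generalize dpL.getD (5 * t + j) 0 >>> (56 * k) % 2 ^ 56 = x at h1 h2
  rw [abs_le]
  omega

theorem dM_spec {t j k : ℕ} (ht : t < 11) (hj : j < 5) (hk : k < 78) :
    ((dM (128 * (5 * t + j) + k) : ℕ) : ℤ) ≡ DD t j k [ZMOD 2 ^ 80] ∧
      dM (128 * (5 * t + j) + k) < 2 ^ 81 := by
  have h1 := DD_eq ht hj hk
  have h2 := dpL_le ht hj k
  have h3 := usa_bd (5 * t + j) (by omega)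
  rw [if_pos hk] at h2
  have e1 : Nat.shiftRight (128 * (5 * t + j) + k) 7 = 5 * t + j := by
    change (128 * (5 * t + j) + k) >>> 7 = _
    rw [Nat.shiftRight_eq_div_pow]
    omega
  have e2 : Nat.land (128 * (5 * t + j) + k) 127 = k := by
    change (128 * (5 * t + j) + k) &&& (2 ^ 7 - 1) = _
    rw [Nat.and_two_pow_sub_one_eq_mod]
    omega
  have e3 : dM (128 * (5 * t + j) + k) = dpL.getD (5 * t + j) 0 >>> (56 * k) % 2 ^ 56 +
      (2 ^ 80 - bdL.getD (5 * t + j) 0) := by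
    rw [dM, e1, e2, lane_eq, dpM, bdM, frc_eq, frc_eq, nth_eq, nth_eq]
    rfl
  rw [e3]
  generalize dpL.getD (5 * t + j) 0 >>> (56 * k) % 2 ^ 56 = x at h1 h2
  generalize bdL.getD (5 * t + j) 0 = y at h1 h2 h3
  refine ⟨(Int.modEq_iff_dvd.2 ⟨-1, ?_⟩), by omega⟩
  omega

theorem usa_n2 {x y z w : ℕ} {X Y Z W : ℤ} (hx : (x : ℤ) ≡ X [ZMOD 2 ^ 80] ∧ x < 2 ^ 81)
    (hy : (y : ℤ) ≡ Y [ZMOD 2 ^ 80] ∧ y < 2 ^ 81) (hz : (z : ℤ) ≡ Z [ZMOD 2 ^ 80] ∧ z < 2 ^ 81)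
    (hw : (w : ℤ) ≡ W [ZMOD 2 ^ 80] ∧ w < 2 ^ 81) :
    ((n2 x y z w : ℕ) : ℤ) ≡ X * Y - Z * W [ZMOD 2 ^ 80] ∧ n2 x y z w < 2 ^ 171 := by
  have h1 : x * y < 2 ^ 81 * 2 ^ 81 := Nat.mul_lt_mul'' hx.2 hy.2
  have h2 : z * w < 2 ^ 81 * 2 ^ 81 := Nat.mul_lt_mul'' hz.2 hw.2
  have e : n2 x y z w = x * y + 2 ^ 170 - z * w := rfl
  have e1 : ((n2 x y z w : ℕ) : ℤ) = (x : ℤ) * y - z * w + 2 ^ 90 * 2 ^ 80 := by
    rw [e, ← Nat.cast_mul, ← Nat.cast_mul]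
    omega
  refine ⟨?_, by omega⟩
  rw [e1]
  exact Int.add_mul_modulus_modEq_iff.2 ((hx.1.mul hy.1).sub (hz.1.mul hw.1))

theorem usa_n3 {w x y z p q r : ℕ} {W X Y Z P Q R : ℤ} (hw : (w : ℤ) ≡ W [ZMOD 2 ^ 80])
    (hx : (x : ℤ) ≡ X [ZMOD 2 ^ 80]) (hy : (y : ℤ) ≡ Y [ZMOD 2 ^ 80] ∧ y < 2 ^ 81)
    (hz : (z : ℤ) ≡ Z [ZMOD 2 ^ 80]) (hp : (p : ℤ) ≡ P [ZMOD 2 ^ 80])
    (hq : (q : ℤ) ≡ Q [ZMOD 2 ^ 80] ∧ q < 2 ^ 171) (hr : (r : ℤ) ≡ R [ZMOD 2 ^ 80]) :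
    ((n3 w x y z p q r : ℕ) : ℤ) ≡ W * (X * P - Y * Q + Z * R) [ZMOD 2 ^ 80] ∧
      n3 w x y z p q r < 2 ^ 80 := by
  have h2 : y * q < 2 ^ 81 * 2 ^ 171 := Nat.mul_lt_mul'' hy.2 hq.2
  have e : n3 w x y z p q r = w * (x * p + z * r + 2 ^ 180 * 2 ^ 80 - y * q) % 2 ^ 80 := by
    rw [← Nat.and_two_pow_sub_one_eq_mod]
    rfl
  have e1 : ((x * p + z * r + 2 ^ 180 * 2 ^ 80 - y * q : ℕ) : ℤ) =
      (x : ℤ) * p - y * q + z * r + 2 ^ 180 * 2 ^ 80 := by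
    rw [← Nat.cast_mul, ← Nat.cast_mul, ← Nat.cast_mul]
    omega
  rw [e]
  refine ⟨?_, Nat.mod_lt _ (by norm_num)⟩
  rw [Int.natCast_mod, Nat.cast_mul, e1, Nat.cast_pow, Nat.cast_ofNat]
  exact (Int.mod_modEq _ _).trans (hw.mul (Int.add_mul_modulus_modEq_iff.2
    (((hx.mul hp).sub (hy.1.mul hq.1)).add (hz.mul hr))))

theorem usa_tm (cp cn : ℕ → ℕ) (u : ℕ) {s : ℕ} {σ : ℤ}
    (h : (s : ℤ) ≡ σ [ZMOD 2 ^ 80] ∧ s < 2 ^ 80) (hσ : |σ| < 2 ^ 79) (k : ℕ → ℕ → Bool) (A O : ℕ) :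
    tm cp cn u s k A O =
      k (A + σ.natAbs * (if 0 ≤ σ then cp u else cn u)) (O + σ.natAbs * be u) := by
  obtain ⟨⟨z, hz⟩, h2⟩ : (2 ^ 80 : ℤ) ∣ σ - s ∧ s < 2 ^ 80 := ⟨h.1.dvd, h.2⟩
  rw [abs_lt] at hσ
  simp only [tm, frc_eq, cnd_eq, Nat.beq_eq, Nat.ble_eq, Nat.add_eq, Nat.mul_eq, Nat.sub_eq]
  by_cases h0 : s = 0
  · have e : σ.natAbs = 0 := by omega
    rw [if_pos h0, e, zero_mul, zero_mul, add_zero, add_zero]
  · rw [if_neg h0]
    by_cases h1 : s ≤ 604462909807314587353088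
    · have e : σ.natAbs = s := by omega
      rw [if_pos h1, e, if_pos (by omega)]
    · have e : σ.natAbs = 1208925819614629174706176 - s := by omega
      rw [if_neg h1, e, if_neg (by omega)]

theorem usa_mul {x y a b : ℤ} (hx : |x| ≤ a) (hy : |y| ≤ b) : |x * y| ≤ a * b := by
  rw [abs_mul]
  exact mul_le_mul hx hy (abs_nonneg _) ((abs_nonneg _).trans hx)

theorem usa_m2 {t i j c d : ℕ} (ht : t < 11) (hi : i < 5) (hj : j < 5) (hc : c < 78) (hd : d < 78) :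
    |m2 (DD t) i j c d| ≤ 2 ^ 43 := by
  have h1 := usa_mul (DD_abs ht hi hc) (DD_abs ht hj hd)
  have h2 := usa_mul (DD_abs ht hj hc) (DD_abs ht hi hd)
  rw [m2]
  refine (abs_sub _ _).trans ?_
  omega

theorem usa_m3 {t i j l a c d : ℕ} (ht : t < 11) (hi : i < 5) (hj : j < 5) (hl : l < 5)
    (ha : a < 78) (hc : c < 78) (hd : d < 78) : |m3 (DD t) i j l a c d| ≤ 2 ^ 66 := by
  have h1 := usa_mul (DD_abs ht hi ha) (usa_m2 ht hj hl hc hd)
  have h2 := usa_mul (DD_abs ht hj ha) (usa_m2 ht hi hl hc hd)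
  have h3 := usa_mul (DD_abs ht hl ha) (usa_m2 ht hi hj hc hd)
  rw [m3]
  rw [abs_le] at h1 h2 h3 ⊢
  omega

/-- One term of a class. -/
theorem usa_term (cp cn : ℕ → ℕ) (u i j l : ℕ) {t a c d w : ℕ} {W : ℤ} (σ : ℤ) (ht : t < 11)
    (ha : a < 78) (hc : c < 78) (hd : d < 78) (hw : (w : ℤ) ≡ W [ZMOD 2 ^ 80]) (hW : |W| ≤ 144)
    (hi : i < 5) (hj : j < 5) (hl : l < 5) (e : σ = W * m3 (DD t) i j l a c d)
    (k : ℕ → ℕ → Bool) (A O : ℕ) :
    tm cp cn u (n3 w (dM (128 * (5 * t + i) + a)) (dM (128 * (5 * t + j) + a))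
      (dM (128 * (5 * t + l) + a))
      (n2 (dM (128 * (5 * t + j) + c)) (dM (128 * (5 * t + l) + d))
        (dM (128 * (5 * t + l) + c)) (dM (128 * (5 * t + j) + d)))
      (n2 (dM (128 * (5 * t + i) + c)) (dM (128 * (5 * t + l) + d))
        (dM (128 * (5 * t + l) + c)) (dM (128 * (5 * t + i) + d)))
      (n2 (dM (128 * (5 * t + i) + c)) (dM (128 * (5 * t + j) + d))
        (dM (128 * (5 * t + j) + c)) (dM (128 * (5 * t + i) + d)))) k A O =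
      k (A + σ.natAbs * (if 0 ≤ σ then cp u else cn u)) (O + σ.natAbs * be u) := by
  subst e
  refine usa_tm cp cn u (usa_n3 hw (dM_spec ht hi ha).1 (dM_spec ht hj ha) (dM_spec ht hl ha).1
    (usa_n2 (dM_spec ht hj hc) (dM_spec ht hl hd) (dM_spec ht hl hc) (dM_spec ht hj hd)).1
    (usa_n2 (dM_spec ht hi hc) (dM_spec ht hl hd) (dM_spec ht hl hc) (dM_spec ht hi hd))
    (usa_n2 (dM_spec ht hi hc) (dM_spec ht hj hd) (dM_spec ht hj hc) (dM_spec ht hi hd)).1) ?_ k A O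
  exact (usa_mul hW (usa_m3 ht hi hj hl ha hc hd)).trans_lt (by norm_num)

theorem cl0_spec (cp cn : ℕ → ℕ) {a c d t : ℕ} (ha : a < 78) (hc : c < 78) (hd : d < 78)
    (ht : t < 11) (k : ℕ → ℕ → Bool) (A O : ℕ) :
    cl0 cp cn a c d t k A O =
      k (A + ∑ u ∈ range 10, (scU DD t u a c d).natAbs *
          (if 0 ≤ scU DD t u a c d then cp (10 * t + u) else cn (10 * t + u)))
        (O + ∑ u ∈ range 10, (scU DD t u a c d).natAbs * be (10 * t + u)) := by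
  have e0 : ∀ x, Nat.add (Nat.mul 640 t) x = 128 * (5 * t + 0) + x := fun x => by
    simp only [Nat.add_eq, Nat.mul_eq]; omega
  have e1 : ∀ x, Nat.add (Nat.add (Nat.mul 640 t) x) 128 = 128 * (5 * t + 1) + x := fun x => by
    simp only [Nat.add_eq, Nat.mul_eq]; omega
  have e2 : ∀ x, Nat.add (Nat.add (Nat.mul 640 t) x) 256 = 128 * (5 * t + 2) + x := fun x => by
    simp only [Nat.add_eq, Nat.mul_eq]; omega
  have e3 : ∀ x, Nat.add (Nat.add (Nat.mul 640 t) x) 384 = 128 * (5 * t + 3) + x := fun x => by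
    simp only [Nat.add_eq, Nat.mul_eq]; omega
  have e4 : ∀ x, Nat.add (Nat.add (Nat.mul 640 t) x) 512 = 128 * (5 * t + 4) + x := fun x => by
    simp only [Nat.add_eq, Nat.mul_eq]; omega
  obtain ⟨w1, w2, w3, w4⟩ := usa_wp t ht
  simp only [cl0, frc_eq, nth_eq, e1, e2, e3, e4]
  simp only [e0]
  rw [cl1, cl2,
    usa_term cp cn _ 2 3 4 (scU DD t 0 a c d) ht ha hc hd w1 w3 (by decide) (by decide) (by decide)
      rfl,
    usa_term cp cn _ 1 3 4 (scU DD t 1 a c d) ht ha hc hd w2 w4 (by decide) (by decide) (by decide)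
      rfl,
    usa_term cp cn _ 1 2 4 (scU DD t 2 a c d) ht ha hc hd w1 w3 (by decide) (by decide) (by decide)
      rfl,
    usa_term cp cn _ 1 2 3 (scU DD t 3 a c d) ht ha hc hd w2 w4 (by decide) (by decide) (by decide)
      rfl,
    usa_term cp cn _ 0 3 4 (scU DD t 4 a c d) ht ha hc hd w1 w3 (by decide) (by decide) (by decide)
      rfl,
    usa_term cp cn _ 0 2 4 (scU DD t 5 a c d) ht ha hc hd w2 w4 (by decide) (by decide) (by decide)
      rfl,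
    usa_term cp cn _ 0 2 3 (scU DD t 6 a c d) ht ha hc hd w1 w3 (by decide) (by decide) (by decide)
      rfl,
    usa_term cp cn _ 0 1 4 (scU DD t 7 a c d) ht ha hc hd w1 w3 (by decide) (by decide) (by decide)
      rfl,
    usa_term cp cn _ 0 1 3 (scU DD t 8 a c d) ht ha hc hd w2 w4 (by decide) (by decide) (by decide)
      rfl,
    usa_term cp cn _ 0 1 2 (scU DD t 9 a c d) ht ha hc hd w1 w3 (by decide) (by decide) (by decide)
      rfl]
  simp only [sum_range_succ, sum_range_zero, Nat.add_eq, Nat.mul_eq, add_zero, zero_add, add_assoc]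

theorem usum_spec (cp cn : ℕ → ℕ) {a c d : ℕ} (ha : a < 78) (hc : c < 78) (hd : d < 78)
    (k : ℕ → ℕ → Bool) :
    usum cp cn a c d k =
      k (∑ t ∈ range 11, ∑ u ∈ range 10, (scU DD t u a c d).natAbs *
          (if 0 ≤ scU DD t u a c d then cp (10 * t + u) else cn (10 * t + u)))
        (∑ t ∈ range 11, ∑ u ∈ range 10, (scU DD t u a c d).natAbs * be (10 * t + u)) := by
  have key : ∀ n ≤ 11, ∀ A O : ℕ,
      Nat.rec (motive := fun _ => ℕ → ℕ → Bool) k (fun t ih => cl0 cp cn a c d t ih) n A O =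
      k (A + ∑ t ∈ range n, ∑ u ∈ range 10, (scU DD t u a c d).natAbs *
          (if 0 ≤ scU DD t u a c d then cp (10 * t + u) else cn (10 * t + u)))
        (O + ∑ t ∈ range n, ∑ u ∈ range 10, (scU DD t u a c d).natAbs * be (10 * t + u)) := by
    intro n
    induction n with
    | zero => intro _ A O; rfl
    | succ n ih =>
      intro hn A O
      refine (cl0_spec cp cn ha hc hd (t := n) (by omega) _ A O).trans ?_
      rw [ih (by omega), sum_range_succ _ n, sum_range_succ _ n, add_assoc, add_assoc,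
        add_comm (∑ t ∈ range n, _), add_comm (∑ t ∈ range n, _)]
  have e := key 11 le_rfl 0 0
  rw [zero_add, zero_add] at e
  exact e

end Vale.Agent.P181
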