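import Vale.Agent.P181.S.Lev
import Vale.Agent.P181.S.Eng2

/-! Lower bounds read from the verified tables.

PLAN.  `lam_*`: `mult_eq_cP`, `Fin.sum_univ_six`, omega; antitone by `antitone_vecCons` or
`Fin.antitone_iff_succ_le`.  `lane_eq`: `Nat.and_two_pow_sub_one_eq_mod`.  `dg_sgM`: `dg_shl`, `dg_rep`.
`dg_rwM`: `dg_ones`.  `vz_lb`: if a guard fails the array is 0.  Otherwise `dg_mul` (720 * 2^44 < 2^54),
`dg_land`, `dg_hor_rows` (4368 = 56 * 78; each row is below 2^(56 * 78) since its mask stops at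
ln ≤ R ≤ 78, `lt_of_dg`), row r is q = a + 1 + r < nn ≤ nr.  A nonzero lane has q < p, p < ln,
p < (6 b + 16 - (a+c+d) - q) / 2, so it is Valid and in Z (`ln_iff`); by `Lv` the lane x of `ex` is
congruent to N = cP b 6 .. modulo md b, and 2^(wL b) ∣ md b (check for b ≤ 24 by `decide`), the final lane
is 720 * (x % 2^(wL b)), and x % 2^w = N % 2^w ≤ N because 0 ≤ N (`h.nonnegN`, `mN_lam`).
`vv_ok`: decode the key (omega after `Nat.shiftRight_eq_div_pow`, `Nat.and_two_pow_sub_one_eq_mod`). -/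

namespace Vale.Agent.P181

open K Finset

def Valid (b p q a c d : ℕ) : Prop :=
  d < c ∧ c < a ∧ a < q ∧ q < p ∧ 2 * p + (q + a + c + d) < 6 * b + 15

/-- The partition with `λ + ρ = (6 b + 15 - p - q - a - c - d, p, q, a, c, d)`. -/
def lam (b p q a c d : ℕ) : Fin 6 → ℕ :=
  ![6 * b + 10 - (p + q + a + c + d), p - 4, q - 3, a - 2, c - 1, d]

variable {b p q a c d : ℕ}

theorem lam_anti (h : Valid b p q a c d) : Antitone (lam b p q a c d) := by
  obtain ⟨h1, h2, h3, h4, h5⟩ := h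
  rw [Fin.antitone_iff_succ_le]
  intro i
  fin_cases i <;> simp [lam] <;> omega

theorem lam_sum (h : Valid b p q a c d) : ∑ i, lam b p q a c d i = 6 * b := by
  obtain ⟨h1, h2, h3, h4, h5⟩ := h
  rw [Fin.sum_univ_six]
  show 6 * b + 10 - (p + q + a + c + d) + (p - 4) + (q - 3) + (a - 2) + (c - 1) + d = 6 * b
  omega

theorem mN_lam (h : Valid b p q a c d) : mN b (lam b p q a c d) = cP b 6 p q a c d := by
  have e := mult_eq_cP b 6 (lam b p q a c d) (by rw [lam_sum h, mul_comm])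
  obtain ⟨h1, h2, h3, h4, h5⟩ := h
  refine e.trans ?_
  show cP b 6 (p - 4 + 4) (q - 3 + 3) (a - 2 + 2) (c - 1 + 1) d = _
  rw [Nat.sub_add_cancel (by omega), Nat.sub_add_cancel (by omega), Nat.sub_add_cancel (by omega),
    Nat.sub_add_cancel (by omega)]

theorem mM_lam (h : Valid b p q a c d) : mM b (lam b p q a c d) = cP 6 b p q a c d := by
  have e := mult_eq_cP 6 b (lam b p q a c d) (lam_sum h)
  obtain ⟨h1, h2, h3, h4, h5⟩ := h
  refine e.trans ?_
  show cP 6 b (p - 4 + 4) (q - 3 + 3) (a - 2 + 2) (c - 1 + 1) d = _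
  rw [Nat.sub_add_cancel (by omega), Nat.sub_add_cancel (by omega), Nat.sub_add_cancel (by omega),
    Nat.sub_add_cancel (by omega)]

theorem valid_of_anti {l : Fin 6 → ℕ} (hl : Antitone l) (hs : ∑ i, l i = 6 * b) :
    Valid b (l 1 + 4) (l 2 + 3) (l 3 + 2) (l 4 + 1) (l 5) ∧
      lam b (l 1 + 4) (l 2 + 3) (l 3 + 2) (l 4 + 1) (l 5) = l := by
  rw [Fin.sum_univ_six] at hs
  have h0 : l 1 ≤ l 0 := hl (by decide)
  have h1 : l 2 ≤ l 1 := hl (by decide)
  have h2 : l 3 ≤ l 2 := hl (by decide)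
  have h3 : l 4 ≤ l 3 := hl (by decide)
  have h4 : l 5 ≤ l 4 := hl (by decide)
  refine ⟨⟨by omega, by omega, by omega, by omega, by omega⟩, ?_⟩
  funext i
  fin_cases i <;> simp [lam]
  omega

theorem bnd2_iff (x y : Bool) : bnd2 x y = true ↔ x = true ∧ y = true := by
  cases x <;> cases y <;> simp [bnd2, cnd_eq]

theorem lane_eq (X i : ℕ) : lane X i = dg 56 X i := by
  exact Nat.and_two_pow_sub_one_eq_mod _ 56

theorem dg_sgM {v : ℕ} (hv : v < 2 ^ 56) (lo hi i : ℕ) :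
    dg 56 (sgM v lo hi) i = if lo ≤ i ∧ i < hi then v else 0 := by
  have e : sgM v lo hi = (v * ones 56 (hi - lo)) <<< (56 * lo) := by
    unfold sgM sg
    rw [frc_eq, frc_eq, on_eq]
    rfl
  rw [e, dg_shl, dg_rep (by norm_num) hv]
  split_ifs <;> first | rfl | omega

theorem dg_rwM {v : ℕ} (hv : v < 2 ^ 56) (n i : ℕ) :
    dg 56 (v * rwM n) i = if i < 78 * n then v else 0 := by
  have e : rwM n = ones 56 (78 * n) := by
    unfold rwM rw1
    rw [frc_eq, on_eq]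
    rfl
  rw [e, dg_rep (by norm_num) hv]

/-- Every lane is zero, or valid and at most `720` times the multiplicity. -/
def LB (X b a c d : ℕ) : Prop :=
  (∀ i, dg 56 X i < 2 ^ 54) ∧ ∀ r p, p < 78 → dg 56 X (78 * r + p) = 0 ∨
    (Valid b p (a + 1 + r) a c d ∧
      ((dg 56 X (78 * r + p) : ℕ) : ℤ) ≤ 720 * cP b 6 p (a + 1 + r) a c d)

theorem vz_w : ∀ b ≤ 24, wL.getD b 0 ≤ 44 ∧ (2 : ℤ) ^ wL.getD b 0 ∣ md b := by
  unfold wL
  decide +kernel

theorem vz_eq (Bm am cm : ℕ) (nr : ℕ → ℕ → ℕ → ℕ) (ln : ℕ → ℕ → ℕ → ℕ → ℕ) (lv : List Tr)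
    (b a c d : ℕ) : vz Bm am cm nr ln lv b a c d =
    if b ≤ Bm ∧ 1 ≤ b ∧ a < am ∧ c < cm ∧ c < a ∧ d < c then
      720 * (hor (56 * 78) (nn nr b a c d - (a + 1)) (fun j =>
        ex (blk lv b (4096 * a + 64 * c + d)) (nn nr b a c d - (a + 1) - (j + 1)) &&&
          sgM (2 ^ 47 - 1) (a + (nn nr b a c d - (a + 1)) - j + 1)
            (min (ln (a + (nn nr b a c d - (a + 1)) - j) a c d)
              ((6 * b + 16 - (a + c + d) - (a + (nn nr b a c d - (a + 1)) - j)) / 2))) &&&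
        (2 ^ wL.getD b 0 - 1) * rwM (nn nr b a c d - (a + 1))) else 0 := by
  unfold vz wm
  simp only [cnd_eq, bnd2_iff, Nat.ble_eq, frc_eq, mn_eq, nth_eq]
  rfl

theorem vz_lb (h : RepFacts) {R cm am Bm : ℕ} {nr : ℕ → ℕ → ℕ → ℕ} {ln : ℕ → ℕ → ℕ → ℕ → ℕ}
    {Z : ℕ → ℕ → ℕ → ℕ → ℕ → Prop} {lv : List Tr} (hZ : ZoneOK R cm am nr ln Z) (hR : R ≤ 78)
    (hB : Bm ≤ 24) (hL : ∀ b, b ≠ 0 → b ≤ Bm → Lv R Z lv b) (b a c d : ℕ) :
    LB (vz Bm am cm nr ln lv b a c d) b a c d := by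
  have z : LB 0 b a c d := ⟨fun i => by rw [dg_zero]; positivity, fun r p _ => Or.inl (dg_zero _ _)⟩
  rw [vz_eq]
  split_ifs with hg
  swap
  · exact z
  obtain ⟨g1, g2, g3, g4, g5, g6⟩ := hg
  obtain ⟨w1, w2⟩ := vz_w b (g1.trans hB)
  generalize wL.getD b 0 = w at w1 w2
  have hw : 2 ^ w ≤ 2 ^ 44 := Nat.pow_le_pow_right two_pos w1
  have hw0 : 0 < 2 ^ w := by positivity
  have hw' : 2 ^ w - 1 < 2 ^ 56 := by omega
  generalize hm : nn nr b a c d - (a + 1) = m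
  rw [lev_nn] at hm
  generalize hBB : blk lv b (4096 * a + 64 * c + d) = B
  have hle : ∀ X i, dg 56 (X &&& (2 ^ w - 1) * rwM m) i < 2 ^ 44 := fun X i => by
    rw [dg_land, dg_rwM hw']
    refine lt_of_le_of_lt Nat.and_le_right ?_
    split_ifs <;> omega
  have hmul : ∀ X i, dg 56 (720 * (X &&& (2 ^ w - 1) * rwM m)) i =
      720 * dg 56 (X &&& (2 ^ w - 1) * rwM m) i := fun X i =>
    dg_mul 720 (fun i => by have := hle X i; omega) i
  refine ⟨fun i => ?_, fun r p hp => ?_⟩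
  · rw [hmul]
    refine lt_of_lt_of_le (Nat.mul_lt_mul_of_pos_left (hle _ i) (by norm_num)) (by norm_num)
  rw [hmul, dg_land, dg_rwM hw', dg_hor_rows hp]
  swap
  · intro j hj
    refine lt_of_dg (by norm_num) fun i hi => ?_
    have k := (hZ.ln_pos (a + m - j) a c d g6 g5 (by omega) g3 g4 (by omega)).2
    rw [dg_land, dg_sgM (by norm_num), if_neg (by omega), Nat.and_zero]
  by_cases hr : r < m
  swap
  · left
    rw [if_neg hr, Nat.zero_and]
  rw [if_pos hr, if_pos (by omega), show m - (m - 1 - r + 1) = r by omega,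
    show a + m - (m - 1 - r) = a + 1 + r by omega, dg_land, dg_sgM (by norm_num)]
  split_ifs with hs
  swap
  · left
    rw [Nat.and_zero, Nat.zero_and]
  right
  have hV : Valid b p (a + 1 + r) a c d := ⟨g6, g5, by omega, by omega, by omega⟩
  refine ⟨hV, ?_⟩
  have hz : Z p (a + 1 + r) a c d :=
    (hZ.ln_iff p (a + 1 + r) a c d g6 g5 (by omega) g3 g4 (by omega)).2 (by omega)
  have k := (hL b (by omega) g1 (a + 1 + r) a c d g6 g5 (by omega)
    (hZ.down _ _ _ _ _ _ _ _ _ _ (Nat.zero_le _) le_rfl le_rfl le_rfl le_rfl hz)).2 p hz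
  rw [hBB, show a + 1 + r - a - 1 = r by omega] at k
  have hN : 0 ≤ cP b 6 p (a + 1 + r) a c d := by
    rw [← mN_lam hV]
    exact h.nonnegN _ _ (lam_anti hV)
  rw [Nat.and_two_pow_sub_one_eq_mod, Nat.and_two_pow_sub_one_eq_mod,
    Nat.mod_eq_of_lt (lev_ex_lt B r p)]
  have k2 : ((dg 56 (ex B r) p : ℕ) : ℤ) % 2 ^ w = cP b 6 p (a + 1 + r) a c d % 2 ^ w :=
    k.of_dvd w2
  push_cast
  rw [k2]
  exact mul_le_mul_of_nonneg_left (by
    rw [Int.emod_def]
    exact sub_le_self _ (mul_nonneg (by positivity) (Int.ediv_nonneg hN (by positivity)))) (by norm_num)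

def VOK (V : ℕ → ℕ) : Prop :=
  ∀ z b a c d, z < 4 → b < 32 → c < 64 → d < 64 →
    LB (V (z + 4 * b + 128 * d + 8192 * c + 524288 * a)) b a c d

theorem vv_ok (h : RepFacts) {l1 l2 l3 : List Tr} (h1 : ∀ b, b ≠ 0 → b ≤ 13 → Lv 44 Z1 l1 b)
    (h2 : ∀ b, b ≠ 0 → b ≤ 24 → Lv 78 Z2 l2 b) (h3 : ∀ b, b ≠ 0 → b ≤ 24 → Lv 78 Z3 l3 b) :
    VOK (vv l1 l2 l3) := by
  intro z b a c d hz hb hc hd
  generalize hK : z + 4 * b + 128 * d + 8192 * c + 524288 * a = K
  have e1 : Nat.land (Nat.shiftRight K 2) 31 = b := by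
    refine (Nat.and_two_pow_sub_one_eq_mod (K >>> 2) 5).trans ?_
    rw [Nat.shiftRight_eq_div_pow]
    omega
  have e2 : Nat.shiftRight K 19 = a := by
    refine (Nat.shiftRight_eq_div_pow K 19).trans ?_
    omega
  have e3 : Nat.land (Nat.shiftRight K 13) 63 = c := by
    refine (Nat.and_two_pow_sub_one_eq_mod (K >>> 13) 6).trans ?_
    rw [Nat.shiftRight_eq_div_pow]
    omega
  have e4 : Nat.land (Nat.shiftRight K 7) 63 = d := by
    refine (Nat.and_two_pow_sub_one_eq_mod (K >>> 7) 6).trans ?_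
    rw [Nat.shiftRight_eq_div_pow]
    omega
  unfold vv
  simp only [frc_eq, cnd_eq]
  rw [e1, e2, e3, e4]
  split_ifs
  · exact vz_lb h zone1 (by norm_num) (by norm_num) h1 b a c d
  · exact vz_lb h zone2 le_rfl le_rfl h2 b a c d
  · exact vz_lb h zone3 le_rfl le_rfl h3 b a c d

end Vale.Agent.P181
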